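import Crest.Agent.R120.Defs

/-!
# R120 piece Ind (done): left induction principles for `AA`
-/

set_option autoImplicit false
open scoped ComplexOrder InnerProductSpace Topology
open Filter

namespace Crest.Agent.R120

variable {H : Type} [NormedAddCommGroup H] [InnerProductSpace ℂ H] [CompleteSpace H]

theorem adjoin_induction_left {B : Base H} {I : Set (Datum B)} {s : Datum B → (H →L[ℂ] H)}
    (hs : ∀ i ∈ I, star (s i) = s i) {p : (H →L[ℂ] H) → Prop} (one : p 1)
    (add : ∀ a b, p a → p b → p (a + b)) (mulM : ∀ x ∈ B.M, ∀ w, p w → p (x * w))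
    (muls : ∀ i ∈ I, ∀ w, p w → p (s i * w)) {w : H →L[ℂ] H}
    (hw : w ∈ StarAlgebra.adjoin ℂ ((B.M : Set (H →L[ℂ] H)) ∪ s '' I)) : p w := by
  have hstar : star ((B.M : Set (H →L[ℂ] H)) ∪ s '' I) = (B.M : Set (H →L[ℂ] H)) ∪ s '' I := by
    ext x
    constructor
    · rintro (hx | ⟨i, hi, hx⟩)
      · left
        have h5 : star (star x) ∈ B.M := star_mem (show star x ∈ B.M from hx)
        simpa using h5
      · right
        refine ⟨i, hi, ?_⟩
        have := congrArg star hx
        rw [hs i hi, star_star] at this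
        exact this
    · rintro (hx | ⟨i, hi, rfl⟩)
      · left
        exact star_mem (show x ∈ B.M from hx)
      · right
        exact ⟨i, hi, (hs i hi).symm⟩
  have hw' : w ∈ Algebra.adjoin ℂ ((B.M : Set (H →L[ℂ] H)) ∪ s '' I) := by
    have h1 : (StarAlgebra.adjoin ℂ ((B.M : Set (H →L[ℂ] H)) ∪ s '' I)).toSubalgebra =
        Algebra.adjoin ℂ ((B.M : Set (H →L[ℂ] H)) ∪ s '' I) := by
      rw [StarAlgebra.adjoin_toSubalgebra, hstar, Set.union_self]
    rw [← h1]
    exact hw
  have hzero : p 0 := by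
    have := mulM 0 (zero_mem _) 1 one
    simpa using this
  have hsmul : ∀ (c : ℂ) (a : H →L[ℂ] H), p a → p (c • a) := by
    intro c a ha
    have := mulM (c • (1 : H →L[ℂ] H)) (B.M.smul_mem (one_mem _) c) a ha
    simpa using this
  rw [← Subalgebra.mem_toSubmodule, Algebra.adjoin_eq_span] at hw'
  clear hw
  induction hw' using Submodule.span_induction with
  | mem x hx =>
    induction hx using Submonoid.closure_induction_left with
    | one => exact one
    | mul_left y hy z _ ih =>
      rcases hy with hy | ⟨i, hi, rfl⟩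
      · exact mulM y hy z ih
      · exact muls i hi z ih
  | zero => exact hzero
  | add a b _ _ ha hb => exact add a b ha hb
  | smul c a _ ha => exact hsmul c a ha

theorem AA_induction_left {B : Base H} {I : Set (Datum B)} {s : Datum B → (H →L[ℂ] H)}
    (hs : ∀ i ∈ I, star (s i) = s i) {p : (H →L[ℂ] H) → Prop} (one : p 1)
    (add : ∀ a b, p a → p b → p (a + b)) (mulM : ∀ x ∈ B.M, ∀ w, p w → p (x * w))
    (muls : ∀ i ∈ I, ∀ w, p w → p (s i * w)) (closed : IsClosed {w | p w}) {w : H →L[ℂ] H}
    (hw : w ∈ AA B I s) : p w := by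
  have h1 : (AA B I s : Set (H →L[ℂ] H)) =
      closure (StarAlgebra.adjoin ℂ ((B.M : Set (H →L[ℂ] H)) ∪ s '' I) : Set (H →L[ℂ] H)) :=
    StarSubalgebra.topologicalClosure_coe _
  have h2 : w ∈ closure
      (StarAlgebra.adjoin ℂ ((B.M : Set (H →L[ℂ] H)) ∪ s '' I) : Set (H →L[ℂ] H)) := by
    rw [← h1]; exact hw
  exact closed.closure_subset_iff.2
    (fun x hx => adjoin_induction_left hs one add mulM muls hx) h2

end Crest.Agent.R120
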