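import Crest.Agent.R120.Sym
import Crest.Agent.R120.Ind

/-!
# R120 piece Appr: approximation of words by elements of `M`

For `w` in the adjoin (not closed) there are `L, C` such that for every `δ > 0`
`w = a + ∑_{j<L} y_j P_j z_j` with `a, y_j, P_j ∈ M`, `P_j` projections with `‖P_j Ω‖ ≤ δ`, norms
`≤ C`. `adjoin_induction_left` (Ind.lean):
`x ∈ M`: `x w = x a + ∑ (x y_j) P_j z_j`. `s = s i`, `P' = E_{k_N} + e_N` (projection, `s P' = P' s`,
`‖P'Ω‖ → 0`): `s y = (s (1-P')) y + P' s y`, so `s w = (s(1-P')a) + P' (s a) +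
∑ [(s(1-P') y_j) P_j z_j + P' (s y_j P_j z_j)]`.
-/

set_option autoImplicit false
open scoped ComplexOrder InnerProductSpace Topology
open Filter

namespace Crest.Agent.R120

variable {H : Type} [NormedAddCommGroup H] [InnerProductSpace ℂ H] [CompleteSpace H]

def Appr (B : Base H) (w : H →L[ℂ] H) : Prop :=
  ∃ (L : ℕ) (C : ℝ), ∀ δ : ℝ, 0 < δ → ∃ (a : H →L[ℂ] H) (y P z : Fin L → (H →L[ℂ] H)),
    a ∈ B.M ∧ ‖a‖ ≤ C ∧ (∀ j, y j ∈ B.M ∧ ‖y j‖ ≤ C) ∧
    (∀ j, P j ∈ B.M ∧ IsStarProjection (P j) ∧ ‖P j B.Ω‖ ≤ δ) ∧ (∀ j, ‖z j‖ ≤ C) ∧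
    w = a + ∑ j, y j * P j * z j

theorem Appr_aux.norm_one_le : ‖(1 : H →L[ℂ] H)‖ ≤ 1 := ContinuousLinearMap.norm_id_le

theorem Appr_aux.one (B : Base H) : Appr B 1 := by
  refine ⟨0, 1, fun δ _ => ⟨1, Fin.elim0, Fin.elim0, Fin.elim0, one_mem _,
    Appr_aux.norm_one_le, fun j => j.elim0, fun j => j.elim0, fun j => j.elim0, by simp⟩⟩

theorem Appr_aux.add (B : Base H) (a b : H →L[ℂ] H) (ha : Appr B a) (hb : Appr B b) :
    Appr B (a + b) := by
  obtain ⟨L₁, C₁, h₁⟩ := ha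
  obtain ⟨L₂, C₂, h₂⟩ := hb
  have hC₁ : 0 ≤ C₁ := by
    obtain ⟨a', _, _, _, _, h, _⟩ := h₁ 1 one_pos
    exact (norm_nonneg _).trans h
  have hC₂ : 0 ≤ C₂ := by
    obtain ⟨a', _, _, _, _, h, _⟩ := h₂ 1 one_pos
    exact (norm_nonneg _).trans h
  refine ⟨L₁ + L₂, C₁ + C₂, fun δ hδ => ?_⟩
  obtain ⟨a₁, y₁, P₁, z₁, ha₁, hna₁, hy₁, hP₁, hz₁, he₁⟩ := h₁ δ hδ
  obtain ⟨a₂, y₂, P₂, z₂, ha₂, hna₂, hy₂, hP₂, hz₂, he₂⟩ := h₂ δ hδ
  refine ⟨a₁ + a₂, Fin.append y₁ y₂, Fin.append P₁ P₂, Fin.append z₁ z₂, add_mem ha₁ ha₂,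
    (norm_add_le _ _).trans (add_le_add hna₁ hna₂), ?_, ?_, ?_, ?_⟩
  · intro j
    refine Fin.addCases (fun i => ?_) (fun i => ?_) j
    · rw [Fin.append_left]; exact ⟨(hy₁ i).1, (hy₁ i).2.trans (by linarith)⟩
    · rw [Fin.append_right]; exact ⟨(hy₂ i).1, (hy₂ i).2.trans (by linarith)⟩
  · intro j
    refine Fin.addCases (fun i => ?_) (fun i => ?_) j
    · rw [Fin.append_left]; exact hP₁ i
    · rw [Fin.append_right]; exact hP₂ i
  · intro j
    refine Fin.addCases (fun i => ?_) (fun i => ?_) j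
    · rw [Fin.append_left]; exact (hz₁ i).trans (by linarith)
    · rw [Fin.append_right]; exact (hz₂ i).trans (by linarith)
  · rw [Fin.sum_univ_add]
    simp only [Fin.append_left, Fin.append_right]
    rw [he₁, he₂]; abel

theorem Appr_aux.mulM (B : Base H) (x : H →L[ℂ] H) (hx : x ∈ B.M) (w : H →L[ℂ] H)
    (hw : Appr B w) : Appr B (x * w) := by
  obtain ⟨L, C, h⟩ := hw
  have hC : 0 ≤ C := by
    obtain ⟨a', _, _, _, _, h, _⟩ := h 1 one_pos
    exact (norm_nonneg _).trans h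
  have hxC : 0 ≤ ‖x‖ * C := mul_nonneg (norm_nonneg _) hC
  refine ⟨L, ‖x‖ * C + C, fun δ hδ => ?_⟩
  obtain ⟨a, y, P, z, ha, hna, hy, hP, hz, he⟩ := h δ hδ
  refine ⟨x * a, fun j => x * y j, P, z, mul_mem hx ha, ?_, fun j => ⟨mul_mem hx (hy j).1, ?_⟩,
    hP, fun j => (hz j).trans (by linarith), ?_⟩
  · calc ‖x * a‖ ≤ ‖x‖ * ‖a‖ := norm_mul_le _ _
      _ ≤ ‖x‖ * C := mul_le_mul_of_nonneg_left hna (norm_nonneg _)
      _ ≤ _ := by linarith
  · calc ‖x * y j‖ ≤ ‖x‖ * ‖y j‖ := norm_mul_le _ _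
      _ ≤ ‖x‖ * C := mul_le_mul_of_nonneg_left (hy j).2 (norm_nonneg _)
      _ ≤ _ := by linarith
  · rw [he, mul_add, Finset.mul_sum]
    simp only [mul_assoc]

theorem Appr_aux.muls (B : Base H) (d : Datum B) (s : H →L[ℂ] H) (hs : IsSym B d s)
    (w : H →L[ℂ] H) (hw : Appr B w) : Appr B (s * w) := by
  obtain ⟨L, C, h⟩ := hw
  have hC : 0 ≤ C := by
    obtain ⟨a', _, _, _, _, h, _⟩ := h 1 one_pos
    exact (norm_nonneg _).trans h
  have hn1 : 0 ≤ ‖s‖ * 3 * C := by positivity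
  have hn2 : 0 ≤ ‖s * w‖ := norm_nonneg _
  refine ⟨L + 1, ‖s‖ * 3 * C + C + ‖s * w‖ + 1, fun δ hδ => ?_⟩
  obtain ⟨a, y, P, z, ha, hna, hy, hP, hz, he⟩ := h δ hδ
  -- choose N
  have htend : Tendsto (fun n => ‖B.E (d.k n) B.Ω‖ + ‖d.e n B.Ω‖) atTop (𝓝 0) := by
    have h1 := ((E_tendsto B B.Ω).comp d.k_mono.tendsto_atTop).norm
    have h2 := (e_tendsto B d B.Ω).norm
    simpa using h1.add h2
  obtain ⟨N, hN⟩ := ((htend.eventually (ge_mem_nhds hδ))).exists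
  set P' := B.E (d.k N) + d.e N with hP'
  have hP'M : P' ∈ B.M := add_mem (E_mem B _) (d.e_mem N)
  have hEp := E_proj B (d.k N)
  have hep := d.e_proj N
  have hP'p : IsStarProjection P' := by
    refine ⟨?_, hEp.isSelfAdjoint.add hep.isSelfAdjoint⟩
    show P' * P' = P'
    have h1 : B.E (d.k N) * B.E (d.k N) = B.E (d.k N) := hEp.isIdempotentElem
    have h2 : d.e N * d.e N = d.e N := hep.isIdempotentElem
    rw [hP', mul_add, add_mul, add_mul, h1, h2, E_mul_e, e_mul_E, add_zero, zero_add]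
  have hinter := hs.inter N
  have hinter' : B.E (d.k N) * s = s * d.e N := by
    have := congrArg star hinter
    rw [star_mul, star_mul, hs.star_eq, hEp.isSelfAdjoint.star_eq, hep.isSelfAdjoint.star_eq] at this
    exact this
  have hcomm : s * P' = P' * s := by
    rw [hP', mul_add, add_mul, hinter, hinter']; abel
  have hloc := hs.loc N
  have hsP : s * (1 - B.E (d.k N) - d.e N) = s * (1 - P') := by rw [hP', sub_sub]
  rw [hsP] at hloc
  have hnorm1 : ‖s * (1 - P')‖ ≤ ‖s‖ * 3 := by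
    calc ‖s * (1 - P')‖ ≤ ‖s‖ * ‖1 - P'‖ := norm_mul_le _ _
      _ ≤ ‖s‖ * 3 := by
          refine mul_le_mul_of_nonneg_left ?_ (norm_nonneg _)
          calc ‖1 - P'‖ ≤ ‖(1 : H →L[ℂ] H)‖ + ‖P'‖ := norm_sub_le _ _
            _ ≤ 1 + (‖B.E (d.k N)‖ + ‖d.e N‖) :=
                add_le_add Appr_aux.norm_one_le (norm_add_le _ _)
            _ ≤ 1 + (1 + 1) := by
                gcongr
                · exact norm_le_one hEp
                · exact norm_le_one hep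
            _ = 3 := by norm_num
  refine ⟨s * (1 - P') * a, Fin.snoc (fun j => s * (1 - P') * y j) 1, Fin.snoc P P',
    Fin.snoc z (s * w), mul_mem hloc ha, ?_, ?_, ?_, ?_, ?_⟩
  · calc ‖s * (1 - P') * a‖ ≤ ‖s * (1 - P')‖ * ‖a‖ := norm_mul_le _ _
      _ ≤ ‖s‖ * 3 * C := mul_le_mul hnorm1 hna (norm_nonneg _) (by positivity)
      _ ≤ _ := by linarith
  · intro j
    refine Fin.lastCases ?_ (fun i => ?_) j
    · rw [Fin.snoc_last]
      exact ⟨one_mem _, Appr_aux.norm_one_le.trans (by linarith)⟩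
    · rw [Fin.snoc_castSucc]
      refine ⟨mul_mem hloc (hy i).1, ?_⟩
      calc ‖s * (1 - P') * y i‖ ≤ ‖s * (1 - P')‖ * ‖y i‖ := norm_mul_le _ _
        _ ≤ ‖s‖ * 3 * C := mul_le_mul hnorm1 (hy i).2 (norm_nonneg _) (by positivity)
        _ ≤ _ := by linarith
  · intro j
    refine Fin.lastCases ?_ (fun i => ?_) j
    · rw [Fin.snoc_last]
      refine ⟨hP'M, hP'p, ?_⟩
      calc ‖P' B.Ω‖ = ‖B.E (d.k N) B.Ω + d.e N B.Ω‖ := by rw [hP']; rfl
        _ ≤ ‖B.E (d.k N) B.Ω‖ + ‖d.e N B.Ω‖ := norm_add_le _ _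
        _ ≤ δ := hN
    · rw [Fin.snoc_castSucc]
      exact hP i
  · intro j
    refine Fin.lastCases ?_ (fun i => ?_) j
    · rw [Fin.snoc_last]; linarith
    · rw [Fin.snoc_castSucc]; exact (hz i).trans (by linarith)
  · rw [Fin.sum_univ_castSucc]
    simp only [Fin.snoc_last, Fin.snoc_castSucc, one_mul]
    have h1 : s * w = s * (1 - P') * w + P' * (s * w) := by
      rw [← mul_assoc, ← hcomm]; noncomm_ring
    rw [← add_assoc]
    have h2 : s * (1 - P') * w = s * (1 - P') * a + ∑ j, s * (1 - P') * y j * P j * z j := by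
      conv_lhs => rw [he]
      rw [mul_add, Finset.mul_sum]
      simp only [mul_assoc]
    rw [← h2]
    exact h1

theorem appr_adjoin {B : Base H} {I : Set (Datum B)} {s : Datum B → (H →L[ℂ] H)}
    (hs : ∀ i ∈ I, IsSym B i (s i)) {w : H →L[ℂ] H}
    (hw : w ∈ StarAlgebra.adjoin ℂ ((B.M : Set (H →L[ℂ] H)) ∪ s '' I)) : Appr B w :=
  adjoin_induction_left (fun i hi => (hs i hi).star_eq) (Appr_aux.one B) (Appr_aux.add B)
    (Appr_aux.mulM B) (fun i hi w hw => Appr_aux.muls B i (s i) (hs i hi) w hw) hw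

end Crest.Agent.R120
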