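import Crest.Agent.R120.Defs

/-!
# R120 piece BVa: decreasing projections without a common fixed vector tend strongly to zero

`n ↦ ‖P_n v‖²` is decreasing and `‖P_m v - P_n v‖² = ‖P_m v‖² - ‖P_n v‖²` for `m ≤ n`; so `P_n v`
is Cauchy, the limit `w` satisfies `P_m w = w` for all `m`, so `w = 0`.
-/

set_option autoImplicit false
open scoped ComplexOrder InnerProductSpace Topology
open Filter

namespace Crest.Agent.R120

variable {H : Type} [NormedAddCommGroup H] [InnerProductSpace ℂ H] [CompleteSpace H]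

namespace BVa_aux

theorem pyth {K : Type} [NormedAddCommGroup K] [InnerProductSpace ℂ K]
    [CompleteSpace K] {Q : K →L[ℂ] K} (hQ : IsStarProjection Q) (w : K) :
    ‖w - Q w‖ ^ 2 = ‖w‖ ^ 2 - ‖Q w‖ ^ 2 := by
  have hQQ : Q (Q w) = Q w := by
    have h1 : (Q * Q) w = Q w := by rw [hQ.isIdempotentElem.eq]
    exact h1
  have hin : ⟪Q w, w - Q w⟫_ℂ = 0 := by
    have h1 : star Q = Q := hQ.isSelfAdjoint
    rw [ContinuousLinearMap.star_eq_adjoint] at h1
    have h2 : ⟪Q w, w - Q w⟫_ℂ = ⟪w, Q (w - Q w)⟫_ℂ := by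
      have h4 := ContinuousLinearMap.adjoint_inner_left Q (w - Q w) w
      rw [h1] at h4
      exact h4
    rw [h2, map_sub, hQQ, sub_self, inner_zero_right]
  have h3 := norm_add_sq_eq_norm_sq_add_norm_sq_of_inner_eq_zero (Q w) (w - Q w) hin
  rw [add_sub_cancel] at h3
  nlinarith [h3]

end BVa_aux

theorem tendsto_of_no_fixed {K : Type} [NormedAddCommGroup K] [InnerProductSpace ℂ K]
    [CompleteSpace K] (P : ℕ → (K →L[ℂ] K)) (hP : ∀ n, IsStarProjection (P n))
    (hanti : ∀ n, P n * P (n + 1) = P (n + 1)) (h : ∀ v : K, (∀ n, P n v = v) → v = 0) (v : K) :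
    Tendsto (fun n => P n v) atTop (𝓝 0) := by
  have hmul : ∀ m n, m ≤ n → P m * P n = P n := by
    intro m n hmn
    induction n, hmn using Nat.le_induction with
    | base => exact (hP m).isIdempotentElem.eq
    | succ n _ ih => rw [← hanti n, ← mul_assoc, ih]
  have hmul' : ∀ m n, m ≤ n → P n * P m = P n := by
    intro m n hmn
    have h1 := congrArg star (hmul m n hmn)
    rw [star_mul, (hP m).isSelfAdjoint.star_eq, (hP n).isSelfAdjoint.star_eq] at h1
    exact h1
  have hdiff : ∀ m n, m ≤ n → ‖P m v - P n v‖ ^ 2 = ‖P m v‖ ^ 2 - ‖P n v‖ ^ 2 := by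
    intro m n hmn
    have h1 : P n v = P n (P m v) := by
      have h2 : (P n * P m) v = P n v := by rw [hmul' m n hmn]
      exact h2.symm
    have h3 := BVa_aux.pyth (hP n) (P m v)
    rw [← h1] at h3
    exact h3
  have hant : Antitone (fun n => ‖P n v‖ ^ 2) := by
    intro m n hmn
    have h1 := hdiff m n hmn
    have h2 := sq_nonneg ‖P m v - P n v‖
    show ‖P n v‖ ^ 2 ≤ ‖P m v‖ ^ 2
    linarith
  have hconv := tendsto_atTop_ciInf hant ⟨0, by rintro _ ⟨n, rfl⟩; positivity⟩
  have hcau : CauchySeq (fun n => P n v) := by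
    rw [Metric.cauchySeq_iff']
    intro ε hε
    have h1 := hconv.cauchySeq
    rw [Metric.cauchySeq_iff'] at h1
    obtain ⟨N, hN⟩ := h1 (ε ^ 2) (by positivity)
    refine ⟨N, fun n hn => ?_⟩
    have h2 := hN n hn
    rw [Real.dist_eq] at h2
    have h3 := hdiff N n hn
    rw [dist_eq_norm, norm_sub_rev]
    have h4 : ‖P N v - P n v‖ ^ 2 < ε ^ 2 := by
      rw [h3]
      have h5 := neg_abs_le (‖P n v‖ ^ 2 - ‖P N v‖ ^ 2)
      linarith
    exact lt_of_pow_lt_pow_left₀ 2 hε.le h4
  obtain ⟨w, hw⟩ := cauchySeq_tendsto_of_complete hcau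
  have hfix : ∀ m, P m w = w := by
    intro m
    have h1 : Tendsto (fun n => P m (P n v)) atTop (𝓝 (P m w)) :=
      ((P m).continuous.tendsto w).comp hw
    have h2 : Tendsto (fun n => P m (P n v)) atTop (𝓝 w) := by
      refine hw.congr' ?_
      filter_upwards [eventually_ge_atTop m] with n hn
      have h3 : (P m * P n) v = P n v := by rw [hmul m n hn]
      exact h3.symm
    exact tendsto_nhds_unique h1 h2
  rw [h w hfix] at hw
  exact hw

end Crest.Agent.R120
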