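import Crest.Agent.R120.L1

/-!
# R120 piece Dat: elementary facts on data and unlinked sequences

Everything is algebra with the decreasing projections `e m * e n = e n` (`m ≤ n`), adjoints, and
`‖p‖ ≤ 1` for projections. `excise'`: `e m x e n = (e m x e m) e n` for `n ≥ m`, and
`e m = e m * e n₀` for `m ≥ n₀`.
-/

set_option autoImplicit false
open scoped ComplexOrder InnerProductSpace Topology
open Filter

namespace Crest.Agent.R120

variable {H : Type} [NormedAddCommGroup H] [InnerProductSpace ℂ H] [CompleteSpace H]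

theorem norm_le_one {p : H →L[ℂ] H} (hp : IsStarProjection p) : ‖p‖ ≤ 1 := by
  have h1 : ‖star p * p‖ = ‖p‖ * ‖p‖ := CStarRing.norm_star_mul_self
  have h2 : star p * p = p := by
    rw [hp.isSelfAdjoint.star_eq]; exact hp.isIdempotentElem
  rw [h2] at h1
  by_contra hlt
  push Not at hlt
  nlinarith [norm_nonneg p]

theorem e_mul (B : Base H) (d : Datum B) {m n : ℕ} (h : m ≤ n) : d.e m * d.e n = d.e n := by
  induction n, h using Nat.le_induction with
  | base => exact (d.e_proj m).isIdempotentElem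
  | succ n _ ih =>
    calc d.e m * d.e (n + 1) = d.e m * (d.e n * d.e (n + 1)) := by rw [d.e_anti n]
      _ = (d.e m * d.e n) * d.e (n + 1) := by rw [mul_assoc]
      _ = d.e (n + 1) := by rw [ih, d.e_anti n]

theorem e_mul' (B : Base H) (d : Datum B) {m n : ℕ} (h : m ≤ n) : d.e n * d.e m = d.e n := by
  have h1 := congrArg star (e_mul B d h)
  rw [star_mul, (d.e_proj m).isSelfAdjoint.star_eq, (d.e_proj n).isSelfAdjoint.star_eq] at h1
  exact h1

theorem E_mul_e (B : Base H) (d : Datum B) (m n : ℕ) : B.E (d.k m) * d.e n = 0 := by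
  have hk : 1 ≤ d.k m := le_trans d.k_pos (d.k_mono.monotone (Nat.zero_le m))
  calc B.E (d.k m) * d.e n = (B.E (d.k m) * B.E 1) * (d.e 0 * d.e n) := by
        rw [E_mul_E' B hk, e_mul B d (Nat.zero_le n)]
    _ = B.E (d.k m) * (B.E 1 * d.e 0) * d.e n := by simp only [mul_assoc]
    _ = 0 := by rw [d.e_perp, mul_zero, zero_mul]

theorem e_mul_E (B : Base H) (d : Datum B) (m n : ℕ) : d.e n * B.E (d.k m) = 0 := by
  have h1 := congrArg star (E_mul_e B d m n)
  rw [star_mul, (d.e_proj n).isSelfAdjoint.star_eq, (E_proj B (d.k m)).isSelfAdjoint.star_eq,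
    star_zero] at h1
  exact h1

/-- compressing by projections does not increase the norm -/
theorem dat_norm_compress_le {p q y : H →L[ℂ] H} (hp : ‖p‖ ≤ 1) (hq : ‖q‖ ≤ 1) :
    ‖p * y * q‖ ≤ ‖y‖ := by
  calc ‖p * y * q‖ ≤ ‖p * y‖ * ‖q‖ := norm_mul_le _ _
    _ ≤ (‖p‖ * ‖y‖) * ‖q‖ := by gcongr; exact norm_mul_le _ _
    _ ≤ (1 * ‖y‖) * 1 := by gcongr
    _ = ‖y‖ := by ring

theorem excise' (B : Base H) (d : Datum B) {x : H →L[ℂ] H} (hx : x ∈ B.M) {ε : ℝ}
    (hε : 0 < ε) : ∃ (N : ℕ) (c : ℂ), ∀ m n, N ≤ m → m ≤ n →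
      ‖d.e m * x * d.e n - c • d.e n‖ < ε := by
  obtain ⟨N, c, hc⟩ := d.excise x hx ε hε
  refine ⟨N, c, fun m n hm hn => ?_⟩
  have h1 : d.e m * x * d.e n - c • d.e n
      = d.e m * (d.e N * x * d.e N - c • d.e N) * d.e n := by
    have e1 : d.e m * d.e N = d.e m := e_mul' B d hm
    have e2 : d.e N * d.e n = d.e n := e_mul B d (hm.trans hn)
    have e3 : d.e m * d.e n = d.e n := e_mul B d hn
    have e4 : d.e m * (d.e N * x * d.e N) * d.e n = (d.e m * d.e N) * x * (d.e N * d.e n) := by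
      simp only [mul_assoc]
    have e5 : d.e m * (c • d.e N) * d.e n = c • d.e n := by
      rw [mul_smul_comm, smul_mul_assoc, e1, e3]
    rw [mul_sub, sub_mul, e4, e5, e1, e2]
  rw [h1]
  exact lt_of_le_of_lt
    (dat_norm_compress_le (norm_le_one (d.e_proj m)) (norm_le_one (d.e_proj n))) hc

theorem Unlinked.symm {B : Base H} {p q : ℕ → H →L[ℂ] H} (h : Unlinked B p q)
    (hp : ∀ n, star (p n) = p n) (hq : ∀ n, star (q n) = q n) : Unlinked B q p := by
  intro x hx ε hε
  obtain ⟨n, hn⟩ := h (star x) (star_mem hx) ε hε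
  refine ⟨n, ?_⟩
  have h1 : star (p n * star x * q n) = q n * x * p n := by
    rw [star_mul, star_mul, star_star, hp, hq, mul_assoc]
  rw [← h1, norm_star]
  exact hn

/-- base versus datum: eventually small for all pairs of indices -/
theorem base_small (B : Base H) (d : Datum B) (h : Unlinked B B.E d.e) {x : H →L[ℂ] H}
    (hx : x ∈ B.M) {ε : ℝ} (hε : 0 < ε) :
    ∃ N : ℕ, ∀ m n, N ≤ m → N ≤ n → ‖B.E m * x * d.e n‖ < ε ∧ ‖d.e n * x * B.E m‖ < ε := by
  have h' : Unlinked B d.e B.E := h.symm (fun n => (E_proj B n).isSelfAdjoint.star_eq)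
    (fun n => (d.e_proj n).isSelfAdjoint.star_eq)
  obtain ⟨N1, h1⟩ := h x hx ε hε
  obtain ⟨N2, h2⟩ := h' x hx ε hε
  refine ⟨max N1 N2, fun m n hm hn => ⟨?_, ?_⟩⟩
  · have hm1 : N1 ≤ m := (le_max_left _ _).trans hm
    have hn1 : N1 ≤ n := (le_max_left _ _).trans hn
    have e : B.E m * x * d.e n = B.E m * (B.E N1 * x * d.e N1) * d.e n := by
      have e4 : B.E m * (B.E N1 * x * d.e N1) * d.e n
          = (B.E m * B.E N1) * x * (d.e N1 * d.e n) := by simp only [mul_assoc]
      rw [e4, E_mul_E' B hm1, e_mul B d hn1]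
    rw [e]
    exact lt_of_le_of_lt
      (dat_norm_compress_le (norm_le_one (E_proj B m)) (norm_le_one (d.e_proj n))) h1
  · have hm1 : N2 ≤ m := (le_max_right _ _).trans hm
    have hn1 : N2 ≤ n := (le_max_right _ _).trans hn
    have e : d.e n * x * B.E m = d.e n * (d.e N2 * x * B.E N2) * B.E m := by
      have e4 : d.e n * (d.e N2 * x * B.E N2) * B.E m
          = (d.e n * d.e N2) * x * (B.E N2 * B.E m) := by simp only [mul_assoc]
      rw [e4, e_mul' B d hn1, E_mul_E B hm1]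
    rw [e]
    exact lt_of_le_of_lt
      (dat_norm_compress_le (norm_le_one (d.e_proj n)) (norm_le_one (E_proj B m))) h2

theorem pair_small (B : Base H) (d d' : Datum B) (h : Unlinked B d.e d'.e) {x : H →L[ℂ] H}
    (hx : x ∈ B.M) {ε : ℝ} (hε : 0 < ε) :
    ∃ N : ℕ, ∀ m n, N ≤ m → N ≤ n → ‖d.e m * x * d'.e n‖ < ε := by
  obtain ⟨N, h1⟩ := h x hx ε hε
  refine ⟨N, fun m n hm hn => ?_⟩
  have e : d.e m * x * d'.e n = d.e m * (d.e N * x * d'.e N) * d'.e n := by
    have e4 : d.e m * (d.e N * x * d'.e N) * d'.e n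
        = (d.e m * d.e N) * x * (d'.e N * d'.e n) := by simp only [mul_assoc]
    rw [e4, e_mul' B d hm, e_mul B d' hn]
  rw [e]
  exact lt_of_le_of_lt
    (dat_norm_compress_le (norm_le_one (d.e_proj m)) (norm_le_one (d'.e_proj n))) h1

end Crest.Agent.R120
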