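import Crest.Agent.R120.BVa
import Crest.Agent.R120.Dat

/-!
# R120 piece BVb: a linked sequence has a fixed vector

`¬ Unlinked`: `x ∈ M`, `c > 0` with `‖p_n x d.e n‖ ≥ c` for all `n`. Fix `m`, `y = x* p_m x ∈ M`. By
`excise'` for `d`: for `n ≥ m` large `‖d.e n y d.e n - γ d.e n‖ < ε`; and
`‖d.e n y d.e n‖ = ‖p_m x d.e n‖² ≥ ‖p_n x d.e n‖² ≥ c²` (`p_n = p_n p_m`), so `|γ| ≥ c² - ε`;
`‖σ(p_m x) ζ‖² = ⟪ζ, σ(y) ζ⟫ = ⟪ζ, σ(d.e n y d.e n) ζ⟫` is within `ε` of `γ`, so `≥ c² - 2ε`.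
Hence `‖σ(p_m) (σ(x) ζ)‖ ≥ c` for all `m`, and `tendsto_of_no_fixed` (contrapositive).
-/

set_option autoImplicit false
open scoped ComplexOrder InnerProductSpace Topology
open Filter

namespace Crest.Agent.R120

variable {H : Type} [NormedAddCommGroup H] [InnerProductSpace ℂ H] [CompleteSpace H]

theorem BVb_aux.anti {p : ℕ → (H →L[ℂ] H)} (hp : ∀ n, IsStarProjection (p n))
    (hanti : ∀ n, p n * p (n + 1) = p (n + 1)) {m n : ℕ} (h : m ≤ n) : p m * p n = p n := by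
  induction n, h using Nat.le_induction with
  | base => exact (hp m).isIdempotentElem
  | succ n _ ih => rw [← hanti n, ← mul_assoc, ih]

theorem linked_vec {B : Base H} {K : Type} [NormedAddCommGroup K] [InnerProductSpace ℂ K]
    [CompleteSpace K] {σ : B.M →⋆ₙₐ[ℂ] (K →L[ℂ] K)} (hσ : IsIrr B σ) (d : Datum B) (ζ : K)
    (hζ : ‖ζ‖ = 1) (hdζ : ∀ n, σ ⟨d.e n, d.e_mem n⟩ ζ = ζ) (p : ℕ → (H →L[ℂ] H))
    (hpM : ∀ n, p n ∈ B.M) (hp : ∀ n, IsStarProjection (p n))
    (hanti : ∀ n, p n * p (n + 1) = p (n + 1)) (hl : ¬ Unlinked B p d.e) :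
    ∃ η : K, η ≠ 0 ∧ ∀ n, σ ⟨p n, hpM n⟩ η = η := by
  classical
  unfold Unlinked at hl
  push Not at hl
  obtain ⟨x, hxM, c, hc, hl⟩ := hl
  -- names in `B.M`
  set X : B.M := ⟨x, hxM⟩ with hX
  set Pp : ℕ → B.M := fun n => ⟨p n, hpM n⟩ with hPp
  set De : ℕ → B.M := fun n => ⟨d.e n, d.e_mem n⟩ with hDe
  have key : ∀ m : ℕ, c ≤ ‖σ (Pp m) (σ X ζ)‖ := by
    intro m
    -- y = x* p_m x
    set y : H →L[ℂ] H := star x * p m * x with hy
    have hyM : y ∈ B.M := mul_mem (mul_mem (star_mem hxM) (hpM m)) hxM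
    have hsq : ∀ ε : ℝ, 0 < ε → c ^ 2 - 2 * ε ≤ ‖σ (Pp m) (σ X ζ)‖ ^ 2 := by
      intro ε hε
      obtain ⟨N, γ, hN⟩ := excise' B d hyM hε
      set n := max N m with hn
      have h1 := hN n n (le_max_left _ _) le_rfl
      have hen : IsStarProjection (d.e n) := d.e_proj n
      have hpm : IsStarProjection (p m) := hp m
      have hpn : IsStarProjection (p n) := hp n
      -- norm of e y e
      have h2 : d.e n * y * d.e n = star (p m * x * d.e n) * (p m * x * d.e n) := by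
        rw [star_mul, star_mul, hen.isSelfAdjoint.star_eq, hpm.isSelfAdjoint.star_eq, hy]
        have : p m * p m = p m := hpm.isIdempotentElem
        calc d.e n * (star x * p m * x) * d.e n = d.e n * (star x * (p m) * (x * d.e n)) := by
              simp only [mul_assoc]
          _ = d.e n * (star x * (p m * p m) * (x * d.e n)) := by rw [this]
          _ = _ := by simp only [mul_assoc]
      have h3 : ‖d.e n * y * d.e n‖ = ‖p m * x * d.e n‖ ^ 2 := by
        rw [h2, CStarRing.norm_star_mul_self, sq]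
      have h4 : p n * (p m * x * d.e n) = p n * x * d.e n := by
        have h5 : p m * p n = p n := BVb_aux.anti hp hanti (le_max_right N m)
        have h6 : p n * p m = p n := by
          have := congrArg star h5
          rw [star_mul, hpm.isSelfAdjoint.star_eq, hpn.isSelfAdjoint.star_eq] at this
          exact this
        rw [← mul_assoc, ← mul_assoc, h6]
      have h5 : c ≤ ‖p m * x * d.e n‖ := by
        calc c ≤ ‖p n * x * d.e n‖ := hl n
          _ = ‖p n * (p m * x * d.e n)‖ := by rw [h4]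
          _ ≤ ‖p n‖ * ‖p m * x * d.e n‖ := norm_mul_le _ _
          _ ≤ 1 * ‖p m * x * d.e n‖ :=
              mul_le_mul_of_nonneg_right (norm_le_one hpn) (norm_nonneg _)
          _ = _ := one_mul _
      have h6 : c ^ 2 ≤ ‖d.e n * y * d.e n‖ := by
        rw [h3]; exact pow_le_pow_left₀ hc.le h5 2
      have h7 : ‖γ • d.e n‖ ≤ ‖γ‖ := by
        rw [norm_smul]
        calc ‖γ‖ * ‖d.e n‖ ≤ ‖γ‖ * 1 :=
              mul_le_mul_of_nonneg_left (norm_le_one hen) (norm_nonneg _)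
          _ = ‖γ‖ := mul_one _
      have h8 : c ^ 2 - ε ≤ ‖γ‖ := by
        have : ‖d.e n * y * d.e n‖ ≤ ‖d.e n * y * d.e n - γ • d.e n‖ + ‖γ • d.e n‖ := by
          have := norm_add_le (d.e n * y * d.e n - γ • d.e n) (γ • d.e n)
          rwa [sub_add_cancel] at this
        linarith
      -- the vector state
      set Y : B.M := star X * Pp m * X with hY
      have hPm : Pp m * Pp m = Pp m := Subtype.ext hpm.isIdempotentElem
      have hPs : star (Pp m) = Pp m := Subtype.ext hpm.isSelfAdjoint.star_eq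
      have hDs : star (De n) = De n := Subtype.ext hen.isSelfAdjoint.star_eq
      have hDζ : σ (De n) ζ = ζ := hdζ n
      have hadj : ∀ (a : B.M) (u w : K), ⟪σ a u, w⟫_ℂ = ⟪u, σ (star a) w⟫_ℂ := by
        intro a u w
        rw [map_star]
        rw [ContinuousLinearMap.star_eq_adjoint, ContinuousLinearMap.adjoint_inner_right]
      have hmulσ : ∀ (a b : B.M) (u : K), σ (a * b) u = σ a (σ b u) := by
        intro a b u; rw [map_mul]; rfl
      have h9 : ⟪σ (Pp m) (σ X ζ), σ (Pp m) (σ X ζ)⟫_ℂ = ⟪ζ, σ (De n * Y * De n) ζ⟫_ℂ := by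
        rw [hadj, hPs, ← hmulσ, hPm, hadj, ← hmulσ, ← hmulσ, ← mul_assoc, ← hY]
        conv_lhs => rw [← hDζ]
        rw [hadj, hDs, ← hmulσ, ← hmulσ]
        simp only [hY, mul_assoc]
      have h10 : ⟪ζ, σ (γ • De n) ζ⟫_ℂ = γ := by
        rw [map_smul, ContinuousLinearMap.smul_apply, hDζ, inner_smul_right,
          inner_self_eq_norm_sq_to_K, hζ]
        simp
      have h11 : ‖⟪ζ, σ (De n * Y * De n) ζ⟫_ℂ - γ‖ ≤ ε := by
        have h12 : ⟪ζ, σ (De n * Y * De n) ζ⟫_ℂ - γ = ⟪ζ, σ (De n * Y * De n - γ • De n) ζ⟫_ℂ := by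
          rw [map_sub, ContinuousLinearMap.sub_apply, inner_sub_right, h10]
        rw [h12]
        calc ‖⟪ζ, σ (De n * Y * De n - γ • De n) ζ⟫_ℂ‖
            ≤ ‖ζ‖ * ‖σ (De n * Y * De n - γ • De n) ζ‖ := norm_inner_le_norm _ _
          _ ≤ ‖ζ‖ * (‖σ (De n * Y * De n - γ • De n)‖ * ‖ζ‖) :=
              mul_le_mul_of_nonneg_left (ContinuousLinearMap.le_opNorm _ _) (norm_nonneg _)
          _ = ‖σ (De n * Y * De n - γ • De n)‖ := by rw [hζ]; ring
          _ ≤ ‖((De n * Y * De n - γ • De n : B.M) : H →L[ℂ] H)‖ := hσ.contr _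
          _ ≤ ε := h1.le
      have h13 : ((‖σ (Pp m) (σ X ζ)‖ ^ 2 : ℝ) : ℂ) = ⟪ζ, σ (De n * Y * De n) ζ⟫_ℂ := by
        rw [← h9, inner_self_eq_norm_sq_to_K]; push_cast; rfl
      have h14 : ‖γ‖ ≤ ‖σ (Pp m) (σ X ζ)‖ ^ 2 + ε := by
        rw [← h13] at h11
        have h15 : ‖γ‖ ≤ ‖((‖σ (Pp m) (σ X ζ)‖ ^ 2 : ℝ) : ℂ)‖ +
            ‖((‖σ (Pp m) (σ X ζ)‖ ^ 2 : ℝ) : ℂ) - γ‖ := by
          have := norm_sub_le (((‖σ (Pp m) (σ X ζ)‖ ^ 2 : ℝ) : ℂ))
            (((‖σ (Pp m) (σ X ζ)‖ ^ 2 : ℝ) : ℂ) - γ)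
          rwa [sub_sub_cancel] at this
        rw [Complex.norm_real, Real.norm_of_nonneg (sq_nonneg _)] at h15
        linarith
      linarith
    have hsq' : c ^ 2 ≤ ‖σ (Pp m) (σ X ζ)‖ ^ 2 := by
      refine le_of_forall_pos_le_add fun ε hε => ?_
      have := hsq (ε / 2) (by linarith)
      linarith
    exact (abs_le_of_sq_le_sq' hsq' (norm_nonneg _)).2
  by_contra hno
  push Not at hno
  have hproj : ∀ n, IsStarProjection (σ (Pp n)) := by
    intro n
    refine ⟨?_, ?_⟩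
    · show σ (Pp n) * σ (Pp n) = σ (Pp n)
      rw [← map_mul]
      congr 1
      exact Subtype.ext (hp n).isIdempotentElem
    · show star (σ (Pp n)) = σ (Pp n)
      rw [← map_star]
      congr 1
      exact Subtype.ext (hp n).isSelfAdjoint.star_eq
  have hanti' : ∀ n, σ (Pp n) * σ (Pp (n + 1)) = σ (Pp (n + 1)) := by
    intro n
    rw [← map_mul]
    congr 1
    exact Subtype.ext (hanti n)
  have hlim := tendsto_of_no_fixed (fun n => σ (Pp n)) hproj hanti' (fun v hv => by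
    by_contra hv0
    obtain ⟨n, hn⟩ := hno v hv0
    exact hn (hv n)) (σ X ζ)
  have hnorm := hlim.norm
  rw [norm_zero] at hnorm
  have := ge_of_tendsto' hnorm key
  linarith

end Crest.Agent.R120
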