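import Crest.Agent.R120.SymA

/-!
# R120 piece Sym: the symmetry of a datum (strong limit of `sym_approx`)

`‖S_N‖ ≤ 1` (`S_N² = S_N* S_N` is a projection). For `M ≥ N`:
`S_M v - S_N v = S_M (E_{k_N} + e_N) v → 0` (`E_tendsto` along `k`, `e_tendsto`), so `S_N v` is
Cauchy; `s` = strong limit (`continuousLinearMapOfTendsto` / Banach-Steinhaus). The relations pass
to the limit: `star s = s` by inner products, `s s v = lim S_N S_N v` (bounded), `= lim (v - E_{k_N}
v - e_N v) = v`; `s (1 - E_{k_N} - e_N) = S_N`.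
-/

set_option autoImplicit false
open scoped ComplexOrder InnerProductSpace Topology
open Filter

namespace Crest.Agent.R120

variable {H : Type} [NormedAddCommGroup H] [InnerProductSpace ℂ H] [CompleteSpace H]

namespace SymAux

theorem P_proj (B : Base H) (d : Datum B) (N : ℕ) :
    IsStarProjection (1 - B.E (d.k N) - d.e N) := by
  have hE := E_proj B (d.k N)
  have he := d.e_proj N
  constructor
  · have h1 := hE.isIdempotentElem
    have h2 := he.isIdempotentElem
    have h3 := E_mul_e B d N N
    have h4 := e_mul_E B d N N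
    unfold IsIdempotentElem at *
    have : (1 - B.E (d.k N) - d.e N) * (1 - B.E (d.k N) - d.e N) =
        1 - B.E (d.k N) - d.e N + (B.E (d.k N) * B.E (d.k N) - B.E (d.k N))
        + (d.e N * d.e N - d.e N) + B.E (d.k N) * d.e N + d.e N * B.E (d.k N) := by
      noncomm_ring
    rw [this, h1, h2, h3, h4]
    simp
  · have h1 := hE.isSelfAdjoint
    have h2 := he.isSelfAdjoint
    exact ((IsSelfAdjoint.one _).sub h1).sub h2

theorem tail_tendsto (B : Base H) (d : Datum B) (v : H) :
    Tendsto (fun n => B.E (d.k n) v + d.e n v) atTop (𝓝 0) := by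
  have h1 := (E_tendsto B v).comp d.k_mono.tendsto_atTop
  have h2 := e_tendsto B d v
  have := h1.add h2
  rw [add_zero] at this
  exact this

end SymAux

open SymAux

theorem exists_sym (B : Base H) (d : Datum B) : ∃ s : H →L[ℂ] H, IsSym B d s := by
  obtain ⟨S, hM, hst, hsq, hcomp, hint⟩ := sym_approx B d
  have hnorm : ∀ N, ‖S N‖ ≤ 1 := by
    intro N
    have h1 : ‖star (S N) * S N‖ = ‖S N‖ * ‖S N‖ := CStarRing.norm_star_mul_self
    rw [hst, hsq] at h1
    have h2 := norm_le_one (P_proj B d N)
    rw [h1] at h2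
    nlinarith [norm_nonneg (S N)]
  have hdiff : ∀ N M, N ≤ M → ∀ v, S M v - S N v = S M (B.E (d.k N) v + d.e N v) := by
    intro N M h v
    have h1 := hcomp N M h
    have h2 : S N v = S M v - S M (B.E (d.k N) v) - S M (d.e N v) := by
      rw [← h1]
      simp [map_sub]
    rw [h2, map_add]
    abel
  have hle : ∀ N M, N ≤ M → ∀ v, ‖S M v - S N v‖ ≤ ‖B.E (d.k N) v + d.e N v‖ := by
    intro N M h v
    rw [hdiff N M h v]
    refine (ContinuousLinearMap.le_opNorm _ _).trans ?_
    exact mul_le_of_le_one_left (norm_nonneg _) (hnorm M)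
  have hcau : ∀ v, CauchySeq fun N => S N v := by
    intro v
    have ht := (tail_tendsto B d v).norm.const_mul 2
    rw [norm_zero, mul_zero] at ht
    refine cauchySeq_of_le_tendsto_0 (fun n => 2 * ‖B.E (d.k n) v + d.e n v‖) ?_ ht
    intro n m N hn hm
    have h1 := hle N n hn v
    have h2 := hle N m hm v
    calc dist (S n v) (S m v) ≤ dist (S n v) (S N v) + dist (S m v) (S N v) :=
          dist_triangle_right _ _ _
      _ ≤ _ := by rw [dist_eq_norm, dist_eq_norm]; linarith
  choose f hf using fun v => cauchySeq_tendsto_of_complete (hcau v)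
  set s : H →L[ℂ] H := continuousLinearMapOfTendsto S (tendsto_pi_nhds.2 hf) with hs
  have hsv : ∀ v, Tendsto (fun N => S N v) atTop (𝓝 (s v)) := hf
  refine ⟨s, ?_, ?_, ?_, ?_⟩
  · have hsym : ((s : H →L[ℂ] H) : H →ₗ[ℂ] H).IsSymmetric := by
      intro x y
      have h1 : Tendsto (fun N => ⟪S N x, y⟫_ℂ) atTop (𝓝 ⟪s x, y⟫_ℂ) :=
        (hsv x).inner tendsto_const_nhds
      have h2 : Tendsto (fun N => ⟪x, S N y⟫_ℂ) atTop (𝓝 ⟪x, s y⟫_ℂ) :=
        tendsto_const_nhds.inner (hsv y)
      have h3 : (fun N => ⟪S N x, y⟫_ℂ) = fun N => ⟪x, S N y⟫_ℂ := by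
        funext N
        have h4 : star (S N) = S N := hst N
        rw [ContinuousLinearMap.star_eq_adjoint] at h4
        rw [← ContinuousLinearMap.adjoint_inner_right, h4]
      rw [h3] at h1
      exact tendsto_nhds_unique h1 h2
    exact (ContinuousLinearMap.isSelfAdjoint_iff_isSymmetric.2 hsym)
  · ext v
    have h1 : Tendsto (fun N => S N (S N v)) atTop (𝓝 (s (s v))) := by
      have h2 : Tendsto (fun N => S N (S N v - s v)) atTop (𝓝 0) := by
        have h3 : Tendsto (fun N => ‖S N v - s v‖) atTop (𝓝 0) :=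
          tendsto_iff_norm_sub_tendsto_zero.1 (hsv v)
        refine squeeze_zero_norm (fun N => ?_) h3
        exact (ContinuousLinearMap.le_opNorm _ _).trans
          (mul_le_of_le_one_left (norm_nonneg _) (hnorm N))
      have h4 := h2.add (hsv (s v))
      rw [zero_add] at h4
      refine h4.congr (fun N => ?_)
      rw [map_sub, sub_add_cancel]
    have h5 : Tendsto (fun N => S N (S N v)) atTop (𝓝 v) := by
      have h6 : Tendsto (fun N => v - (B.E (d.k N) v + d.e N v)) atTop (𝓝 (v - 0)) :=
        tendsto_const_nhds.sub (tail_tendsto B d v)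
      rw [sub_zero] at h6
      refine h6.congr (fun N => ?_)
      have h7 : S N (S N v) = (S N * S N) v := rfl
      rw [h7, hsq]
      simp [sub_sub]
    have h8 := tendsto_nhds_unique h1 h5
    simpa using h8
  · intro n
    ext v
    have h1 : Tendsto (fun N => S N (B.E (d.k n) v)) atTop (𝓝 (s (B.E (d.k n) v))) :=
      hsv _
    have h2 : Tendsto (fun N => d.e n (S N v)) atTop (𝓝 (d.e n (s v))) :=
      ((d.e n).continuous.tendsto _).comp (hsv v)
    have h3 : ∀ᶠ N in atTop, S N (B.E (d.k n) v) = d.e n (S N v) := by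
      filter_upwards [eventually_ge_atTop n] with N hN
      have := congrArg (fun T : H →L[ℂ] H => T v) (hint n N hN)
      exact this
    exact tendsto_nhds_unique (h1.congr' h3) h2
  · intro n
    have h0 : s * (1 - B.E (d.k n) - d.e n) = S n := by
      ext v
      have h1 : Tendsto (fun N => S N ((1 - B.E (d.k n) - d.e n) v)) atTop
          (𝓝 (s ((1 - B.E (d.k n) - d.e n) v))) := hsv _
      have h3 : ∀ᶠ N in atTop, S N ((1 - B.E (d.k n) - d.e n) v) = S n v := by
        filter_upwards [eventually_ge_atTop n] with N hN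
        exact congrArg (fun T : H →L[ℂ] H => T v) (hcomp n N hN)
      exact tendsto_nhds_unique (h1.congr' h3) tendsto_const_nhds
    rw [h0]
    exact hM n

theorem loc_tendsto (B : Base H) {d : Datum B} {s : H →L[ℂ] H} (_hs : IsSym B d s) (v : H) :
    Tendsto (fun n => (s * (1 - B.E (d.k n) - d.e n)) v) atTop (𝓝 (s v)) := by
  have h6 : Tendsto (fun N => v - (B.E (d.k N) v + d.e N v)) atTop (𝓝 (v - 0)) :=
    tendsto_const_nhds.sub (tail_tendsto B d v)
  rw [sub_zero] at h6
  have h7 := (s.continuous.tendsto v).comp h6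
  refine h7.congr (fun N => ?_)
  simp only [Function.comp_apply]
  rw [ContinuousLinearMap.mul_apply]
  congr 1
  simp [sub_sub]

end Crest.Agent.R120
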