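import Crest.Agent.R120.Exist
import Crest.Agent.R120.Sym
import Crest.Agent.R120.BVb
import Crest.Agent.R120.Ind

/-!
# R120 piece BaseVec: every irreducible representation of `AA` has a base vector

Case A: a non-zero vector `ζ` fixed by all `π(i.e n)` for some `i ∈ I`: `π(s i) ζ` is fixed by all
`E_{k_n}` (`E_{k_n} s = s e_n`, from `inter`, adjoints), hence by all `E_n` (`k_n → ∞`,
`E_n E_m = E_m` for `m ≥ n`); normalise (`π(s i)² = π(1) = 1`).
Case B: a non-zero vector fixed by all `π(E_n)`: normalise.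
Case C: neither. By `tendsto_of_no_fixed` `π(E_n) v → 0`, `π(i.e n) v → 0` for all `i ∈ I`, so
`π(s i) v = lim π(s i (1 - E_{k_n} - e_n)) v`: every closed `π(M)`-invariant subspace is
`π(s i)`-invariant, hence `π(AA)`-invariant (`AA_induction_left`). So `σ = π|M` is irreducible
(`IsIrr`: contractive; non-zero since `π(1) = 1 ≠ 0`). `exists_datum`: `d`, `ζ`. By maximality
`d ∈ I` (contradiction), or `¬ Unlinked B B.E d.e`, or `¬ Unlinked B j.e d.e` with `j ∈ I`: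
`linked_vec` gives a non-zero fixed vector, contradiction.
-/

set_option autoImplicit false
open scoped ComplexOrder InnerProductSpace Topology
open Filter

namespace Crest.Agent.R120

variable {H : Type} [NormedAddCommGroup H] [InnerProductSpace ℂ H] [CompleteSpace H]

/-- inclusion of `M` in `AA` composed with a representation -/
noncomputable def restr {B : Base H} {I : Set (Datum B)} {s : Datum B → (H →L[ℂ] H)} {K : Type}
    [NormedAddCommGroup K] [InnerProductSpace ℂ K] [CompleteSpace K]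
    (π : AA B I s →⋆ₙₐ[ℂ] (K →L[ℂ] K)) : B.M →⋆ₙₐ[ℂ] (K →L[ℂ] K) where
  toFun x := π ⟨x, M_le_AA B I s x.2⟩
  map_smul' c x := map_smul π c (⟨x, M_le_AA B I s x.2⟩ : AA B I s)
  map_zero' := map_zero π
  map_add' x y := map_add π (⟨x, M_le_AA B I s x.2⟩ : AA B I s) ⟨y, M_le_AA B I s y.2⟩
  map_mul' x y := map_mul π (⟨x, M_le_AA B I s x.2⟩ : AA B I s) ⟨y, M_le_AA B I s y.2⟩
  map_star' x := map_star π (⟨x, M_le_AA B I s x.2⟩ : AA B I s)

namespace BaseVec_aux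

theorem pi_one {A : Type} [CStarAlgebra A] {K : Type}
    [NormedAddCommGroup K] [InnerProductSpace ℂ K] [CompleteSpace K]
    (π : A →⋆ₙₐ[ℂ] (K →L[ℂ] K)) (hπ : Crest.OpAlg.IsIrreducibleRep π) : π 1 = 1 := by
  obtain ⟨h0, h1⟩ := hπ
  have hcomm : ∀ a : A, π a * π 1 = π a := fun a => by rw [← map_mul, mul_one]
  have hcomm' : ∀ a : A, π 1 * π a = π a := fun a => by rw [← map_mul, one_mul]
  let V : Submodule ℂ K := LinearMap.ker ((π 1 - 1 : K →L[ℂ] K) : K →ₗ[ℂ] K)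
  have hVmem : ∀ v, v ∈ V ↔ π 1 v = v := by
    intro v
    show (π 1 - 1 : K →L[ℂ] K) v = 0 ↔ _
    simp [sub_eq_zero]
  have hVc : IsClosed (V : Set K) := (π 1 - 1 : K →L[ℂ] K).isClosed_ker
  rcases h1 V hVc (fun a v _ => by
    rw [hVmem, ← ContinuousLinearMap.mul_apply, hcomm']) with h | h
  · exfalso
    apply h0
    ext a v
    have : π a v ∈ V := by
      rw [hVmem, ← ContinuousLinearMap.mul_apply, hcomm']
    rw [h] at this
    simpa using this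
  · ext v
    have : v ∈ V := by rw [h]; trivial
    simpa using (hVmem v).1 this

theorem nontrivial_K {A : Type} [CStarAlgebra A] {K : Type}
    [NormedAddCommGroup K] [InnerProductSpace ℂ K] [CompleteSpace K]
    (π : A →⋆ₙₐ[ℂ] (K →L[ℂ] K)) (hπ : Crest.OpAlg.IsIrreducibleRep π) : ∃ v : K, v ≠ 0 := by
  by_contra hc
  push_neg at hc
  apply hπ.1
  ext a v
  rw [hc (π a v)]
  rfl

variable {B : Base H} {I : Set (Datum B)} {s : Datum B → (H →L[ℂ] H)} {K : Type}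
    [NormedAddCommGroup K] [InnerProductSpace ℂ K] [CompleteSpace K]

theorem normalise (π : AA B I s →⋆ₙₐ[ℂ] (K →L[ℂ] K)) (ξ : K) (h0 : ξ ≠ 0)
    (h : ∀ n, π ⟨B.E n, M_le_AA B I s (E_mem B n)⟩ ξ = ξ) :
    ∃ ξ : K, ‖ξ‖ = 1 ∧ ∀ n, π ⟨B.E n, M_le_AA B I s (E_mem B n)⟩ ξ = ξ := by
  refine ⟨((‖ξ‖⁻¹ : ℝ) : ℂ) • ξ, ?_, fun n => ?_⟩
  · rw [norm_smul]
    have : ‖ξ‖ ≠ 0 := by simpa using h0
    simp [this]
  · rw [map_smul, h n]

theorem caseA (hs : ∀ i ∈ I, IsSym B i (s i)) (π : AA B I s →⋆ₙₐ[ℂ] (K →L[ℂ] K))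
    (hπ : Crest.OpAlg.IsIrreducibleRep π) (i : Datum B) (hi : i ∈ I) (ζ : K) (hζ : ζ ≠ 0)
    (hfix : ∀ n, π ⟨i.e n, M_le_AA B I s (i.e_mem n)⟩ ζ = ζ) :
    ∃ ξ : K, ξ ≠ 0 ∧ ∀ n, π ⟨B.E n, M_le_AA B I s (E_mem B n)⟩ ξ = ξ := by
  have hS := hs i hi
  have h1 := pi_one π hπ
  have hsA := s_mem_AA B s hi
  refine ⟨π ⟨s i, hsA⟩ ζ, ?_, ?_⟩
  · intro h
    apply hζ
    have h2 : (⟨s i, hsA⟩ * ⟨s i, hsA⟩ : AA B I s) = 1 := Subtype.ext hS.sq
    have h3 : π ⟨s i, hsA⟩ (π ⟨s i, hsA⟩ ζ) = ζ := by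
      rw [← ContinuousLinearMap.mul_apply, ← map_mul, h2, h1]
      rfl
    rw [h, map_zero] at h3
    exact h3.symm
  · have key : ∀ n, π ⟨B.E (i.k n), M_le_AA B I s (E_mem B _)⟩ (π ⟨s i, hsA⟩ ζ) =
        π ⟨s i, hsA⟩ ζ := by
      intro n
      have h2 : B.E (i.k n) * s i = s i * i.e n := by
        have := congrArg star (hS.inter n)
        rw [star_mul, star_mul, hS.star_eq, (E_proj B _).isSelfAdjoint.star_eq,
          (i.e_proj n).isSelfAdjoint.star_eq] at this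
        exact this
      have h3 : (⟨B.E (i.k n), M_le_AA B I s (E_mem B _)⟩ * ⟨s i, hsA⟩ : AA B I s) =
          ⟨s i, hsA⟩ * ⟨i.e n, M_le_AA B I s (i.e_mem n)⟩ := Subtype.ext h2
      rw [← ContinuousLinearMap.mul_apply, ← map_mul, h3, map_mul,
        ContinuousLinearMap.mul_apply, hfix n]
    intro m
    have hk : m ≤ i.k m := i.k_mono.id_le m
    have h4 : (⟨B.E m, M_le_AA B I s (E_mem B _)⟩ * ⟨B.E (i.k m), M_le_AA B I s (E_mem B _)⟩ :
        AA B I s) = ⟨B.E (i.k m), M_le_AA B I s (E_mem B _)⟩ := Subtype.ext (E_mul_E B hk)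
    rw [← key m, ← ContinuousLinearMap.mul_apply, ← map_mul, h4]

theorem pi_proj (π : AA B I s →⋆ₙₐ[ℂ] (K →L[ℂ] K)) {p : H →L[ℂ] H} (hp : p ∈ AA B I s)
    (h : IsStarProjection p) : IsStarProjection (π ⟨p, hp⟩) := by
  constructor
  · show π _ * π _ = π _
    rw [← map_mul]
    congr 1
    exact Subtype.ext h.isIdempotentElem
  · show star (π _) = π _
    rw [← map_star]
    congr 1
    exact Subtype.ext h.isSelfAdjoint

theorem pi_tendsto (π : AA B I s →⋆ₙₐ[ℂ] (K →L[ℂ] K)) (p : ℕ → (H →L[ℂ] H))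
    (hpM : ∀ n, p n ∈ B.M) (hp : ∀ n, IsStarProjection (p n))
    (hanti : ∀ n, p n * p (n + 1) = p (n + 1))
    (h : ∀ v : K, (∀ n, π ⟨p n, M_le_AA B I s (hpM n)⟩ v = v) → v = 0) (v : K) :
    Tendsto (fun n => π ⟨p n, M_le_AA B I s (hpM n)⟩ v) atTop (𝓝 0) := by
  refine tendsto_of_no_fixed (fun n => π ⟨p n, M_le_AA B I s (hpM n)⟩)
    (fun n => pi_proj π _ (hp n)) (fun n => ?_) h v
  rw [← map_mul]
  congr 1
  exact Subtype.ext (hanti n)

theorem pi_continuous (π : AA B I s →⋆ₙₐ[ℂ] (K →L[ℂ] K)) : Continuous π := by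
  have : LipschitzWith 1 π := by
    refine LipschitzWith.of_dist_le_mul fun x y => ?_
    rw [dist_eq_norm, dist_eq_norm, ← map_sub]
    simpa using NonUnitalStarAlgHom.norm_apply_le π (x - y)
  exact this.continuous

theorem inv_sub (hs : ∀ i ∈ I, IsSym B i (s i)) (π : AA B I s →⋆ₙₐ[ℂ] (K →L[ℂ] K))
    (hπ : Crest.OpAlg.IsIrreducibleRep π)
    (hE : ∀ v : K, (∀ n, π ⟨B.E n, M_le_AA B I s (E_mem B n)⟩ v = v) → v = 0)
    (he : ∀ i ∈ I, ∀ v : K, (∀ n, π ⟨i.e n, M_le_AA B I s (i.e_mem n)⟩ v = v) → v = 0)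
    (V : Submodule ℂ K) (hV : IsClosed (V : Set K))
    (hM : ∀ a : B.M, ∀ v ∈ V, restr π a v ∈ V) (a : AA B I s) : ∀ v ∈ V, π a v ∈ V := by
  have h1 := pi_one π hπ
  -- invariance under `s i`
  have hsi : ∀ (i : Datum B) (hi : i ∈ I), ∀ v ∈ V, π ⟨s i, s_mem_AA B s hi⟩ v ∈ V := by
    intro i hi v hv
    have hS := hs i hi
    have hsA := s_mem_AA B s hi
    have t1 := pi_tendsto π B.E (E_mem B) (E_proj B)
      (fun n => E_mul_E B (Nat.le_succ n)) hE v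
    have t1' : Tendsto (fun n => π ⟨B.E (i.k n), M_le_AA B I s (E_mem B _)⟩ v) atTop (𝓝 0) :=
      t1.comp i.k_mono.tendsto_atTop
    have t2 := pi_tendsto π i.e i.e_mem i.e_proj i.e_anti (he i hi) v
    have t3 : Tendsto (fun n => π ⟨s i, hsA⟩ (v - π ⟨B.E (i.k n), M_le_AA B I s (E_mem B _)⟩ v
        - π ⟨i.e n, M_le_AA B I s (i.e_mem n)⟩ v)) atTop (𝓝 (π ⟨s i, hsA⟩ (v - 0 - 0))) :=
      ((π ⟨s i, hsA⟩).continuous.tendsto _).comp ((tendsto_const_nhds.sub t1').sub t2)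
    rw [sub_zero, sub_zero] at t3
    refine hV.mem_of_tendsto t3 (Eventually.of_forall fun n => ?_)
    have h5 := hM ⟨_, hS.loc n⟩ v hv
    have h6 : restr π ⟨_, hS.loc n⟩ v = π ⟨s i, hsA⟩
        (v - π ⟨B.E (i.k n), M_le_AA B I s (E_mem B _)⟩ v
        - π ⟨i.e n, M_le_AA B I s (i.e_mem n)⟩ v) := by
      have h7 : (⟨s i * (1 - B.E (i.k n) - i.e n), M_le_AA B I s (hS.loc n)⟩ : AA B I s) =
          ⟨s i, hsA⟩ * (1 - ⟨B.E (i.k n), M_le_AA B I s (E_mem B _)⟩ -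
            ⟨i.e n, M_le_AA B I s (i.e_mem n)⟩) := Subtype.ext rfl
      show π (⟨s i * (1 - B.E (i.k n) - i.e n), M_le_AA B I s (hS.loc n)⟩ : AA B I s) v = _
      rw [h7, map_mul, map_sub, map_sub, h1]
      rfl
    rw [← h6]
    exact h5
  -- induction
  have key : ∀ w : H →L[ℂ] H, w ∈ AA B I s → ∃ hw : w ∈ AA B I s, ∀ v ∈ V, π ⟨w, hw⟩ v ∈ V := by
    intro w hw
    refine AA_induction_left (fun i hi => (hs i hi).star_eq)
      (p := fun w => ∃ hw : w ∈ AA B I s, ∀ v ∈ V, π ⟨w, hw⟩ v ∈ V) ?_ ?_ ?_ ?_ ?_ hw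
    · refine ⟨one_mem _, fun v hv => ?_⟩
      have : π (⟨1, one_mem _⟩ : AA B I s) = 1 := h1
      rw [this]
      exact hv
    · rintro a b ⟨ha, ha'⟩ ⟨hb, hb'⟩
      refine ⟨add_mem ha hb, fun v hv => ?_⟩
      have : (⟨a + b, add_mem ha hb⟩ : AA B I s) = ⟨a, ha⟩ + ⟨b, hb⟩ := rfl
      rw [this, map_add]
      exact V.add_mem (ha' v hv) (hb' v hv)
    · rintro x hx w ⟨hw, hw'⟩
      refine ⟨mul_mem (M_le_AA B I s hx) hw, fun v hv => ?_⟩
      have : (⟨x * w, mul_mem (M_le_AA B I s hx) hw⟩ : AA B I s) =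
        ⟨x, M_le_AA B I s hx⟩ * ⟨w, hw⟩ := rfl
      rw [this, map_mul]
      exact hM ⟨x, hx⟩ _ (hw' v hv)
    · rintro i hi w ⟨hw, hw'⟩
      refine ⟨mul_mem (s_mem_AA B s hi) hw, fun v hv => ?_⟩
      have : (⟨s i * w, mul_mem (s_mem_AA B s hi) hw⟩ : AA B I s) =
        ⟨s i, s_mem_AA B s hi⟩ * ⟨w, hw⟩ := rfl
      rw [this, map_mul]
      exact hsi i hi _ (hw' v hv)
    · have hcl : IsClosed {w : AA B I s | ∀ v ∈ V, π w v ∈ V} := by
        have : {w : AA B I s | ∀ v ∈ V, π w v ∈ V} = ⋂ v ∈ V, {w : AA B I s | π w v ∈ V} := by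
          ext w; simp
        rw [this]
        refine isClosed_biInter fun v _ => ?_
        have hc : Continuous fun w : AA B I s => π w v :=
          (ContinuousLinearMap.apply ℂ K v).continuous.comp (pi_continuous π)
        exact hV.preimage hc
      have := (isClosed_AA B I s).isClosedEmbedding_subtypeVal.isClosedMap _ hcl
      convert this using 1
      ext w
      constructor
      · rintro ⟨hw, h⟩
        exact ⟨⟨w, hw⟩, h, rfl⟩
      · rintro ⟨⟨w', hw'⟩, h, rfl⟩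
        exact ⟨hw', h⟩
  obtain ⟨_, h⟩ := key a.1 a.2
  exact h

end BaseVec_aux

open BaseVec_aux in
theorem exists_base_vec {B : Base H} {I : Set (Datum B)} (hI : IsMaxFam B I)
    {s : Datum B → (H →L[ℂ] H)} (hs : ∀ i ∈ I, IsSym B i (s i)) {K : Type}
    [NormedAddCommGroup K] [InnerProductSpace ℂ K] [CompleteSpace K]
    (π : AA B I s →⋆ₙₐ[ℂ] (K →L[ℂ] K)) (hπ : Crest.OpAlg.IsIrreducibleRep π) :
    ∃ ξ : K, ‖ξ‖ = 1 ∧ ∀ n, π ⟨B.E n, M_le_AA B I s (E_mem B n)⟩ ξ = ξ := by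
  by_contra hcon
  have hE : ∀ v : K, (∀ n, π ⟨B.E n, M_le_AA B I s (E_mem B n)⟩ v = v) → v = 0 := by
    intro v hv
    by_contra h0
    exact hcon (normalise π v h0 hv)
  have he : ∀ i ∈ I, ∀ v : K, (∀ n, π ⟨i.e n, M_le_AA B I s (i.e_mem n)⟩ v = v) → v = 0 := by
    intro i hi v hv
    by_contra h0
    obtain ⟨ξ, hξ, hξ'⟩ := caseA hs π hπ i hi v h0 hv
    exact hξ (hE ξ hξ')
  have hirr : IsIrr B (restr π) := by
    refine ⟨fun x => ?_, ?_, ?_⟩
    · exact NonUnitalStarAlgHom.norm_apply_le π _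
    · intro h
      obtain ⟨v, hv⟩ := nontrivial_K π hπ
      apply hv
      have h1 : restr π 1 v = v := by
        have : restr π 1 = 1 := pi_one π hπ
        rw [this]; rfl
      rw [← h1, h]
      rfl
    · intro V hVc hV
      exact hπ.2 V hVc (fun a v hv => inv_sub hs π hπ hE he V hVc hV a v hv)
  obtain ⟨d, ζ, hζ, hdζ⟩ := exists_datum hirr
  have hζ0 : ζ ≠ 0 := by
    intro h
    rw [h, norm_zero] at hζ
    exact zero_ne_one hζ
  rcases hI.2 d with h | h | ⟨j, hj, h⟩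
  · exact hζ0 (he d h ζ hdζ)
  · obtain ⟨η, h1, h2⟩ := linked_vec hirr d ζ hζ hdζ B.E (E_mem B) (E_proj B)
      (fun n => E_mul_E B (Nat.le_succ n)) h
    exact h1 (hE η h2)
  · obtain ⟨η, h1, h2⟩ := linked_vec hirr d ζ hζ hdζ j.e j.e_mem j.e_proj j.e_anti h
    exact h1 (he j hj η h2)

end Crest.Agent.R120
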