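import Crest.Agent.R120.L1

/-!
# R120 piece MinP: minimal projections on eigenvectors; simplicity of matrix algebras

`exists_min`: an eigenvector `u` (unit) of the Hermitian matrix `c` with eigenvalue `≥` the average
`re (trace c)/2^m`; `f = u u*`. `f x f = (u* x u) f`.
`one_mem_of_mem`: if `f : Mx m` is non-zero then `1 = ∑ a_k f b_k` (matrix units), so an ideal of
`AA` containing `φ m f` contains `1`.
-/

set_option autoImplicit false
open scoped ComplexOrder InnerProductSpace Topology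
open Filter

namespace Crest.Agent.R120

variable {H : Type} [NormedAddCommGroup H] [InnerProductSpace ℂ H] [CompleteSpace H]

namespace MinP_aux

open Matrix in
theorem vv_mul {n : Type} [Fintype n] [DecidableEq n] (u : n → ℂ) (x : Matrix n n ℂ) :
    vecMulVec u (star u) * x * vecMulVec u (star u) =
      (star u ⬝ᵥ (x *ᵥ u)) • vecMulVec u (star u) := by
  rw [Matrix.mul_assoc, Matrix.mul_vecMulVec, Matrix.vecMulVec_mul_vecMulVec]
  ext i j
  simp [vecMulVec_apply, Matrix.smul_apply]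
  ring

end MinP_aux

open Matrix in
theorem exists_min {m : ℕ} (c : Mx m) (hc : star c = c) {δ : ℝ}
    (h : δ ≤ ((2 : ℂ) ^ m)⁻¹.re * (c.trace).re) :
    ∃ f : Mx m, IsStarProjection f ∧ f ≠ 0 ∧ (∀ x : Mx m, ∃ μ : ℂ, f * x * f = μ • f) ∧
      ∃ l : ℝ, δ ≤ l ∧ f * c * f = (l : ℂ) • f := by
  have hcH : c.IsHermitian := hc
  have htr := hcH.trace_eq_sum_eigenvalues
  have hcard : (Fintype.card (Ix m) : ℝ) = 2 ^ m := by
    simp [Ix]
  have h2 : ((2 : ℂ) ^ m)⁻¹.re = ((2 : ℝ) ^ m)⁻¹ := by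
    have : ((2 : ℂ) ^ m)⁻¹ = (((2 : ℝ) ^ m)⁻¹ : ℝ) := by push_cast; rfl
    rw [this, Complex.ofReal_re]
  have h3 : (c.trace).re = ∑ i, hcH.eigenvalues i := by
    rw [htr, Complex.re_sum]
    rfl
  -- an eigenvalue above average
  obtain ⟨i, hi⟩ : ∃ i, δ ≤ hcH.eigenvalues i := by
    by_contra hcon
    push Not at hcon
    have hlt : ∑ i, hcH.eigenvalues i < ∑ _i : Ix m, δ :=
      Finset.sum_lt_sum_of_nonempty Finset.univ_nonempty (fun i _ => hcon i)
    rw [Finset.sum_const, Finset.card_univ, nsmul_eq_mul, hcard] at hlt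
    rw [h2, h3] at h
    have hp : (0 : ℝ) < 2 ^ m := by positivity
    rw [inv_mul_eq_div, le_div_iff₀ hp] at h
    linarith
  set u : Ix m → ℂ := ⇑(hcH.eigenvectorBasis i) with hu
  have hcu : c *ᵥ u = (hcH.eigenvalues i) • u := hcH.mulVec_eigenvectorBasis i
  have huu : star u ⬝ᵥ u = 1 := by
    have h5 : ‖hcH.eigenvectorBasis i‖ = 1 := hcH.eigenvectorBasis.orthonormal.1 i
    have h4 := EuclideanSpace.inner_eq_star_dotProduct (𝕜 := ℂ) (hcH.eigenvectorBasis i)
      (hcH.eigenvectorBasis i)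
    rw [inner_self_eq_norm_sq_to_K, h5] at h4
    rw [dotProduct_comm]
    simpa using h4.symm
  refine ⟨vecMulVec u (star u), ⟨?_, ?_⟩, ?_, ?_, hcH.eigenvalues i, hi, ?_⟩
  · have := MinP_aux.vv_mul u (1 : Mx m)
    rw [Matrix.mul_one, Matrix.one_mulVec, huu, one_smul] at this
    exact this
  · show star (vecMulVec u (star u)) = vecMulVec u (star u)
    ext a b
    simp [vecMulVec_apply, Matrix.star_apply, mul_comm]
  · intro h0
    have h1 : vecMulVec u (star u) *ᵥ u = 0 := by rw [h0, Matrix.zero_mulVec]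
    rw [Matrix.vecMulVec_mulVec, huu] at h1
    have h6 : u = 0 := by simpa using h1
    rw [h6] at huu
    simp at huu
  · intro x
    exact ⟨_, MinP_aux.vv_mul u x⟩
  · rw [MinP_aux.vv_mul, hcu, dotProduct_smul, huu]
    simp

theorem one_mem_of_mem {B : Base H} {I : Set (Datum B)} {s : Datum B → (H →L[ℂ] H)}
    (J : TwoSidedIdeal (AA B I s)) {m : ℕ} (f : Mx m) (hf : f ≠ 0)
    (hJ : (⟨B.φ m f, M_le_AA B I s ⟨m, f, rfl⟩⟩ : AA B I s) ∈ J) : (1 : AA B I s) ∈ J := by
  obtain ⟨i, j, hij⟩ : ∃ i j, f i j ≠ 0 := by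
    by_contra hcon
    push Not at hcon
    apply hf
    ext i j
    exact hcon i j
  let ι : Mx m → AA B I s := fun x => ⟨B.φ m x, M_le_AA B I s ⟨m, x, rfl⟩⟩
  have hmul : ∀ x y, ι (x * y) = ι x * ι y := fun x y => Subtype.ext (map_mul (B.φ m) x y)
  have hone : ι 1 = 1 := Subtype.ext (map_one (B.φ m))
  have hadd : ∀ x y, ι (x + y) = ι x + ι y := fun x y => Subtype.ext (map_add (B.φ m) x y)
  have hzero : ι 0 = 0 := Subtype.ext (map_zero (B.φ m))
  have hsum : ∀ (t : Finset (Ix m)) (F : Ix m → Mx m), (∀ w, ι (F w) ∈ J) →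
      ι (∑ w ∈ t, F w) ∈ J := by
    intro t F hF
    classical
    induction t using Finset.induction_on with
    | empty => rw [Finset.sum_empty, hzero]; exact J.zero_mem
    | insert a t ha ih =>
      rw [Finset.sum_insert ha, hadd]
      exact J.add_mem (hF a) ih
  have hsplit : (1 : Mx m) = ∑ w : Ix m,
      Matrix.single w i ((f i j)⁻¹) * f * Matrix.single j w (1 : ℂ) := by
    rw [← Matrix.sum_single_one]
    refine Finset.sum_congr rfl fun w _ => ?_
    rw [Matrix.single_mul_mul_single, inv_mul_cancel₀ hij, one_mul]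
  rw [← hone, hsplit]
  apply hsum
  intro w
  rw [hmul, hmul]
  exact J.mul_mem_right _ _ (J.mul_mem_left _ _ hJ)

end Crest.Agent.R120
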