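import Crest.Agent.R120.Appr
import Crest.Agent.R120.MinP

/-!
# R120 piece Corn: a matrix projection which compresses `a` almost to a scalar

`t = Re tr a > 0`, `δ = t/4`, `w` in the adjoin with `‖a - w‖ ≤ η` (`η ≤ δ/8`). `Appr`: `L, C`
(WLOG `C ≥ 1`). Choose `K₀` with `L C (C/K₀)^{1/2} ≤ δ/8`, then `δ'` small, and
`w = a' + ∑ y_j P_j z_j`, `‖P_j Ω‖ ≤ δ'`. `c = (a' + a'*)/2 - K₀ ∑ y_j P_j y_j* ∈ M`;
`|tr(y_j P_j z_j)| ≤ ‖P_j y_j* Ω‖ ‖z_j‖ ≤ C² δ'` (`norm_mul_Ω_le`),
`tr (y_j P_j y_j*) = ‖P_j y_j* Ω‖² ≤ C² δ'²`: so `Re tr c ≥ t - η - L C² δ' - K₀ L C² δ'² ≥ δ`.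
`exists_min` in a common level of `a', y_j, P_j`: `f` with `f c f = λ f`, `λ ≥ δ`,
`f a' f = μ f`, `f (∑ y_j P_j y_j*) f = ρ f`, `ρ ≥ 0`, `Re μ = λ + K₀ ρ`, `|μ| ≤ C` so
`ρ ≤ C/K₀`, `‖f y_j P_j‖² ≤ ρ`. Hence `‖f a f - μ f‖ ≤ η + L (C/K₀)^{1/2} C ≤ δ/4 ≤ |μ|/4`.
(The `μ` of the statement is `μ⁻¹`.)
-/

set_option autoImplicit false
open scoped ComplexOrder InnerProductSpace Topology
open Filter

namespace Crest.Agent.R120

variable {H : Type} [NormedAddCommGroup H] [InnerProductSpace ℂ H] [CompleteSpace H]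

namespace Corn_aux

theorem tr_re_eq (B : Base H) (m : ℕ) (x : Mx m) :
    (B.tr (B.φ m x)).re = ((2 : ℂ) ^ m)⁻¹.re * x.trace.re := by
  unfold Base.tr
  rw [B.tr_eq, Complex.mul_re]
  have : (((2 : ℂ) ^ m)⁻¹).im = 0 := by
    have : ((2 : ℂ) ^ m)⁻¹ = (((2 : ℝ) ^ m)⁻¹ : ℝ) := by push_cast; rfl
    rw [this, Complex.ofReal_im]
  rw [this, zero_mul, sub_zero]

theorem phi_inj (B : Base H) (m : ℕ) (x : Mx m) (h : B.φ m x = 0) : x = 0 := by
  have h1 := B.tr_eq m (star x * x)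
  rw [map_mul, h, mul_zero] at h1
  have h2 : (star x * x).trace = 0 := by
    have h3 : ((2 : ℂ) ^ m)⁻¹ ≠ 0 := inv_ne_zero (pow_ne_zero _ two_ne_zero)
    simpa [h3] using h1
  exact Matrix.trace_conjTranspose_mul_self_eq_zero_iff.1 h2

theorem tr_norm_le (B : Base H) (T : H →L[ℂ] H) : ‖B.tr T‖ ≤ ‖T‖ := by
  unfold Base.tr
  refine (norm_inner_le_norm _ _).trans ?_
  rw [norm_Ω, one_mul]
  refine (T.le_opNorm _).trans ?_
  rw [norm_Ω, mul_one]

theorem tr_add (B : Base H) (S T : H →L[ℂ] H) : B.tr (S + T) = B.tr S + B.tr T := by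
  unfold Base.tr
  rw [_root_.add_apply, inner_add_right]

theorem tr_sub (B : Base H) (S T : H →L[ℂ] H) : B.tr (S - T) = B.tr S - B.tr T := by
  unfold Base.tr
  rw [_root_.sub_apply, inner_sub_right]

theorem tr_smul (B : Base H) (c : ℂ) (T : H →L[ℂ] H) : B.tr (c • T) = c * B.tr T := by
  unfold Base.tr
  rw [_root_.smul_apply, inner_smul_right]

theorem tr_sum (B : Base H) {ι : Type} (s : Finset ι) (T : ι → (H →L[ℂ] H)) :
    B.tr (∑ i ∈ s, T i) = ∑ i ∈ s, B.tr (T i) := by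
  unfold Base.tr
  rw [_root_.sum_apply, inner_sum]

theorem tr_star (B : Base H) (T : H →L[ℂ] H) : B.tr (star T) = (starRingEnd ℂ) (B.tr T) := by
  unfold Base.tr
  rw [ContinuousLinearMap.star_eq_adjoint, ContinuousLinearMap.adjoint_inner_right,
    inner_conj_symm]

theorem tr_ypz_le (B : Base H) {y P z : H →L[ℂ] H} {C δ : ℝ} (hC : 0 ≤ C) (hy : y ∈ B.M)
    (hyC : ‖y‖ ≤ C) (hP : P ∈ B.M) (hPp : IsStarProjection P) (hPδ : ‖P B.Ω‖ ≤ δ)
    (hz : ‖z‖ ≤ C) : ‖P (star y B.Ω)‖ ≤ C * δ ∧ ‖B.tr (y * P * z)‖ ≤ C * δ * C := by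
  have h1 : ‖P (star y B.Ω)‖ ≤ C * δ := by
    refine (norm_mul_Ω_le B hP (star_mem hy)).trans ?_
    rw [norm_star]
    exact mul_le_mul hyC hPδ (norm_nonneg _) hC
  refine ⟨h1, ?_⟩
  have h2 : B.tr (y * P * z) = ⟪P (star y B.Ω), z B.Ω⟫_ℂ := by
    unfold Base.tr
    have h3 : ∀ v u : H, ⟪P v, u⟫_ℂ = ⟪v, P u⟫_ℂ := by
      intro v u
      have h4 := hPp.isSelfAdjoint.star_eq
      rw [ContinuousLinearMap.star_eq_adjoint] at h4
      conv_lhs => rw [← h4]
      rw [ContinuousLinearMap.adjoint_inner_left]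
    rw [h3, ContinuousLinearMap.star_eq_adjoint, ContinuousLinearMap.adjoint_inner_left]
    rfl
  rw [h2]
  refine (norm_inner_le_norm _ _).trans ?_
  refine mul_le_mul h1 ?_ (norm_nonneg _) ((norm_nonneg _).trans h1)
  refine (z.le_opNorm _).trans ?_
  rw [norm_Ω, mul_one]
  exact hz

end Corn_aux

open Corn_aux in
set_option maxHeartbeats 1600000 in
theorem exists_corner {B : Base H} {I : Set (Datum B)} {s : Datum B → (H →L[ℂ] H)}
    (hs : ∀ i ∈ I, IsSym B i (s i)) {a : H →L[ℂ] H} (ha : a ∈ AA B I s)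
    (ht : 0 < (B.tr a).re) :
    ∃ (m : ℕ) (f : Mx m) (μ : ℂ), IsStarProjection f ∧ f ≠ 0 ∧
      ‖B.φ m f - μ • (B.φ m f * a * B.φ m f)‖ ≤ 1 / 4 := by
  set t := (B.tr a).re with htdef
  -- approximation by a word
  have hcl : a ∈ closure ((StarAlgebra.adjoin ℂ ((B.M : Set (H →L[ℂ] H)) ∪ s '' I) :
      StarSubalgebra ℂ (H →L[ℂ] H)) : Set (H →L[ℂ] H)) := ha
  obtain ⟨w, hw, haw⟩ := Metric.mem_closure_iff.1 hcl (t / 32) (by positivity)
  rw [dist_eq_norm] at haw
  obtain ⟨L, C0, happr⟩ := appr_adjoin hs hw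
  set C := max C0 1 with hCdef
  have hC0 : C0 ≤ C := le_max_left _ _
  have hC1 : 1 ≤ C := le_max_right _ _
  have hCpos : 0 < C := by linarith
  set r : ℝ := t / (32 * ((L : ℝ) + 1) * C) with hr
  have hL0 : (0 : ℝ) ≤ L := Nat.cast_nonneg _
  have hrpos : 0 < r := by positivity
  have hLr : (L : ℝ) * (r * C) ≤ t / 32 := by
    rw [hr]
    have h1 : (L : ℝ) * (t / (32 * ((L : ℝ) + 1) * C) * C) = t / 32 * (L / (L + 1)) := by
      field_simp
    rw [h1]
    have h2 : (L : ℝ) / (L + 1) ≤ 1 := by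
      rw [div_le_one (by positivity)]
      linarith
    nlinarith
  set K : ℝ := C / r ^ 2 with hK
  have hKpos : 0 < K := by positivity
  set d : ℝ := min 1 (t / (2 * (L * C ^ 2 * (1 + K) + 1))) with hd
  have hdpos : 0 < d := by
    rw [hd]
    apply lt_min one_pos
    positivity
  have hd1 : d ≤ 1 := min_le_left _ _
  have hd2 : L * C ^ 2 * (1 + K) * d ≤ t / 2 := by
    have h1 : d ≤ t / (2 * (L * C ^ 2 * (1 + K) + 1)) := min_le_right _ _
    have h2 : 0 ≤ L * C ^ 2 * (1 + K) := by positivity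
    rw [le_div_iff₀ (by positivity)] at h1
    nlinarith
  obtain ⟨a', y, P, z, ha'M, ha'C, hy, hP, hz, hweq⟩ := happr d hdpos
  have ha'C' : ‖a'‖ ≤ C := ha'C.trans hC0
  have hbd : ∀ j, ‖P j (star (y j) B.Ω)‖ ≤ C * d ∧ ‖B.tr (y j * P j * z j)‖ ≤ C * d * C :=
    fun j => tr_ypz_le B hCpos.le (hy j).1 ((hy j).2.trans hC0) (hP j).1 (hP j).2.1 (hP j).2.2
      ((hz j).trans hC0)
  -- common level
  obtain ⟨m, -, X, hX⟩ := common_level B (ι := Option (Fin L ⊕ Fin L))
    (fun i => match i with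
      | none => a'
      | some (Sum.inl j) => y j
      | some (Sum.inr j) => P j)
    (fun i => match i with
      | none => ha'M
      | some (Sum.inl j) => (hy j).1
      | some (Sum.inr j) => (hP j).1) 0
  set A : Mx m := X none with hA
  set Y : Fin L → Mx m := fun j => X (some (Sum.inl j)) with hY
  set Q : Fin L → Mx m := fun j => X (some (Sum.inr j)) with hQ
  have hφA : B.φ m A = a' := hX none
  have hφY : ∀ j, B.φ m (Y j) = y j := fun j => hX (some (Sum.inl j))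
  have hφQ : ∀ j, B.φ m (Q j) = P j := fun j => hX (some (Sum.inr j))
  have hQs : ∀ j, star (Q j) = Q j := by
    intro j
    have h1 : star (Q j) - Q j = 0 := by
      apply phi_inj B m
      rw [map_sub, map_star, hφQ, (hP j).2.1.isSelfAdjoint.star_eq, sub_self]
    exact sub_eq_zero.1 h1
  set c : Mx m := (1 / 2 : ℂ) • (A + star A) - (K : ℂ) • ∑ j, Y j * Q j * star (Y j) with hc
  have hcs : star c = c := by
    rw [hc, star_sub, star_smul, star_smul, star_add, star_star, star_sum]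
    congr 1
    · rw [add_comm]
      congr 1
      simp
    · congr 1
      · simp
      · apply Finset.sum_congr rfl
        intro j _
        rw [star_mul, star_mul, star_star, hQs, mul_assoc]
  have hφc : B.φ m c = (1 / 2 : ℂ) • (a' + star a') - (K : ℂ) • ∑ j, y j * P j * star (y j) := by
    rw [hc, map_sub, map_smul, map_smul, map_add, map_star, map_sum, hφA]
    congr 2
    apply Finset.sum_congr rfl
    intro j _
    rw [map_mul, map_mul, map_star, hφY, hφQ]
  -- the trace of `c`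
  have htrw : t - t / 32 ≤ (B.tr w).re := by
    have h1 := tr_norm_le B (a - w)
    rw [tr_sub] at h1
    have h2 := (Complex.abs_re_le_norm (B.tr a - B.tr w)).trans h1
    rw [Complex.sub_re] at h2
    have h3 := (abs_le.1 h2).2
    linarith
  have hsum1 : ∀ T : Fin L → ℂ, (∀ j, ‖T j‖ ≤ C * d * C) → |(∑ j, T j).re| ≤ L * (C * d * C) := by
    intro T hT
    refine (Complex.abs_re_le_norm _).trans ((norm_sum_le _ _).trans ?_)
    refine (Finset.sum_le_sum (fun j _ => hT j)).trans ?_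
    rw [Finset.sum_const, Finset.card_univ, Fintype.card_fin, nsmul_eq_mul]
  have htra' : t - t / 32 - L * (C * d * C) ≤ (B.tr a').re := by
    have h1 : B.tr w = B.tr a' + ∑ j, B.tr (y j * P j * z j) := by
      rw [hweq, tr_add, tr_sum]
    have h2 := hsum1 (fun j => B.tr (y j * P j * z j)) (fun j => (hbd j).2)
    have h3 := congrArg Complex.re h1
    rw [Complex.add_re] at h3
    have h4 := (abs_le.1 h2).2
    linarith
  have htrc : t / 4 ≤ ((2 : ℂ) ^ m)⁻¹.re * (c.trace).re := by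
    rw [← tr_re_eq B m c, hφc, tr_sub, tr_smul, tr_smul, tr_add, tr_star, tr_sum]
    have h2 := hsum1 (fun j => B.tr (y j * P j * star (y j))) (fun j =>
      (tr_ypz_le B hCpos.le (hy j).1 ((hy j).2.trans hC0) (hP j).1 (hP j).2.1 (hP j).2.2
        (z := star (y j)) (by rw [norm_star]; exact (hy j).2.trans hC0)).2)
    have h3 : ((1 / 2 : ℂ) * (B.tr a' + (starRingEnd ℂ) (B.tr a')) -
        (K : ℂ) * ∑ j, B.tr (y j * P j * star (y j))).re =
        (B.tr a').re - K * (∑ j, B.tr (y j * P j * star (y j))).re := by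
      rw [Complex.sub_re, Complex.re_ofReal_mul]
      congr 1
      rw [Complex.add_conj]
      simp
    rw [h3]
    have h4 := (abs_le.1 h2).2
    have h5 := mul_le_mul_of_nonneg_left h4 hKpos.le
    have h6 : L * C ^ 2 * (1 + K) * d = L * (C * d * C) + K * (L * (C * d * C)) := by ring
    linarith
  obtain ⟨f, hfp, hf0, hfx, l, hl, hfc⟩ := exists_min c hcs htrc
  obtain ⟨μ, hμ⟩ := hfx A
  choose ρ hρ using fun j => hfx (Y j * Q j * star (Y j))
  set F : H →L[ℂ] H := B.φ m f with hF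
  have hF0 : F ≠ 0 := fun h => hf0 (phi_inj B m f h)
  have hFF : F * F = F := by rw [hF, ← map_mul, hfp.isIdempotentElem.eq]
  have hFs : star F = F := by rw [hF, ← map_star, hfp.isSelfAdjoint.star_eq]
  have hFp : IsStarProjection F := ⟨hFF, hFs⟩
  have hF1 : ‖F‖ ≤ 1 := norm_proj_le hFp
  have hFμ : F * a' * F = μ • F := by
    rw [hF, ← hφA, ← map_mul, ← map_mul, hμ, map_smul]
  have hFρ : ∀ j, F * (y j * P j * star (y j)) * F = ρ j • F := by
    intro j
    rw [hF, ← hφY, ← hφQ, ← map_star, ← map_mul, ← map_mul, ← map_mul, ← map_mul, hρ, map_smul]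
  obtain ⟨u, hu⟩ : ∃ u, F u ≠ 0 := by
    by_contra hcon
    push Not at hcon
    exact hF0 (ContinuousLinearMap.ext hcon)
  set v := F u with hv
  have hFv : F v = v := by
    rw [hv, ← mul_apply_eq_comp, hFF]
  have hv0 : 0 < ‖v‖ := norm_pos_iff.2 hu
  -- `T j`
  set T : Fin L → (H →L[ℂ] H) := fun j => F * y j * P j with hT
  have hTT : ∀ j, T j * star (T j) = ρ j • F := by
    intro j
    rw [← hFρ, hT]
    simp only [star_mul, hFs, (hP j).2.1.isSelfAdjoint.star_eq]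
    have h1 := (hP j).2.1.isIdempotentElem.eq
    calc F * y j * P j * (P j * (star (y j) * F))
        = F * y j * (P j * P j) * (star (y j) * F) := by simp only [mul_assoc]
      _ = F * (y j * P j * star (y j)) * F := by rw [h1]; simp only [mul_assoc]
  have hσ : ∀ j, ρ j = ((‖star (T j) v‖ ^ 2 / ‖v‖ ^ 2 : ℝ) : ℂ) := by
    intro j
    have h1 : ⟪v, (T j * star (T j)) v⟫_ℂ = ((‖star (T j) v‖ ^ 2 : ℝ) : ℂ) := by
      rw [mul_apply_eq_comp, ← ContinuousLinearMap.adjoint_inner_left,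
        ← ContinuousLinearMap.star_eq_adjoint, inner_self_eq_norm_sq_to_K]
      push_cast
      rfl
    rw [hTT, _root_.smul_apply, hFv, inner_smul_right, inner_self_eq_norm_sq_to_K] at h1
    have h2 : ((‖v‖ : ℝ) : ℂ) ≠ 0 := by exact_mod_cast hv0.ne'
    push_cast at h1 ⊢
    rw [eq_div_iff (pow_ne_zero _ h2)]
    exact h1
  set σ : Fin L → ℝ := fun j => ‖star (T j) v‖ ^ 2 / ‖v‖ ^ 2 with hσdef
  have hσ0 : ∀ j, 0 ≤ σ j := fun j => by positivity
  -- the equation for `μ`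
  have hμeq : μ.re = l + K * ∑ j, σ j := by
    have h1 : f * c * f = ((1 / 2 : ℂ) * (μ + (starRingEnd ℂ) μ) - (K : ℂ) * ∑ j, (σ j : ℂ)) • f := by
      rw [hc, mul_sub, sub_mul, mul_smul_comm, smul_mul_assoc, mul_smul_comm, smul_mul_assoc,
        mul_add, add_mul, hμ, Finset.mul_sum, Finset.sum_mul]
      have h2 : f * star A * f = (starRingEnd ℂ) μ • f := by
        have h3 := congrArg star hμ
        rw [star_mul, star_mul, star_smul, hfp.isSelfAdjoint.star_eq, ← mul_assoc] at h3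
        exact h3
      rw [h2, Finset.sum_congr rfl (fun j _ => hρ j), ← Finset.sum_smul]
      simp only [hσ]
      rw [← add_smul, smul_smul, smul_smul, ← sub_smul]
    rw [hfc] at h1
    have h2 := smul_left_injective ℂ hf0 h1
    have h3 := congrArg Complex.re h2
    rw [Complex.ofReal_re, Complex.sub_re, Complex.re_ofReal_mul, Complex.add_conj] at h3
    simp at h3
    linarith
  have hμC : ‖μ‖ ≤ C := by
    have h1 : ‖(F * a' * F) v‖ ≤ C * ‖v‖ := by
      have h2 : ‖F * a' * F‖ ≤ C := by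
        calc ‖F * a' * F‖ ≤ ‖F‖ * ‖a'‖ * ‖F‖ := norm_mul₃_le
          _ ≤ 1 * C * 1 := by gcongr
          _ = C := by ring
      exact ((F * a' * F).le_opNorm v).trans (by gcongr)
    rw [hFμ, _root_.smul_apply, hFv, norm_smul] at h1
    exact le_of_mul_le_mul_right h1 hv0
  have hμl : t / 4 ≤ ‖μ‖ := by
    have h1 : 0 ≤ ∑ j, σ j := Finset.sum_nonneg (fun j _ => hσ0 j)
    have h2 : μ.re ≤ ‖μ‖ := Complex.re_le_norm μ
    nlinarith
  have hμ0 : μ ≠ 0 := by
    intro h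
    rw [h, norm_zero] at hμl
    linarith
  have hσr : ∀ j, σ j ≤ r ^ 2 := by
    intro j
    have h1 : σ j ≤ ∑ j, σ j := Finset.single_le_sum (fun j _ => hσ0 j) (Finset.mem_univ j)
    have h2 : μ.re ≤ ‖μ‖ := Complex.re_le_norm μ
    have h3 : K * σ j ≤ C := by nlinarith
    have h4 : σ j ≤ C / K := by
      rw [le_div_iff₀ hKpos]
      linarith
    have h5 : C / K = r ^ 2 := by
      rw [hK]
      field_simp
    rwa [h5] at h4
  have hTr : ∀ j, ‖T j‖ ≤ r := by
    intro j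
    have h1 : ‖T j‖ * ‖T j‖ = ‖T j * star (T j)‖ := CStarRing.norm_self_mul_star.symm
    rw [hTT, norm_smul] at h1
    have h2 : ‖ρ j‖ = σ j := by
      rw [hσ, Complex.norm_real, Real.norm_of_nonneg (hσ0 j)]
    rw [h2] at h1
    have h3 : ‖T j‖ * ‖T j‖ ≤ r ^ 2 := by
      rw [h1]
      calc σ j * ‖F‖ ≤ σ j * 1 := by
            apply mul_le_mul_of_nonneg_left hF1 (hσ0 j)
        _ ≤ r ^ 2 := by rw [mul_one]; exact hσr j
    rw [← sq] at h3
    exact le_of_sq_le_sq h3 hrpos.le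
  refine ⟨m, f, μ⁻¹, hfp, hf0, ?_⟩
  change ‖F - μ⁻¹ • (F * a * F)‖ ≤ 1 / 4
  have hdiff : F * a * F - μ • F = F * (a - w) * F + ∑ j, T j * z j * F := by
    have h1 : F * w * F = μ • F + ∑ j, T j * z j * F := by
      rw [hweq, mul_add, add_mul, hFμ, Finset.mul_sum, Finset.sum_mul]
      congr 1
    rw [mul_sub, sub_mul, h1]
    abel
  have hnorm : ‖F * a * F - μ • F‖ ≤ t / 16 := by
    rw [hdiff]
    refine (norm_add_le _ _).trans ?_
    have h1 : ‖F * (a - w) * F‖ ≤ t / 32 := by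
      calc ‖F * (a - w) * F‖ ≤ ‖F‖ * ‖a - w‖ * ‖F‖ := norm_mul₃_le
        _ ≤ 1 * (t / 32) * 1 := by gcongr
        _ = t / 32 := by ring
    have h2 : ‖∑ j, T j * z j * F‖ ≤ L * (r * C) := by
      refine (norm_sum_le _ _).trans ?_
      refine (Finset.sum_le_sum (fun j _ => show ‖T j * z j * F‖ ≤ r * C from ?_)).trans ?_
      · calc ‖T j * z j * F‖ ≤ ‖T j‖ * ‖z j‖ * ‖F‖ := norm_mul₃_le
          _ ≤ r * C * 1 := by
              have := hTr j
              have := (hz j).trans hC0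
              gcongr
          _ = r * C := by ring
      · rw [Finset.sum_const, Finset.card_univ, Fintype.card_fin, nsmul_eq_mul]
    linarith
  have hfin : F - μ⁻¹ • (F * a * F) = -(μ⁻¹ • (F * a * F - μ • F)) := by
    rw [smul_sub, smul_smul, inv_mul_cancel₀ hμ0, one_smul]
    abel
  rw [hfin, norm_neg, norm_smul, norm_inv]
  have hμpos : 0 < ‖μ‖ := by linarith
  rw [inv_mul_le_iff₀ hμpos]
  linarith

end Crest.Agent.R120
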