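import Crest.Agent.R120.Defs

/-!
# R120 piece Cyc: irreducible representations with a common vector state are equivalent

`V_j = closure {π_j(a) ξ_j}` is closed and invariant; it is not `⊥`: otherwise the closed
invariant subspace `{v | ∀ a, π_j a v = 0}` contains `ξ_j ≠ 0`, so it is `⊤` and `π_j = 0`.
So `V_j = ⊤`. `π₁(a) ξ₁ ↦ π₂(a) ξ₂` is well defined and isometric
(`‖π_j(a) ξ_j‖² = ⟪ξ_j, π_j(a* a) ξ_j⟫`), extends to a unitary (dense range), and intertwines.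
-/

set_option autoImplicit false
open scoped ComplexOrder InnerProductSpace Topology
open Filter

namespace Crest.Agent.R120

namespace Cyc_aux

variable {A : Type} [CStarAlgebra A] {K : Type}
    [NormedAddCommGroup K] [InnerProductSpace ℂ K] [CompleteSpace K]

/-- the orbit map -/
noncomputable def orb (π : A →⋆ₙₐ[ℂ] (K →L[ℂ] K)) (ξ : K) : A →ₗ[ℂ] K where
  toFun a := π a ξ
  map_add' a b := by rw [map_add]; rfl
  map_smul' c a := by rw [map_smul]; rfl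

theorem orb_apply (π : A →⋆ₙₐ[ℂ] (K →L[ℂ] K)) (ξ : K) (a : A) : orb π ξ a = π a ξ := rfl

theorem orb_norm (π : A →⋆ₙₐ[ℂ] (K →L[ℂ] K)) (ξ : K) (a : A) :
    ((‖orb π ξ a‖ : ℂ)) ^ 2 = ⟪ξ, π (star a * a) ξ⟫_ℂ := by
  rw [orb_apply, map_mul, map_star]
  refine Eq.trans (b := ⟪π a ξ, π a ξ⟫_ℂ) (inner_self_eq_norm_sq_to_K (𝕜 := ℂ) (π a ξ)).symm ?_
  show _ = ⟪ξ, (star (π a)) (π a ξ)⟫_ℂ
  rw [ContinuousLinearMap.star_eq_adjoint, ContinuousLinearMap.adjoint_inner_right]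

theorem orb_dense (π : A →⋆ₙₐ[ℂ] (K →L[ℂ] K)) (hπ : Crest.OpAlg.IsIrreducibleRep π)
    (ξ : K) (hξ : ξ ≠ 0) : DenseRange (orb π ξ) := by
  have h1 := hπ.2 (LinearMap.range (orb π ξ)).topologicalClosure
    (Submodule.isClosed_topologicalClosure _) (by
      intro a v hv
      have hmaps : Set.MapsTo (π a) ((LinearMap.range (orb π ξ) : Submodule ℂ K) : Set K)
          ((LinearMap.range (orb π ξ) : Submodule ℂ K) : Set K) := by
        rintro _ ⟨b, rfl⟩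
        exact ⟨a * b, by rw [orb_apply, orb_apply, map_mul]; rfl⟩
      exact map_mem_closure (π a).continuous hv hmaps)
  rcases h1 with h1 | h1
  · exfalso
    have h2 : ∀ a, π a ξ = 0 := by
      intro a
      have h3 : π a ξ ∈ (LinearMap.range (orb π ξ)).topologicalClosure :=
        Submodule.le_topologicalClosure _ ⟨a, rfl⟩
      rw [h1, Submodule.mem_bot] at h3
      exact h3
    let W : Submodule ℂ K := ⨅ a : A, LinearMap.ker (π a : K →ₗ[ℂ] K)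
    have hWmem : ∀ v, v ∈ W ↔ ∀ a, π a v = 0 := by
      intro v
      simp only [W, Submodule.mem_iInf, LinearMap.mem_ker]
      exact Iff.rfl
    have hWc : IsClosed (W : Set K) := by
      have : (W : Set K) = ⋂ a : A, {v | π a v = 0} := by
        ext v
        rw [SetLike.mem_coe, hWmem, Set.mem_iInter]
        exact Iff.rfl
      rw [this]
      exact isClosed_iInter fun a => isClosed_eq (π a).continuous continuous_const
    rcases hπ.2 W hWc (by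
      intro a v hv
      rw [hWmem] at hv
      rw [hv a]
      exact W.zero_mem) with h4 | h4
    · have : ξ ∈ W := (hWmem ξ).2 h2
      rw [h4, Submodule.mem_bot] at this
      exact hξ this
    · apply hπ.1
      ext a v
      have : v ∈ W := by rw [h4]; trivial
      exact (hWmem v).1 this a
  · intro v
    have : v ∈ (LinearMap.range (orb π ξ)).topologicalClosure := by rw [h1]; trivial
    exact this

end Cyc_aux

open Cyc_aux

variable {H : Type} [NormedAddCommGroup H] [InnerProductSpace ℂ H] [CompleteSpace H]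

theorem equiv_of_state {A : Type} [CStarAlgebra A] {K₁ K₂ : Type}
    [NormedAddCommGroup K₁] [InnerProductSpace ℂ K₁] [CompleteSpace K₁]
    [NormedAddCommGroup K₂] [InnerProductSpace ℂ K₂] [CompleteSpace K₂]
    (π₁ : A →⋆ₙₐ[ℂ] (K₁ →L[ℂ] K₁)) (π₂ : A →⋆ₙₐ[ℂ] (K₂ →L[ℂ] K₂))
    (h₁ : Crest.OpAlg.IsIrreducibleRep π₁) (h₂ : Crest.OpAlg.IsIrreducibleRep π₂)
    (ξ₁ : K₁) (ξ₂ : K₂) (n₁ : ‖ξ₁‖ = 1) (n₂ : ‖ξ₂‖ = 1)
    (h : ∀ a : A, ⟪ξ₁, π₁ a ξ₁⟫_ℂ = ⟪ξ₂, π₂ a ξ₂⟫_ℂ) :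
    Crest.OpAlg.AreUnitarilyEquivalent π₁ π₂ := by
  have z₁ : ξ₁ ≠ 0 := by
    rintro rfl
    rw [norm_zero] at n₁
    exact zero_ne_one n₁
  have z₂ : ξ₂ ≠ 0 := by
    rintro rfl
    rw [norm_zero] at n₂
    exact zero_ne_one n₂
  have d₁ := orb_dense π₁ h₁ ξ₁ z₁
  have d₂ := orb_dense π₂ h₂ ξ₂ z₂
  have hn : ∀ a : A, ‖orb π₂ ξ₂ ((LinearEquiv.refl ℂ A) a)‖ = ‖orb π₁ ξ₁ a‖ := by
    intro a
    rw [LinearEquiv.refl_apply]
    have e₁ := orb_norm π₁ ξ₁ a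
    have e₂ := orb_norm π₂ ξ₂ a
    rw [h, ← e₂] at e₁
    have e₃ : ‖orb π₁ ξ₁ a‖ ^ 2 = ‖orb π₂ ξ₂ a‖ ^ 2 := by exact_mod_cast e₁
    exact ((sq_eq_sq₀ (norm_nonneg _) (norm_nonneg _)).1 e₃).symm
  let U : K₁ ≃ₗᵢ[ℂ] K₂ := (LinearEquiv.refl ℂ A).extendOfIsometry (orb π₁ ξ₁) (orb π₂ ξ₂) d₁ d₂ hn
  have hU : ∀ a : A, U (π₁ a ξ₁) = π₂ a ξ₂ := by
    intro a
    exact LinearEquiv.extendOfIsometry_eq (f := LinearEquiv.refl ℂ A) (e₁ := orb π₁ ξ₁)
      (e₂ := orb π₂ ξ₂) d₁ d₂ hn a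
  refine ⟨U, fun a v => ?_⟩
  refine d₁.induction_on (p := fun v => U (π₁ a v) = π₂ a (U v)) v ?_ ?_
  · exact isClosed_eq (U.continuous.comp (π₁ a).continuous) ((π₂ a).continuous.comp U.continuous)
  · intro b
    rw [orb_apply, hU b]
    have e₁ : π₁ a (π₁ b ξ₁) = π₁ (a * b) ξ₁ := by rw [map_mul]; rfl
    have e₂ : π₂ a (π₂ b ξ₂) = π₂ (a * b) ξ₂ := by rw [map_mul]; rfl
    rw [e₁, e₂, hU]

end Crest.Agent.R120
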