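import Mathlib
import Crest.Prelude.Def_CStarRep

/-!
# Row 120 (S0160): a tracial counterexample to Naimark's problem in ZFC — definitions

`Mx m = M_{2^m}(ℂ)`; `Base H` = a representation of the CAR algebra `⋃ Mx m` on a Hilbert space
`H` with a cyclic trace vector `Ω`. `B.M` = the (non-closed) union of the matrix algebras inside
`B(H)`. `B.E n` = image of the minimal projection `e_{00..0}` of `Mx n` (the "base sequence").
All norms are operator norms in `H →L[ℂ] H`.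
-/

set_option autoImplicit false
open scoped ComplexOrder InnerProductSpace

namespace Crest.Agent.R120

/-- binary words of length `m` -/
abbrev Ix (m : ℕ) : Type := Fin m → Bool

/-- the matrix algebra `M_{2^m}(ℂ)` -/
abbrev Mx (m : ℕ) : Type := Matrix (Ix m) (Ix m) ℂ

/-- `x ↦ x ⊗ 1` -/
def up {m : ℕ} (x : Mx m) : Mx (m + 1) := fun w w' =>
  if w (Fin.last m) = w' (Fin.last m) then x (Fin.init w) (Fin.init w') else 0

/-- the zero word -/
def zw (m : ℕ) : Ix m := fun _ => false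

/-- the minimal projection `e_{ww}` -/
noncomputable def mp {m : ℕ} (w : Ix m) : Mx m := Matrix.single w w 1

variable {H : Type} [NormedAddCommGroup H] [InnerProductSpace ℂ H] [CompleteSpace H]

/-- the tracial representation of `⋃ Mx m` -/
structure Base (H : Type) [NormedAddCommGroup H] [InnerProductSpace ℂ H] [CompleteSpace H] where
  φ : ∀ m, Mx m →⋆ₐ[ℂ] (H →L[ℂ] H)
  φ_up : ∀ (m : ℕ) (x : Mx m), φ (m + 1) (up x) = φ m x
  Ω : H
  tr_eq : ∀ (m : ℕ) (x : Mx m), ⟪Ω, φ m x Ω⟫_ℂ = ((2 : ℂ) ^ m)⁻¹ * x.trace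
  cyclic : Dense {v : H | ∃ (m : ℕ) (x : Mx m), v = φ m x Ω}

theorem Base.exists_up (B : Base H) {m m' : ℕ} (h : m ≤ m') (x : Mx m) :
    ∃ y : Mx m', B.φ m' y = B.φ m x := by
  induction m', h using Nat.le_induction with
  | base => exact ⟨x, rfl⟩
  | succ n _ ih =>
    obtain ⟨y, hy⟩ := ih
    exact ⟨up y, by rw [B.φ_up, hy]⟩

/-- the union of the matrix algebras, as a star subalgebra of `B(H)` (not closed) -/
noncomputable def Base.M (B : Base H) : StarSubalgebra ℂ (H →L[ℂ] H) where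
  carrier := {T | ∃ (m : ℕ) (x : Mx m), B.φ m x = T}
  mul_mem' := by
    rintro _ _ ⟨m, x, rfl⟩ ⟨n, y, rfl⟩
    obtain ⟨x', hx'⟩ := B.exists_up (le_max_left m n) x
    obtain ⟨y', hy'⟩ := B.exists_up (le_max_right m n) y
    exact ⟨max m n, x' * y', by rw [map_mul, hx', hy']⟩
  one_mem' := ⟨0, 1, map_one _⟩
  add_mem' := by
    rintro _ _ ⟨m, x, rfl⟩ ⟨n, y, rfl⟩
    obtain ⟨x', hx'⟩ := B.exists_up (le_max_left m n) x
    obtain ⟨y', hy'⟩ := B.exists_up (le_max_right m n) y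
    exact ⟨max m n, x' + y', by rw [map_add, hx', hy']⟩
  zero_mem' := ⟨0, 0, map_zero _⟩
  algebraMap_mem' := fun r => ⟨0, algebraMap ℂ _ r, AlgHomClass.commutes (B.φ 0) r⟩
  star_mem' := by
    rintro _ ⟨m, x, rfl⟩
    exact ⟨m, star x, map_star _ _⟩

theorem Base.mem_M (B : Base H) {T : H →L[ℂ] H} :
    T ∈ B.M ↔ ∃ (m : ℕ) (x : Mx m), B.φ m x = T := Iff.rfl

/-- the base sequence of minimal projections -/
noncomputable def Base.E (B : Base H) (n : ℕ) : H →L[ℂ] H := B.φ n (mp (zw n))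

/-- the trace (vector state of `Ω`) -/
noncomputable def Base.tr (B : Base H) (T : H →L[ℂ] H) : ℂ := ⟪B.Ω, T B.Ω⟫_ℂ

/-- a datum: an exposing sequence of projections matched with the base sequence -/
structure Datum (B : Base H) where
  k : ℕ → ℕ
  k_mono : StrictMono k
  k_pos : 1 ≤ k 0
  e : ℕ → (H →L[ℂ] H)
  v : ℕ → (H →L[ℂ] H)
  e_mem : ∀ n, e n ∈ B.M
  v_mem : ∀ n, v n ∈ B.M
  e_proj : ∀ n, IsStarProjection (e n)
  e_anti : ∀ n, e n * e (n + 1) = e (n + 1)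
  e_perp : B.E 1 * e 0 = 0
  e_tr : ∀ n, ‖e n B.Ω‖ ^ 2 = (1 / 2 : ℝ) ^ k n
  v_src : ∀ n, star (v n) * v n = B.E (k n) - B.E (k (n + 1))
  v_tgt : ∀ n, v n * star (v n) = e n - e (n + 1)
  excise : ∀ x ∈ B.M, ∀ ε : ℝ, 0 < ε → ∃ (n : ℕ) (c : ℂ), ‖e n * x * e n - c • e n‖ < ε

/-- `‖p_n x q_n‖ → 0` for all `x` in `M` (the sequences will be decreasing) -/
def Unlinked (B : Base H) (p q : ℕ → (H →L[ℂ] H)) : Prop :=
  ∀ x ∈ B.M, ∀ ε : ℝ, 0 < ε → ∃ n : ℕ, ‖p n * x * q n‖ < ε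

/-- the symmetry attached to a datum -/
structure IsSym (B : Base H) (d : Datum B) (s : H →L[ℂ] H) : Prop where
  star_eq : star s = s
  sq : s * s = 1
  inter : ∀ n, s * B.E (d.k n) = d.e n * s
  loc : ∀ n, s * (1 - B.E (d.k n) - d.e n) ∈ B.M

/-- pairwise unlinked family of data, unlinked from the base sequence -/
structure IsFam (B : Base H) (I : Set (Datum B)) : Prop where
  base : ∀ i ∈ I, Unlinked B B.E i.e
  pair : ∀ i ∈ I, ∀ j ∈ I, i ≠ j → Unlinked B i.e j.e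

/-- maximality -/
def IsMaxFam (B : Base H) (I : Set (Datum B)) : Prop :=
  IsFam B I ∧ ∀ d : Datum B, d ∈ I ∨ ¬ Unlinked B B.E d.e ∨ ∃ j ∈ I, ¬ Unlinked B j.e d.e

/-- the C*-algebra generated by `M` and the symmetries -/
noncomputable def AA (B : Base H) (I : Set (Datum B)) (s : Datum B → (H →L[ℂ] H)) :
    StarSubalgebra ℂ (H →L[ℂ] H) :=
  (StarAlgebra.adjoin ℂ ((B.M : Set (H →L[ℂ] H)) ∪ s '' I)).topologicalClosure

instance isClosed_AA (B : Base H) (I : Set (Datum B)) (s : Datum B → (H →L[ℂ] H)) :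
    IsClosed (AA B I s : Set (H →L[ℂ] H)) :=
  StarSubalgebra.isClosed_topologicalClosure _

noncomputable instance instCStarAA (B : Base H) (I : Set (Datum B))
    (s : Datum B → (H →L[ℂ] H)) : CStarAlgebra (AA B I s) :=
  StarSubalgebra.cstarAlgebra (AA B I s) (h_closed := isClosed_AA B I s)

theorem M_le_AA (B : Base H) (I : Set (Datum B)) (s : Datum B → (H →L[ℂ] H)) :
    B.M ≤ AA B I s := by
  intro x hx
  exact StarSubalgebra.le_topologicalClosure _
    (StarAlgebra.subset_adjoin ℂ _ (Or.inl hx))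

theorem s_mem_AA (B : Base H) {I : Set (Datum B)} (s : Datum B → (H →L[ℂ] H)) {i : Datum B}
    (hi : i ∈ I) : s i ∈ AA B I s :=
  StarSubalgebra.le_topologicalClosure _
    (StarAlgebra.subset_adjoin ℂ _ (Or.inr ⟨i, hi, rfl⟩))

theorem E_mem (B : Base H) (n : ℕ) : B.E n ∈ B.M := ⟨n, _, rfl⟩

/-- a (non-unital star-)representation `σ` of `M` by bounded operators, contractive, non-zero and
irreducible -/
structure IsIrr (B : Base H) {K : Type} [NormedAddCommGroup K] [InnerProductSpace ℂ K]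
    [CompleteSpace K] (σ : B.M →⋆ₙₐ[ℂ] (K →L[ℂ] K)) : Prop where
  contr : ∀ x : B.M, ‖σ x‖ ≤ ‖(x : H →L[ℂ] H)‖
  ne_zero : σ ≠ 0
  irr : ∀ V : Submodule ℂ K, IsClosed (V : Set K) → (∀ a : B.M, ∀ v ∈ V, σ a v ∈ V) →
    V = ⊥ ∨ V = ⊤

end Crest.Agent.R120
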