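import Crest.Agent.R120.DensA

/-!
# R120 piece Dens: the density theorem (with self-adjoint elements)

(a) `dens_aux`: for linearly independent `ξ : ι → K` (finite `ι`) and any `η : ι → K`, `ε > 0`,
there is `a ∈ M` with `‖σ a (ξ i) - η i‖ < ε`. Proof: in `PiLp 2 (fun _ : ι => K)` let `P` be the
orthogonal projection on the closure of `{(σ a ξ_i)_i}`; this closed subspace is invariant under
the diagonal action, so the matrix entries of `1 - P` commute with `σ(M)`, hence are scalars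
`c_{ij}` (`schur`); `(1-P) (ξ_i) = 0` [`ξ` is in the closure: `σ(1) = 1` since `σ ≠ 0` irreducible]
and linear independence give `1 - P = 0`.
(b) `density`: WLOG `ζ, w_i` replaced by an orthonormal basis of the span `V` of `ζ, w_i` (first
vector `ζ`); let `T` = projection on `ζ`. The real subspace `{(σ a v_j)_j : a = a*}` of `K^J` is
dense at `(T v_j)`: otherwise there is `(z_j)` with `Re ∑ ⟪z_j, σ a v_j⟫ = 0` for all `a = a*` but
`Re ∑ ⟪z_j, T v_j⟫ ≠ 0`. Apply it to `b + b*` and `i(b - b*)`: the functional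
`F(X) = ∑ (⟪z_j, X v_j⟫ + ⟪v_j, X z_j⟫)` vanishes on all `X = σ b`, hence by (a) (applied to a
basis of the span of the `v_j, z_j`) on all bounded `X`, in particular `F(T) = 0`; but
`F(T) = 2 Re ∑ ⟪z_j, T v_j⟫` as `T = T*`.
-/

set_option autoImplicit false
open scoped ComplexOrder InnerProductSpace Topology
open Filter

namespace Crest.Agent.R120

variable {H : Type} [NormedAddCommGroup H] [InnerProductSpace ℂ H] [CompleteSpace H]

namespace Dens_aux

theorem dens_gen {B : Base H} {K : Type} [NormedAddCommGroup K] [InnerProductSpace ℂ K]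
    [CompleteSpace K] {σ : B.M →⋆ₙₐ[ℂ] (K →L[ℂ] K)} (hσ : IsIrr B σ) {κ : Type} [Fintype κ]
    (u : κ → K) (T : K →ₗ[ℂ] K) {ε : ℝ} (hε : 0 < ε) :
    ∃ a : B.M, ∀ k, ‖σ a (u k) - T (u k)‖ < ε := by
  classical
  let U : Submodule ℂ K := Submodule.span ℂ (Set.range u)
  have : FiniteDimensional ℂ U := FiniteDimensional.span_of_finite ℂ (Set.finite_range u)
  let b := Module.finBasis ℂ U
  have hu : ∀ k, u k ∈ U := fun k => Submodule.subset_span ⟨k, rfl⟩
  let c : κ → Fin (Module.finrank ℂ U) → ℂ := fun k i => b.repr ⟨u k, hu k⟩ i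
  have hc : ∀ k, u k = ∑ i, c k i • (b i : K) := by
    intro k
    have h2 : ((∑ i, b.repr ⟨u k, hu k⟩ i • b i : U) : K) = u k :=
      congrArg Subtype.val (b.sum_repr ⟨u k, hu k⟩)
    rw [Submodule.coe_sum] at h2
    exact h2.symm
  let C : ℝ := 1 + ∑ k, ∑ i, ‖c k i‖
  have hC : 0 < C := by positivity
  obtain ⟨a, ha⟩ := dens_aux hσ (fun i => (b i : K)) (fun i => T (b i : K))
    (b.linearIndependent.map' U.subtype U.ker_subtype) (div_pos hε hC)
  refine ⟨a, fun k => ?_⟩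
  have h3 : σ a (u k) - T (u k) = ∑ i, c k i • (σ a (b i : K) - T (b i : K)) := by
    conv_lhs => rw [hc k, map_sum, map_sum, ← Finset.sum_sub_distrib]
    simp only [map_smul, ← smul_sub]
  rw [h3]
  calc ‖∑ i, c k i • (σ a (b i : K) - T (b i : K))‖
      ≤ ∑ i, ‖c k i • (σ a (b i : K) - T (b i : K))‖ := norm_sum_le _ _
    _ ≤ ∑ i, ‖c k i‖ * (ε / C) := by
        apply Finset.sum_le_sum
        intro i _
        rw [norm_smul]
        exact mul_le_mul_of_nonneg_left (ha i).le (norm_nonneg _)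
    _ = (∑ i, ‖c k i‖) * (ε / C) := by rw [Finset.sum_mul]
    _ < C * (ε / C) := by
        apply mul_lt_mul_of_pos_right _ (div_pos hε hC)
        have h4 : ∑ i, ‖c k i‖ ≤ ∑ k, ∑ i, ‖c k i‖ :=
          Finset.single_le_sum (f := fun k => ∑ i, ‖c k i‖)
            (fun k _ => Finset.sum_nonneg (fun i _ => norm_nonneg _)) (Finset.mem_univ k)
        simp only [C]
        linarith
    _ = ε := by field_simp

/-- if the real functional vanishes on all self-adjoint elements, the complex functional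
vanishes -/
theorem F_zero {B : Base H} {K : Type} [NormedAddCommGroup K] [InnerProductSpace ℂ K]
    [CompleteSpace K] {σ : B.M →⋆ₙₐ[ℂ] (K →L[ℂ] K)} {κ : Type} [Fintype κ]
    (v z : κ → K) (h : ∀ a : B.M, star a = a → (∑ j, ⟪z j, σ a (v j)⟫_ℂ).re = 0) (b : B.M) :
    ∑ j, (⟪z j, σ b (v j)⟫_ℂ + ⟪v j, σ b (z j)⟫_ℂ) = 0 := by
  have key : ∀ b : B.M, (∑ j, (⟪z j, σ b (v j)⟫_ℂ + ⟪v j, σ b (z j)⟫_ℂ)).re = 0 := by
    intro b
    have h1 := h (b + star b) (by rw [star_add, star_star, add_comm])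
    rw [← h1]
    simp only [Complex.re_sum]
    apply Finset.sum_congr rfl
    intro j _
    rw [map_add, map_star, _root_.add_apply, inner_add_right, Complex.add_re,
      Complex.add_re]
    congr 1
    rw [ContinuousLinearMap.star_eq_adjoint, ContinuousLinearMap.adjoint_inner_right,
      ← inner_conj_symm, Complex.conj_re]
  have h1 := key b
  have h2 := key (Complex.I • b)
  rw [map_smul] at h2
  have h3 : ∑ j, (⟪z j, (Complex.I • σ b) (v j)⟫_ℂ + ⟪v j, (Complex.I • σ b) (z j)⟫_ℂ)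
      = Complex.I * ∑ j, (⟪z j, σ b (v j)⟫_ℂ + ⟪v j, σ b (z j)⟫_ℂ) := by
    rw [Finset.mul_sum]
    apply Finset.sum_congr rfl
    intro j _
    rw [_root_.smul_apply, _root_.smul_apply, inner_smul_right,
      inner_smul_right]
    ring
  rw [h3] at h2
  apply Complex.ext
  · exact h1
  · simpa using h2

theorem F_T {B : Base H} {K : Type} [NormedAddCommGroup K] [InnerProductSpace ℂ K]
    [CompleteSpace K] {σ : B.M →⋆ₙₐ[ℂ] (K →L[ℂ] K)} (hσ : IsIrr B σ) {κ : Type} [Fintype κ]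
    (v z : κ → K) (h : ∀ a : B.M, star a = a → (∑ j, ⟪z j, σ a (v j)⟫_ℂ).re = 0)
    (T : K →ₗ[ℂ] K) :
    ∑ j, (⟪z j, T (v j)⟫_ℂ + ⟪v j, T (z j)⟫_ℂ) = 0 := by
  classical
  by_contra hne
  set F : ℂ := ∑ j, (⟪z j, T (v j)⟫_ℂ + ⟪v j, T (z j)⟫_ℂ) with hF
  have hFpos : 0 < ‖F‖ := norm_pos_iff.mpr hne
  let C : ℝ := 1 + ∑ j, (‖z j‖ + ‖v j‖)
  have hC : 0 < C := by positivity
  obtain ⟨a, ha⟩ := dens_gen hσ (Sum.elim v z) T (div_pos hFpos hC)
  have h0 := F_zero v z h a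
  have h1 : F = ∑ j, (⟪z j, T (v j) - σ a (v j)⟫_ℂ + ⟪v j, T (z j) - σ a (z j)⟫_ℂ) := by
    rw [← sub_zero F, ← h0, hF, ← Finset.sum_sub_distrib]
    apply Finset.sum_congr rfl
    intro j _
    rw [inner_sub_right, inner_sub_right]
    ring
  have h2 : ‖F‖ ≤ (∑ j, (‖z j‖ + ‖v j‖)) * (‖F‖ / C) := by
    calc ‖F‖ = ‖∑ j, (⟪z j, T (v j) - σ a (v j)⟫_ℂ + ⟪v j, T (z j) - σ a (z j)⟫_ℂ)‖ := by
          rw [← h1]
      _ ≤ ∑ j, ‖⟪z j, T (v j) - σ a (v j)⟫_ℂ + ⟪v j, T (z j) - σ a (z j)⟫_ℂ‖ :=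
          norm_sum_le _ _
      _ ≤ ∑ j, (‖z j‖ + ‖v j‖) * (‖F‖ / C) := by
          apply Finset.sum_le_sum
          intro j _
          have e1 : ‖T (v j) - σ a (v j)‖ ≤ ‖F‖ / C := by
            rw [norm_sub_rev]; exact (ha (Sum.inl j)).le
          have e2 : ‖T (z j) - σ a (z j)‖ ≤ ‖F‖ / C := by
            rw [norm_sub_rev]; exact (ha (Sum.inr j)).le
          calc _ ≤ ‖⟪z j, T (v j) - σ a (v j)⟫_ℂ‖ + ‖⟪v j, T (z j) - σ a (z j)⟫_ℂ‖ :=
                norm_add_le _ _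
            _ ≤ ‖z j‖ * ‖T (v j) - σ a (v j)‖ + ‖v j‖ * ‖T (z j) - σ a (z j)‖ :=
                add_le_add (norm_inner_le_norm _ _) (norm_inner_le_norm _ _)
            _ ≤ ‖z j‖ * (‖F‖ / C) + ‖v j‖ * (‖F‖ / C) := by gcongr
            _ = _ := by ring
      _ = _ := by rw [Finset.sum_mul]
  have h3 : (∑ j, (‖z j‖ + ‖v j‖)) * (‖F‖ / C) < C * (‖F‖ / C) := by
    apply mul_lt_mul_of_pos_right _ (div_pos hFpos hC)
    simp only [C]
    linarith
  have h4 : C * (‖F‖ / C) = ‖F‖ := by field_simp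
  linarith

end Dens_aux

open Dens_aux in
theorem density {B : Base H} {K : Type} [NormedAddCommGroup K] [InnerProductSpace ℂ K]
    [CompleteSpace K] {σ : B.M →⋆ₙₐ[ℂ] (K →L[ℂ] K)} (hσ : IsIrr B σ) {ι : Type} [Fintype ι]
    (ζ : K) (hζ : ‖ζ‖ = 1) (w : ι → K) (hw : ∀ i, ⟪ζ, w i⟫_ℂ = 0) {ε : ℝ} (hε : 0 < ε) :
    ∃ a : B.M, star a = a ∧ ‖σ a ζ - ζ‖ < ε ∧ ∀ i, ‖σ a (w i)‖ < ε := by
  classical
  let _ : InnerProductSpace ℝ K := InnerProductSpace.complexToReal
  let v : Option ι → K := fun j => j.elim ζ w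
  let T : K →ₗ[ℂ] K := ((innerSL ℂ ζ).toLinearMap).smulRight ζ
  have hT : ∀ x, T x = ⟪ζ, x⟫_ℂ • ζ := fun x => rfl
  have hTζ : T ζ = ζ := by
    rw [hT, inner_self_eq_norm_sq_to_K, hζ]; simp
  have hTw : ∀ i, T (w i) = 0 := fun i => by rw [hT, hw, zero_smul]
  let V : Submodule ℝ (PiLp 2 (fun _ : Option ι => K)) :=
    { carrier := {x | ∃ a : B.M, star a = a ∧ ∀ j, x j = σ a (v j)}
      add_mem' := by
        rintro x y ⟨a, ha, hx⟩ ⟨b, hb, hy⟩
        refine ⟨a + b, by rw [star_add, ha, hb], fun j => ?_⟩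
        rw [map_add, PiLp.add_apply, hx, hy, _root_.add_apply]
      zero_mem' := ⟨0, by simp, fun j => by simp⟩
      smul_mem' := by
        rintro r x ⟨a, ha, hx⟩
        refine ⟨(r : ℂ) • a, by rw [star_smul, ha]; simp, fun j => ?_⟩
        rw [map_smul, PiLp.smul_apply, hx, _root_.smul_apply]
        exact (Complex.coe_smul r _).symm }
  let t : PiLp 2 (fun _ : Option ι => K) := WithLp.toLp 2 (fun j => T (v j))
  have ht : t ∈ V.topologicalClosure := by
    rw [← Submodule.orthogonal_orthogonal_eq_closure, Submodule.mem_orthogonal]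
    intro z hz
    rw [Submodule.mem_orthogonal'] at hz
    have hz' : ∀ a : B.M, star a = a → (∑ j, ⟪z j, σ a (v j)⟫_ℂ).re = 0 := by
      intro a ha
      have h1 := hz (WithLp.toLp 2 (fun j => σ a (v j))) ⟨a, ha, fun j => rfl⟩
      rw [PiLp.inner_apply] at h1
      rw [Complex.re_sum, ← h1]
      rfl
    have h2 := F_T hσ v (fun j => z j) hz' T
    rw [PiLp.inner_apply]
    have h3 := congrArg Complex.re h2
    rw [Complex.re_sum] at h3
    have h4 : ∀ j, (⟪z j, T (v j)⟫_ℂ + ⟪v j, T (z j)⟫_ℂ).re = 2 * (⟪z j, T (v j)⟫_ℂ).re := by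
      intro j
      rw [Complex.add_re, hT, hT, inner_smul_right, inner_smul_right,
        ← inner_conj_symm (v j) ζ, ← inner_conj_symm (z j) ζ, two_mul]
      congr 1
      rw [Complex.mul_re, Complex.mul_re, Complex.conj_re, Complex.conj_re, Complex.conj_im,
        Complex.conj_im]
      ring
    simp only [h4] at h3
    rw [← Finset.mul_sum] at h3
    have h5 : ∑ j, (⟪z j, T (v j)⟫_ℂ).re = 0 := by
      have : (0 : ℂ).re = 0 := rfl
      linarith
    exact h5
  have ht' : t ∈ closure (V : Set (PiLp 2 (fun _ : Option ι => K))) := ht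
  rw [Metric.mem_closure_iff] at ht'
  obtain ⟨x, ⟨a, ha, hx⟩, hd⟩ := ht' ε hε
  refine ⟨a, ha, ?_, fun i => ?_⟩
  · have h1 : ‖(x - t) none‖ ≤ ‖x - t‖ := PiLp.norm_apply_le _ _
    rw [dist_comm, dist_eq_norm] at hd
    have h2 : (x - t) none = σ a ζ - ζ := by
      rw [PiLp.sub_apply, hx none]
      show σ a ζ - T ζ = _
      rw [hTζ]
    rw [h2] at h1
    linarith
  · have h1 : ‖(x - t) (some i)‖ ≤ ‖x - t‖ := PiLp.norm_apply_le _ _
    rw [dist_comm, dist_eq_norm] at hd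
    have h2 : (x - t) (some i) = σ a (w i) := by
      rw [PiLp.sub_apply, hx (some i)]
      show σ a (w i) - T (w i) = _
      rw [hTw, sub_zero]
    rw [h2] at h1
    linarith

end Crest.Agent.R120
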