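import Crest.Agent.R120.Schur

/-!
# R120 piece DensA: the density theorem

`sigma_one`: `σ 1` is a projection whose range is closed and invariant, not `⊥` since `σ ≠ 0`.
`dens_aux`: in `PiLp 2 (fun _ : ι => K)` let `P` be the orthogonal projection on the closure of
`{(σ a ξ_i)_i}`; this closed subspace is invariant under the diagonal action, so the matrix entries
of `1 - P` commute with `σ(M)`, hence are scalars `c_{ij}` (`schur` with `S = range σ`);
`(1-P) (ξ_i) = 0` (`ξ` is in the subspace by `sigma_one`) and linear independence give `1 - P = 0`.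
-/

set_option autoImplicit false
open scoped ComplexOrder InnerProductSpace Topology
open Filter

namespace Crest.Agent.R120

variable {H : Type} [NormedAddCommGroup H] [InnerProductSpace ℂ H] [CompleteSpace H]

theorem sigma_one {B : Base H} {K : Type} [NormedAddCommGroup K] [InnerProductSpace ℂ K]
    [CompleteSpace K] {σ : B.M →⋆ₙₐ[ℂ] (K →L[ℂ] K)} (hσ : IsIrr B σ) : σ 1 = 1 := by
  set V : Submodule ℂ K := LinearMap.ker ((1 - σ 1 : K →L[ℂ] K) : K →ₗ[ℂ] K) with hV
  have hmem : ∀ v, v ∈ V ↔ σ 1 v = v := by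
    intro v
    rw [hV, LinearMap.mem_ker]
    change v - σ 1 v = 0 ↔ _
    rw [sub_eq_zero]; exact eq_comm
  have hcl : IsClosed (V : Set K) := (1 - σ 1 : K →L[ℂ] K).isClosed_ker
  have hinv : ∀ a : B.M, ∀ v ∈ V, σ a v ∈ V := by
    intro a v _
    rw [hmem]
    have : σ 1 (σ a v) = (σ 1 * σ a) v := rfl
    rw [this, ← map_mul, one_mul]
  have hidem : ∀ v, σ 1 v ∈ V := by
    intro v
    rw [hmem]
    have : σ 1 (σ 1 v) = (σ 1 * σ 1) v := rfl
    rw [this, ← map_mul, one_mul]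
  rcases hσ.irr V hcl hinv with h | h
  · exfalso
    apply hσ.ne_zero
    have h0 : σ 1 = 0 := by
      ext v
      have := hidem v
      rw [h, Submodule.mem_bot] at this
      simpa using this
    ext x : 1
    have : σ x = σ x * σ 1 := by rw [← map_mul, mul_one]
    rw [this, h0, mul_zero]; rfl
  · ext v
    have : v ∈ V := by rw [h]; exact Submodule.mem_top
    rw [hmem] at this
    simpa using this

namespace DensA_aux

variable {B : Base H} {K : Type} [NormedAddCommGroup K] [InnerProductSpace ℂ K]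
    [CompleteSpace K] {ι : Type} [Fintype ι]

/-- `K^ι` as a Hilbert space -/
abbrev KK (K : Type) (ι : Type) [Fintype ι] : Type := PiLp 2 (fun _ : ι => K)

/-- the diagonal operator -/
noncomputable def Dg (ι : Type) [Fintype ι] (T : K →L[ℂ] K) : KK K ι →L[ℂ] KK K ι :=
  ((PiLp.continuousLinearEquiv 2 ℂ (fun _ : ι => K)).symm : (ι → K) →L[ℂ] KK K ι) ∘L
    (ContinuousLinearMap.pi fun i => T ∘L ContinuousLinearMap.proj i) ∘L
    ((PiLp.continuousLinearEquiv 2 ℂ (fun _ : ι => K)) : KK K ι →L[ℂ] (ι → K))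

theorem Dg_apply (T : K →L[ℂ] K) (v : KK K ι) (i : ι) : Dg ι T v i = T (v i) := rfl

theorem Dg_inner (T : K →L[ℂ] K) (v w : KK K ι) : ⟪Dg ι (star T) v, w⟫_ℂ = ⟪v, Dg ι T w⟫_ℂ := by
  rw [PiLp.inner_apply, PiLp.inner_apply]
  refine Finset.sum_congr rfl fun i _ => ?_
  rw [Dg_apply, Dg_apply, ContinuousLinearMap.star_eq_adjoint,
    ContinuousLinearMap.adjoint_inner_left]

/-- the orbit of `ξ` under the diagonal action -/
noncomputable def orb (σ : B.M →⋆ₙₐ[ℂ] (K →L[ℂ] K)) (ξ : ι → K) : Submodule ℂ (KK K ι) where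
  carrier := {v | ∃ a : B.M, ∀ i, v i = σ a (ξ i)}
  add_mem' := by
    rintro v w ⟨a, ha⟩ ⟨b, hb⟩
    exact ⟨a + b, fun i => by rw [PiLp.add_apply, ha, hb, map_add]; rfl⟩
  zero_mem' := ⟨0, fun i => by rw [map_zero]; rfl⟩
  smul_mem' := by
    rintro c v ⟨a, ha⟩
    exact ⟨c • a, fun i => by rw [PiLp.smul_apply, ha, map_smul]; rfl⟩

theorem orb_inv (σ : B.M →⋆ₙₐ[ℂ] (K →L[ℂ] K)) (ξ : ι → K) (b : B.M) (v : KK K ι)
    (hv : v ∈ orb σ ξ) : Dg ι (σ b) v ∈ orb σ ξ := by
  obtain ⟨a, ha⟩ := hv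
  refine ⟨b * a, fun i => ?_⟩
  rw [Dg_apply, ha, map_mul]; rfl

theorem cl_inv (σ : B.M →⋆ₙₐ[ℂ] (K →L[ℂ] K)) (ξ : ι → K) (b : B.M) (v : KK K ι)
    (hv : v ∈ (orb σ ξ).topologicalClosure) :
    Dg ι (σ b) v ∈ (orb σ ξ).topologicalClosure := by
  have hv' : v ∈ closure (orb σ ξ : Set (KK K ι)) := hv
  have : Dg ι (σ b) v ∈ closure (orb σ ξ : Set (KK K ι)) :=
    map_mem_closure (Dg ι (σ b)).continuous hv' (fun w hw => orb_inv σ ξ b w hw)
  exact this

end DensA_aux

open DensA_aux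

theorem dens_aux {B : Base H} {K : Type} [NormedAddCommGroup K] [InnerProductSpace ℂ K]
    [CompleteSpace K] {σ : B.M →⋆ₙₐ[ℂ] (K →L[ℂ] K)} (hσ : IsIrr B σ) {ι : Type} [Fintype ι]
    (ξ η : ι → K) (hξ : LinearIndependent ℂ ξ) {ε : ℝ} (hε : 0 < ε) :
    ∃ a : B.M, ∀ i, ‖σ a (ξ i) - η i‖ < ε := by
  classical
  set W : Submodule ℂ (KK K ι) := (orb σ ξ).topologicalClosure with hW
  have hWc : IsClosed (W : Set (KK K ι)) := Submodule.isClosed_topologicalClosure _
  haveI : CompleteSpace W := hWc.completeSpace_coe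
  set P : KK K ι →L[ℂ] KK K ι := W.starProjection with hP
  have hcomm : ∀ (a : B.M) (v : KK K ι), P (Dg ι (σ a) v) = Dg ι (σ a) (P v) := by
    intro a v
    apply Submodule.eq_starProjection_of_mem_of_inner_eq_zero
    · exact cl_inv σ ξ a _ (Submodule.starProjection_apply_mem W v)
    · intro w hw
      rw [← map_sub]
      have h1 : ⟪Dg ι (σ a) (v - P v), w⟫_ℂ = ⟪v - P v, Dg ι (σ (star a)) w⟫_ℂ := by
        rw [← Dg_inner, map_star, star_star]
      rw [h1]
      exact Submodule.starProjection_inner_eq_zero v _ (cl_inv σ ξ _ w hw)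
  set Q : KK K ι →L[ℂ] KK K ι := 1 - P with hQ
  have hQcomm : ∀ (a : B.M) (v : KK K ι), Q (Dg ι (σ a) v) = Dg ι (σ a) (Q v) := by
    intro a v
    change Dg ι (σ a) v - P (Dg ι (σ a) v) = Dg ι (σ a) (v - P v)
    rw [hcomm, map_sub]
  -- matrix entries
  set sg : ι → (K →L[ℂ] KK K ι) := fun j =>
    ((PiLp.continuousLinearEquiv 2 ℂ (fun _ : ι => K)).symm : (ι → K) →L[ℂ] KK K ι) ∘L
      (ContinuousLinearMap.single ℂ (fun _ : ι => K) j) with hsg
  have hsg_apply : ∀ (j : ι) (x : K) (i : ι), sg j x i = if i = j then x else 0 := by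
    intro j x i
    change (Pi.single j x : ι → K) i = _
    rw [Pi.single_apply]
  have hsg_sum : ∀ v : KK K ι, v = ∑ j, sg j (v j) := by
    intro v
    ext i
    rw [WithLp.ofLp_sum, Finset.sum_apply]
    have : ∀ j, (sg j (v j)) i = if i = j then v j else 0 := fun j => hsg_apply j _ i
    change v i = ∑ j, (sg j (v j)) i
    simp only [this]
    rw [Finset.sum_ite_eq]
    simp
  have hsgD : ∀ (a : B.M) (j : ι) (x : K), sg j (σ a x) = Dg ι (σ a) (sg j x) := by
    intro a j x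
    ext i
    change (sg j (σ a x)) i = (Dg ι (σ a) (sg j x)) i
    rw [Dg_apply, hsg_apply, hsg_apply]
    split_ifs
    · rfl
    · rw [map_zero]
  set pj : ι → (KK K ι →L[ℂ] K) := fun i => (ContinuousLinearMap.proj i : (ι → K) →L[ℂ] K) ∘L
    ((PiLp.continuousLinearEquiv 2 ℂ (fun _ : ι => K)) : KK K ι →L[ℂ] (ι → K)) with hpj
  have hpj_apply : ∀ i (v : KK K ι), pj i v = v i := fun i v => rfl
  have hent : ∀ i j, ∃ c : ℂ, pj i ∘L Q ∘L sg j = c • (1 : K →L[ℂ] K) := by
    intro i j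
    apply schur (Set.range σ)
    · rintro _ ⟨a, rfl⟩
      exact ⟨star a, map_star _ _⟩
    · intro V hV hinv
      exact hσ.irr V hV (fun a v hv => hinv _ ⟨a, rfl⟩ v hv)
    · rintro _ ⟨a, rfl⟩
      ext x
      change pj i (Q (sg j (σ a x))) = σ a (pj i (Q (sg j x)))
      rw [hsgD, hQcomm, hpj_apply, Dg_apply, hpj_apply]
  choose c hc using hent
  have hQv : ∀ (v : KK K ι) (i : ι), Q v i = ∑ j, c i j • v j := by
    intro v i
    have h1 : Q v = ∑ j, Q (sg j (v j)) := by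
      conv_lhs => rw [hsg_sum v, map_sum]
    rw [h1, WithLp.ofLp_sum, Finset.sum_apply]
    refine Finset.sum_congr rfl fun j _ => ?_
    have h2 := congrArg (fun T : K →L[ℂ] K => T (v j)) (hc i j)
    exact h2
  -- ξ is in the orbit
  set xi : KK K ι := WithLp.toLp 2 ξ with hxi
  have hxiW : xi ∈ W := by
    apply Submodule.le_topologicalClosure
    refine ⟨1, fun i => ?_⟩
    rw [sigma_one hσ]; rfl
  have hQxi : Q xi = 0 := by
    change xi - P xi = 0
    rw [sub_eq_zero]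
    exact (Submodule.starProjection_eq_self_iff.mpr hxiW).symm
  have hc0 : ∀ i j, c i j = 0 := by
    intro i
    have h1 := hQv xi i
    rw [hQxi] at h1
    have h2 : ∑ j, c i j • ξ j = 0 := h1.symm
    exact Fintype.linearIndependent_iff.mp hξ (c i) h2
  have hQ0 : ∀ v, Q v = 0 := by
    intro v
    ext i
    change Q v i = 0
    rw [hQv]
    simp [hc0]
  set et : KK K ι := WithLp.toLp 2 η with het
  have hetW : et ∈ W := by
    rw [← Submodule.starProjection_eq_self_iff]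
    have := hQ0 et
    change et - P et = 0 at this
    rw [sub_eq_zero] at this
    exact this.symm
  have hcl : et ∈ closure (orb σ ξ : Set (KK K ι)) := hetW
  obtain ⟨w, ⟨a, ha⟩, hwd⟩ := Metric.mem_closure_iff.mp hcl ε hε
  refine ⟨a, fun i => ?_⟩
  rw [← ha i]
  have h1 : ‖(w - et) i‖ ≤ ‖w - et‖ := PiLp.norm_apply_le (w - et) i
  rw [dist_comm, dist_eq_norm] at hwd
  exact lt_of_le_of_lt h1 hwd


end Crest.Agent.R120
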