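import Crest.Agent.R120.L1

/-!
# R120 piece Spec: spectral projections inside `M`

`z = φ m Z`, `Z` Hermitian. Spectral theorem `Z = U diag(λ) U*`; `Q = U diag(1_{|λ|>t}) U*`,
`b = U diag(1_{|λ|>t}/λ) U*`. (Or `cfc` with functions on the finite spectrum.) Norm bounds in
`H →L[ℂ] H`: `star b * b ≤ t⁻²` in the matrix order, `φ m` is a star homomorphism, hence
positive/contractive; e.g. `‖φ m Y‖ ≤ c` if `c² - Y*Y = W* W`.
-/

set_option autoImplicit false
open scoped ComplexOrder InnerProductSpace Topology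
open Filter

namespace Crest.Agent.R120

variable {H : Type} [NormedAddCommGroup H] [InnerProductSpace ℂ H] [CompleteSpace H]

namespace Spec_aux

open Polynomial in
theorem cfc_mem (B : Base H) {z : H →L[ℂ] H} (hz : z ∈ B.M) (hsa : IsSelfAdjoint z)
    (hfin : (spectrum ℝ z).Finite) (f : ℝ → ℝ) : cfc f z ∈ B.M := by
  classical
  set p : ℝ[X] := Lagrange.interpolate hfin.toFinset id f with hp
  have h1 : cfc f z = cfc p.eval z := by
    apply cfc_congr
    intro x hx
    have h2 := Lagrange.eval_interpolate_at_node (s := hfin.toFinset) (v := id) f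
      (Set.injOn_id _) (hfin.mem_toFinset.2 hx)
    exact h2.symm
  rw [h1, cfc_polynomial p z hsa, Polynomial.aeval_eq_sum_range]
  refine sum_mem fun n _ => ?_
  have h3 : p.coeff n • z ^ n = ((p.coeff n : ℝ) : ℂ) • z ^ n := by
    rw [Complex.coe_smul]
  rw [h3]
  exact SMulMemClass.smul_mem _ (pow_mem hz n)

end Spec_aux

theorem spec (B : Base H) {z : H →L[ℂ] H} (hz : z ∈ B.M) (hsa : star z = z) {t : ℝ}
    (ht : 0 < t) : ∃ q ∈ B.M, ∃ b ∈ B.M, IsStarProjection q ∧ q = b * z ∧ q = z * b ∧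
      ‖b‖ ≤ t⁻¹ ∧ ‖(1 - q) * z‖ ≤ t := by
  classical
  have hsa' : IsSelfAdjoint z := hsa
  have hfin : (spectrum ℝ z).Finite := by
    obtain ⟨m, Z, hZ⟩ := hz
    rw [← hZ]
    exact (Matrix.finite_real_spectrum (A := Z)).subset
      (AlgHom.spectrum_apply_subset ((B.φ m).toAlgHom.restrictScalars ℝ) Z)
  have hc : ∀ f : ℝ → ℝ, ContinuousOn f (spectrum ℝ z) := fun f => hfin.continuousOn f
  set f : ℝ → ℝ := fun x => if t < |x| then 1 else 0 with hf
  set g : ℝ → ℝ := fun x => if t < |x| then x⁻¹ else 0 with hg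
  have hfg : ∀ x, g x * x = f x := by
    intro x
    by_cases hx : t < |x|
    · have hx0 : x ≠ 0 := by
        rintro rfl
        rw [abs_zero] at hx
        linarith
      simp [hf, hg, hx, hx0]
    · simp [hf, hg, hx]
  have hid : cfc (fun x : ℝ => x) z = z := cfc_id' ℝ z hsa'
  refine ⟨cfc f z, Spec_aux.cfc_mem B hz hsa' hfin f, cfc g z, Spec_aux.cfc_mem B hz hsa' hfin g,
    ⟨?_, ?_⟩, ?_, ?_, ?_, ?_⟩
  · rw [IsIdempotentElem, ← cfc_mul f f z (hc f) (hc f)]
    apply cfc_congr
    intro x _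
    by_cases hx : t < |x| <;> simp [hf, hx]
  · exact cfc_predicate f z
  · have h1 : cfc g z * z = cfc g z * cfc (fun x : ℝ => x) z := by rw [hid]
    rw [h1, ← cfc_mul g (fun x => x) z (hc g) (hc _)]
    exact cfc_congr fun x _ => (hfg x).symm
  · have h1 : z * cfc g z = cfc (fun x : ℝ => x) z * cfc g z := by rw [hid]
    rw [h1, ← cfc_mul (fun x => x) g z (hc _) (hc g)]
    exact cfc_congr fun x _ => by
      show f x = x * g x
      rw [mul_comm, hfg]
  · apply norm_cfc_le (by positivity)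
    intro x _
    by_cases hx : t < |x|
    · simp only [hg, hx, if_true, norm_inv, Real.norm_eq_abs]
      exact inv_anti₀ ht hx.le
    · simp only [hg, hx, if_false, norm_zero]
      positivity
  · have h1 : (1 - cfc f z) * z = cfc (fun x : ℝ => (1 - f x) * x) z := by
      rw [cfc_mul (fun x => 1 - f x) (fun x => x) z (hc _) (hc _), hid,
        cfc_sub (fun _ => 1) f z (hc _) (hc _), cfc_const_one ℝ z]
    rw [h1]
    apply norm_cfc_le ht.le
    intro x _
    by_cases hx : t < |x|
    · simp only [hf, hx, if_true, sub_self, zero_mul, norm_zero]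
      exact ht.le
    · simp only [hf, hx, if_false, sub_zero, one_mul, Real.norm_eq_abs]
      exact not_lt.1 hx

end Crest.Agent.R120
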