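import Crest.Agent.R120.Dens
import Crest.Agent.R120.Spec

/-!
# R120 piece Exc: the excising projection

Let `x_k` be the matrix units of `Mx l` (`‖φ x_k‖ ≤ 1`), `c_k = ⟪ζ, σ(φ x_k) ζ⟫`,
`w_k = σ(e)(σ(φ x_k) - c_k) ζ`; `w_k ⊥ ζ` as `σ(e) ζ = ζ`. `density`: `a = a*` with
`‖σ a ζ - ζ‖ < δ`, `‖σ a w_k‖ < δ`; replace `a` by `a' = e a e`. `spec` for `z = a' - e` (in the
corner) or for `a' - 1` and `t = 1/2`: `q`, `p = e - q`-like: `p ≤ e` projection with
`‖(1-p) ζ‖ ≤ 2δ`, `‖p (a' - 1)‖ ≤ 1/2`, so `‖σ(p) w_k‖ ≤ 2 ‖σ(a') w_k‖ < 2δ`.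
(With `z = a' - e ∈ eMe`, `spec` gives `q ≤ e`, `q = b z`; `p = e - q`, `p z = (1-q) z`,
`‖σ(q) ζ‖ ≤ ‖b‖ ‖σ(z) ζ‖ ≤ 2δ`.)
`Z = ∑_k |p (φ x_k - c_k) p|²`, `⟪ζ, σ(Z) ζ⟫ = ∑ ‖σ(p (φ x_k - c_k) p) ζ‖² ≤ 36 K δ²`. `spec` for
`Z`, `t = ε'²`: `q' ≤ p`, `g = p - q'`: `‖σ(q') ζ‖² = ⟪ζ, σ(b Z)ζ⟫ ≤ ε'⁻² ⟪ζ, σ(Z) ζ⟫` [as
`q' ≤ t⁻¹ Z`; or use `q' = b Z` and `‖σ(Z)ζ‖² ≤ ‖Z‖ ⟪ζ, σ(Z)ζ⟫`], and `‖g Z g‖ ≤ t`, so
`‖g (φ x_k - c_k) g‖² ≤ ‖g Z g‖ ≤ t`. For general `x = ∑ α_k x_k`, `|α_k| ≤ ‖φ x‖`.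
-/

set_option autoImplicit false
open scoped ComplexOrder InnerProductSpace Topology
open Filter

namespace Crest.Agent.R120

variable {H : Type} [NormedAddCommGroup H] [InnerProductSpace ℂ H] [CompleteSpace H]

namespace Exc_aux

variable {B : Base H}

theorem specM (z : B.M) (hz : star z = z) {t : ℝ} (ht : 0 < t) :
    ∃ q b : B.M, q * q = q ∧ star q = q ∧ q = b * z ∧ q = z * b ∧
      ‖(b : H →L[ℂ] H)‖ ≤ t⁻¹ ∧ ‖(((1 - q) * z : B.M) : H →L[ℂ] H)‖ ≤ t := by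
  have hz' : star (z : H →L[ℂ] H) = z := by
    have := congrArg (Subtype.val) hz
    simpa using this
  obtain ⟨q, hq, b, hb, hp, h1, h2, h3, h4⟩ := spec B z.2 hz' ht
  refine ⟨⟨q, hq⟩, ⟨b, hb⟩, ?_, ?_, ?_, ?_, h3, ?_⟩
  · exact Subtype.ext hp.isIdempotentElem
  · exact Subtype.ext hp.isSelfAdjoint
  · exact Subtype.ext h1
  · exact Subtype.ext h2
  · exact h4

theorem norm_proj_le {p : H →L[ℂ] H} (h1 : p * p = p) (h2 : star p = p) : ‖p‖ ≤ 1 := by
  have h3 : ‖star p * p‖ = ‖p‖ * ‖p‖ := CStarRing.norm_star_mul_self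
  rw [h2, h1] at h3
  by_contra hcon
  push Not at hcon
  nlinarith

theorem norm_proj_ge {p : H →L[ℂ] H} (h1 : p * p = p) (h2 : star p = p) (h0 : p ≠ 0) :
    1 ≤ ‖p‖ := by
  have h3 : ‖star p * p‖ = ‖p‖ * ‖p‖ := CStarRing.norm_star_mul_self
  rw [h2, h1] at h3
  have h4 : 0 < ‖p‖ := norm_pos_iff.2 h0
  by_contra hcon
  push Not at hcon
  nlinarith

theorem norm_projM_le {p : B.M} (h1 : p * p = p) (h2 : star p = p) :
    ‖(p : H →L[ℂ] H)‖ ≤ 1 := by
  apply norm_proj_le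
  · exact congrArg Subtype.val h1
  · exact congrArg Subtype.val h2

/-- matrix units in `M` -/
noncomputable def u (B : Base H) (l : ℕ) (k : Ix l × Ix l) : B.M :=
  ⟨B.φ l (Matrix.single k.1 k.2 1), ⟨l, _, rfl⟩⟩

theorem diag_proj (B : Base H) (l : ℕ) (j : Ix l) :
    B.φ l (Matrix.single j j 1) * B.φ l (Matrix.single j j 1) = B.φ l (Matrix.single j j 1) ∧
      star (B.φ l (Matrix.single j j 1)) = B.φ l (Matrix.single j j 1) := by
  constructor
  · rw [← map_mul]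
    congr 1
    simp
  · rw [← map_star]
    congr 1
    rw [Matrix.star_eq_conjTranspose, Matrix.conjTranspose_single]
    simp

theorem norm_sq_unit (B : Base H) (l : ℕ) (i j : Ix l) :
    ‖B.φ l (Matrix.single i j 1)‖ * ‖B.φ l (Matrix.single i j 1)‖
      = ‖B.φ l (Matrix.single j j 1)‖ := by
  rw [← CStarRing.norm_star_mul_self, ← map_star, ← map_mul]
  congr 2
  rw [Matrix.star_eq_conjTranspose, Matrix.conjTranspose_single]
  simp

theorem norm_unit_le (B : Base H) (l : ℕ) (i j : Ix l) :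
    ‖B.φ l (Matrix.single i j 1)‖ ≤ 1 := by
  have h1 := norm_sq_unit B l i j
  have h2 := norm_proj_le (diag_proj B l j).1 (diag_proj B l j).2
  by_contra hcon
  push Not at hcon
  nlinarith

theorem norm_unit_ge (B : Base H) (l : ℕ) (i j : Ix l) :
    1 ≤ ‖B.φ l (Matrix.single i j 1)‖ := by
  have h1 := norm_sq_unit B l i j
  have h0 : B.φ l (Matrix.single j j 1) ≠ 0 := by
    intro h0
    have h3 := B.tr_eq l (Matrix.single j j 1)
    rw [h0] at h3
    simp at h3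
    exact pow_ne_zero l two_ne_zero h3.symm
  have h2 := norm_proj_ge (diag_proj B l j).1 (diag_proj B l j).2 h0
  by_contra hcon
  push Not at hcon
  nlinarith [norm_nonneg (B.φ l (Matrix.single i j 1))]

theorem coef_le (B : Base H) (l : ℕ) (x : Mx l) (i j : Ix l) : ‖x i j‖ ≤ ‖B.φ l x‖ := by
  have h1 : (Matrix.single i i (1 : ℂ)) * x * (Matrix.single j j 1)
      = x i j • Matrix.single i j (1 : ℂ) := by
    ext a b
    by_cases ha : a = i
    · by_cases hb : b = j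
      · subst ha; subst hb; simp
      · subst ha
        simp [hb, Ne.symm hb]
    · simp [ha, Ne.symm ha]
  have h2 : B.φ l (Matrix.single i i 1) * B.φ l x * B.φ l (Matrix.single j j 1)
      = x i j • B.φ l (Matrix.single i j 1) := by
    rw [← map_mul, ← map_mul, h1, map_smul]
  have h3 : ‖x i j • B.φ l (Matrix.single i j 1)‖ ≤ ‖B.φ l x‖ := by
    rw [← h2]
    calc ‖B.φ l (Matrix.single i i 1) * B.φ l x * B.φ l (Matrix.single j j 1)‖
        ≤ ‖B.φ l (Matrix.single i i 1)‖ * ‖B.φ l x‖ * ‖B.φ l (Matrix.single j j 1)‖ :=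
          (norm_mul_le _ _).trans (mul_le_mul_of_nonneg_right (norm_mul_le _ _) (norm_nonneg _))
      _ ≤ 1 * ‖B.φ l x‖ * 1 := by
          apply mul_le_mul _ (norm_unit_le B l j j) (norm_nonneg _) (by positivity)
          exact mul_le_mul_of_nonneg_right (norm_unit_le B l i i) (norm_nonneg _)
      _ = ‖B.φ l x‖ := by ring
  rw [norm_smul] at h3
  have h4 := norm_unit_ge B l i j
  nlinarith [norm_nonneg (x i j)]

theorem sig_le {K : Type} [NormedAddCommGroup K] [InnerProductSpace ℂ K]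
    [CompleteSpace K] {σ : B.M →⋆ₙₐ[ℂ] (K →L[ℂ] K)} (hσ : IsIrr B σ) (x : B.M) (v : K) :
    ‖σ x v‖ ≤ ‖(x : H →L[ℂ] H)‖ * ‖v‖ :=
  ((σ x).le_opNorm v).trans (mul_le_mul_of_nonneg_right (hσ.contr x) (norm_nonneg _))

/-- first step: a projection `p ≤ e` almost fixing `ζ` and almost killing the `w k` -/
theorem step1 {K : Type} [NormedAddCommGroup K] [InnerProductSpace ℂ K]
    [CompleteSpace K] {σ : B.M →⋆ₙₐ[ℂ] (K →L[ℂ] K)} (hσ : IsIrr B σ) (e : B.M)
    (he1 : e * e = e) (he2 : star e = e) (ζ : K) (hζ : ‖ζ‖ = 1) (heζ : σ e ζ = ζ) {ι : Type}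
    [Fintype ι] (w : ι → K) (hw : ∀ i, ⟪ζ, w i⟫_ℂ = 0) (hew : ∀ i, σ e (w i) = w i) {δ : ℝ}
    (hδ : 0 < δ) :
    ∃ p : B.M, p * p = p ∧ star p = p ∧ e * p = p ∧ p * e = p ∧ ‖σ p ζ - ζ‖ ≤ 2 * δ ∧
      ∀ i, ‖σ p (w i)‖ ≤ 2 * δ := by
  obtain ⟨a, ha1, ha2, ha3⟩ := density hσ ζ hζ w hw hδ
  have hen := norm_projM_le he1 he2
  set a' : B.M := e * a * e with ha'
  have ha's : star a' = a' := by
    rw [ha', star_mul, star_mul, he2, ha1, mul_assoc]
  have hea' : e * a' = a' := by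
    rw [ha', ← mul_assoc, ← mul_assoc, he1]
  have ha'e : a' * e = a' := by
    rw [ha', mul_assoc, he1]
  have hσa' : ∀ v : K, σ e v = v → σ a' v = σ e (σ a v) := by
    intro v hv
    rw [ha', map_mul, map_mul]
    simp only [mul_apply_eq_comp]
    rw [hv]
  have hσe_le : ∀ v : K, ‖σ e v‖ ≤ ‖v‖ := by
    intro v
    calc ‖σ e v‖ ≤ ‖(e : H →L[ℂ] H)‖ * ‖v‖ := sig_le hσ e v
      _ ≤ 1 * ‖v‖ := mul_le_mul_of_nonneg_right hen (norm_nonneg _)
      _ = ‖v‖ := one_mul _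
  set z : B.M := a' - e with hz
  have hzs : star z = z := by rw [hz, star_sub, ha's, he2]
  have hez : e * z = z := by rw [hz, mul_sub, hea', he1]
  have hze : z * e = z := by rw [hz, sub_mul, ha'e, he1]
  obtain ⟨q, b, hq1, hq2, hq3, hq4, hb, hqz⟩ := specM z hzs (t := 1 / 2) (by norm_num)
  have heq : e * q = q := by
    calc e * q = e * (z * b) := by rw [← hq4]
      _ = (e * z) * b := by rw [mul_assoc]
      _ = z * b := by rw [hez]
      _ = q := hq4.symm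
  have hqe : q * e = q := by
    calc q * e = (b * z) * e := by rw [← hq3]
      _ = b * (z * e) := by rw [mul_assoc]
      _ = b * z := by rw [hze]
      _ = q := hq3.symm
  have hqzc : q * z = z * q := by
    calc q * z = (z * b) * z := by rw [← hq4]
      _ = z * (b * z) := by rw [mul_assoc]
      _ = z * q := by rw [← hq3]
  set p : B.M := e - q with hp
  have hp1 : p * p = p := by
    rw [hp, mul_sub, sub_mul, sub_mul, he1, hqe, heq, hq1]
    abel
  have hp2 : star p = p := by rw [hp, star_sub, he2, hq2]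
  have hep : e * p = p := by rw [hp, mul_sub, he1, heq]
  have hpe : p * e = p := by rw [hp, sub_mul, he1, hqe]
  have hpz : p * z = (1 - q) * z := by
    rw [hp, sub_mul, sub_mul, hez, one_mul]
  have hpzc : p * z = z * p := by
    have h1 : p * z = e * z - q * z := by rw [hp]; exact sub_mul e q z
    have h2 : z * p = z * e - z * q := by rw [hp]; exact mul_sub z e q
    rw [h1, h2, hez, hze, hqzc]
  have hpzn : ‖((p * z : B.M) : H →L[ℂ] H)‖ ≤ 1 / 2 := by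
    rw [hpz]; exact hqz
  refine ⟨p, hp1, hp2, hep, hpe, ?_, ?_⟩
  · have h1 : σ p ζ - ζ = - σ q ζ := by
      rw [hp, map_sub, sub_apply, heζ]; abel
    have h2 : σ q ζ = σ b (σ z ζ) := by
      conv_lhs => rw [hq3]
      rw [map_mul]; rfl
    have h3 : σ z ζ = σ e (σ a ζ - ζ) := by
      rw [hz, map_sub, sub_apply, hσa' ζ heζ, heζ, map_sub, heζ]
    rw [h1, norm_neg, h2]
    calc ‖σ b (σ z ζ)‖ ≤ ‖(b : H →L[ℂ] H)‖ * ‖σ z ζ‖ := sig_le hσ b _
      _ ≤ (1 / 2 : ℝ)⁻¹ * ‖σ z ζ‖ := mul_le_mul_of_nonneg_right hb (norm_nonneg _)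
      _ ≤ (1 / 2 : ℝ)⁻¹ * δ := by
          apply mul_le_mul_of_nonneg_left _ (by norm_num)
          rw [h3]
          exact (hσe_le _).trans ha2.le
      _ = 2 * δ := by norm_num
  · intro i
    set v := w i with hv
    have h1 : σ p (σ a' v) = σ p v + σ (p * z) (σ p v) := by
      have h2 : p * a' = p + (p * z) * p := by
        have h3 : (p * z) * p = p * z := by
          rw [mul_assoc, ← hpzc, ← mul_assoc, hp1]
        rw [h3, hz, mul_sub, hpe]
        abel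
      have h4 : σ (p * a') v = σ (p + (p * z) * p) v := by rw [h2]
      rw [map_mul, map_add, map_mul σ (p * z) p] at h4
      exact h4
    have h5 : ‖σ p v‖ ≤ ‖σ p (σ a' v)‖ + ‖σ (p * z) (σ p v)‖ := by
      have h6 : σ p v = σ p (σ a' v) - σ (p * z) (σ p v) := by rw [h1]; abel
      calc ‖σ p v‖ = ‖σ p (σ a' v) - σ (p * z) (σ p v)‖ := by rw [← h6]
        _ ≤ _ := norm_sub_le _ _
    have h7 : ‖σ (p * z) (σ p v)‖ ≤ 1 / 2 * ‖σ p v‖ :=
      (sig_le hσ _ _).trans (mul_le_mul_of_nonneg_right hpzn (norm_nonneg _))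
    have h8 : ‖σ p (σ a' v)‖ ≤ δ := by
      calc ‖σ p (σ a' v)‖ ≤ ‖(p : H →L[ℂ] H)‖ * ‖σ a' v‖ := sig_le hσ _ _
        _ ≤ 1 * ‖σ a' v‖ :=
            mul_le_mul_of_nonneg_right (norm_projM_le hp1 hp2) (norm_nonneg _)
        _ = ‖σ e (σ a v)‖ := by rw [one_mul, hσa' v (hew i)]
        _ ≤ ‖σ a v‖ := hσe_le _
        _ ≤ δ := (ha3 i).le
    linarith

/-- second step: cut down by a spectral projection of `∑ y_k* y_k` -/
theorem step2 {K : Type} [NormedAddCommGroup K] [InnerProductSpace ℂ K]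
    [CompleteSpace K] {σ : B.M →⋆ₙₐ[ℂ] (K →L[ℂ] K)} (hσ : IsIrr B σ) (p : B.M)
    (hp1 : p * p = p) (hp2 : star p = p) (ζ : K) {ι : Type} [Fintype ι] (y : ι → B.M)
    (hyp : ∀ k, y k * p = y k) (hyn : ∀ k, ‖(y k : H →L[ℂ] H)‖ ≤ 2) {δ : ℝ}
    (hyζ : ∀ k, ‖σ (y k) ζ‖ ≤ 6 * δ) {τ : ℝ} (hτ : 0 < τ) :
    ∃ g : B.M, g * g = g ∧ star g = g ∧ p * g = g ∧
      ‖σ g ζ - σ p ζ‖ ≤ (τ ^ 2)⁻¹ * (12 * Fintype.card ι * δ) ∧
      ∀ k, ‖((y k * g : B.M) : H →L[ℂ] H)‖ ≤ τ := by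
  set Z : B.M := ∑ k, star (y k) * y k with hZ
  have hZs : star Z = Z := by
    rw [hZ, star_sum]
    exact Finset.sum_congr rfl fun k _ => by rw [star_mul, star_star]
  have hpy : ∀ k, p * star (y k) = star (y k) := by
    intro k
    have := congrArg star (hyp k)
    rw [star_mul, hp2] at this
    exact this
  have hpZ : p * Z = Z := by
    rw [hZ, Finset.mul_sum]
    exact Finset.sum_congr rfl fun k _ => by rw [← mul_assoc, hpy]
  have hZp : Z * p = Z := by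
    rw [hZ, Finset.sum_mul]
    exact Finset.sum_congr rfl fun k _ => by rw [mul_assoc, hyp]
  obtain ⟨q, b, hq1, hq2, hq3, hq4, hb, hqz⟩ := specM Z hZs (t := τ ^ 2) (by positivity)
  have hpq : p * q = q := by
    calc p * q = p * (Z * b) := by rw [← hq4]
      _ = (p * Z) * b := by rw [mul_assoc]
      _ = Z * b := by rw [hpZ]
      _ = q := hq4.symm
  have hqp : q * p = q := by
    calc q * p = (b * Z) * p := by rw [← hq3]
      _ = b * (Z * p) := by rw [mul_assoc]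
      _ = b * Z := by rw [hZp]
      _ = q := hq3.symm
  set g : B.M := p - q with hg
  have hg1 : g * g = g := by
    rw [hg, mul_sub, sub_mul, sub_mul, hp1, hqp, hpq, hq1]
    abel
  have hg2 : star g = g := by rw [hg, star_sub, hp2, hq2]
  have hpg : p * g = g := by rw [hg, mul_sub, hp1, hpq]
  have hgq : g * q = 0 := by rw [hg, sub_mul, hpq, hq1, sub_self]
  refine ⟨g, hg1, hg2, hpg, ?_, ?_⟩
  · have h1 : σ g ζ - σ p ζ = - σ q ζ := by
      rw [hg, map_sub, sub_apply]; abel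
    have h2 : σ q ζ = σ b (σ Z ζ) := by
      conv_lhs => rw [hq3]
      rw [map_mul]; rfl
    have h3 : ‖σ Z ζ‖ ≤ 12 * Fintype.card ι * δ := by
      have h4 : σ Z ζ = ∑ k, σ (star (y k)) (σ (y k) ζ) := by
        rw [hZ, map_sum, sum_apply]
        exact Finset.sum_congr rfl fun k _ => by rw [map_mul]; rfl
      rw [h4]
      calc ‖∑ k, σ (star (y k)) (σ (y k) ζ)‖ ≤ ∑ k, ‖σ (star (y k)) (σ (y k) ζ)‖ :=
            norm_sum_le _ _
        _ ≤ ∑ _k : ι, 12 * δ := by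
            apply Finset.sum_le_sum
            intro k _
            have h5 : ‖((star (y k) : B.M) : H →L[ℂ] H)‖ ≤ 2 := by
              have : ((star (y k) : B.M) : H →L[ℂ] H) = star (y k : H →L[ℂ] H) := rfl
              rw [this, norm_star]
              exact hyn k
            calc ‖σ (star (y k)) (σ (y k) ζ)‖
                ≤ ‖((star (y k) : B.M) : H →L[ℂ] H)‖ * ‖σ (y k) ζ‖ := sig_le hσ _ _
              _ ≤ 2 * (6 * δ) := mul_le_mul h5 (hyζ k) (norm_nonneg _) (by norm_num)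
              _ = 12 * δ := by ring
        _ = 12 * Fintype.card ι * δ := by
            rw [Finset.sum_const, Finset.card_univ, nsmul_eq_mul]; ring
    rw [h1, norm_neg, h2]
    calc ‖σ b (σ Z ζ)‖ ≤ ‖(b : H →L[ℂ] H)‖ * ‖σ Z ζ‖ := sig_le hσ _ _
      _ ≤ (τ ^ 2)⁻¹ * (12 * Fintype.card ι * δ) :=
          mul_le_mul hb h3 (norm_nonneg _) (by positivity)
  · intro k
    -- `‖g Z g‖ ≤ τ²`
    have h1 : g * Z * g = g * ((1 - q) * Z) * g := by
      have h0 : (1 - q) * Z = Z - q * Z := by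
        calc (1 - q) * Z = 1 * Z - q * Z := sub_mul 1 q Z
          _ = Z - q * Z := by rw [one_mul]
      have h00 : g * (Z - q * Z) = g * Z - g * (q * Z) := mul_sub g Z (q * Z)
      rw [h0, h00, ← mul_assoc g q Z, hgq, zero_mul, sub_zero]
    have hgn : ‖(g : H →L[ℂ] H)‖ ≤ 1 := norm_projM_le hg1 hg2
    have h2 : ‖((g * Z * g : B.M) : H →L[ℂ] H)‖ ≤ τ ^ 2 := by
      rw [h1]
      have h3 : ((g * ((1 - q) * Z) * g : B.M) : H →L[ℂ] H)
          = (g : H →L[ℂ] H) * (((1 - q) * Z : B.M) : H →L[ℂ] H) * (g : H →L[ℂ] H) := rfl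
      rw [h3]
      calc ‖(g : H →L[ℂ] H) * (((1 - q) * Z : B.M) : H →L[ℂ] H) * (g : H →L[ℂ] H)‖
          ≤ ‖(g : H →L[ℂ] H)‖ * ‖(((1 - q) * Z : B.M) : H →L[ℂ] H)‖ * ‖(g : H →L[ℂ] H)‖ :=
            (norm_mul_le _ _).trans (mul_le_mul_of_nonneg_right (norm_mul_le _ _) (norm_nonneg _))
        _ ≤ 1 * τ ^ 2 * 1 := by
            apply mul_le_mul _ hgn (norm_nonneg _) (by positivity)
            exact mul_le_mul hgn hqz (norm_nonneg _) (by norm_num)
        _ = τ ^ 2 := by ring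
    apply ContinuousLinearMap.opNorm_le_bound _ hτ.le
    intro x
    have h4 : ((y k * g : B.M) : H →L[ℂ] H) x = (y k : H →L[ℂ] H) ((g : H →L[ℂ] H) x) := rfl
    set gx : H := (g : H →L[ℂ] H) x with hgx
    have h5 : ∑ j, ‖(y j : H →L[ℂ] H) gx‖ ^ 2 = (⟪x, ((g * Z * g : B.M) : H →L[ℂ] H) x⟫_ℂ).re := by
      have hgadj : ∀ a b : H, ⟪a, (g : H →L[ℂ] H) b⟫_ℂ = ⟪(g : H →L[ℂ] H) a, b⟫_ℂ := by
        intro a b
        have hs : star (g : H →L[ℂ] H) = g := congrArg Subtype.val hg2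
        have h6 := ContinuousLinearMap.adjoint_inner_left (g : H →L[ℂ] H) b a
        rw [← ContinuousLinearMap.star_eq_adjoint, hs] at h6
        exact h6.symm
      have h6 : ((g * Z * g : B.M) : H →L[ℂ] H) x
          = (g : H →L[ℂ] H) (∑ j, (star (y j : H →L[ℂ] H)) ((y j : H →L[ℂ] H) gx)) := by
        have h7 : ((Z : B.M) : H →L[ℂ] H) = ∑ j, star (y j : H →L[ℂ] H) * (y j : H →L[ℂ] H) := by
          rw [hZ]
          push_cast
          rfl
        have h8 : ((g * Z * g : B.M) : H →L[ℂ] H) x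
            = (g : H →L[ℂ] H) (((Z : B.M) : H →L[ℂ] H) gx) := rfl
        rw [h8, h7, sum_apply]
        rfl
      rw [h6, hgadj, ← hgx, inner_sum, Complex.re_sum]
      apply Finset.sum_congr rfl
      intro j _
      rw [ContinuousLinearMap.star_eq_adjoint, ContinuousLinearMap.adjoint_inner_right,
        inner_self_eq_norm_sq_to_K]
      norm_cast
    have h9 : ‖(y k : H →L[ℂ] H) gx‖ ^ 2 ≤ ∑ j, ‖(y j : H →L[ℂ] H) gx‖ ^ 2 :=
      Finset.single_le_sum (f := fun j => ‖(y j : H →L[ℂ] H) gx‖ ^ 2)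
        (fun j _ => sq_nonneg _) (Finset.mem_univ k)
    have h10 : (⟪x, ((g * Z * g : B.M) : H →L[ℂ] H) x⟫_ℂ).re ≤ τ ^ 2 * ‖x‖ ^ 2 := by
      calc (⟪x, ((g * Z * g : B.M) : H →L[ℂ] H) x⟫_ℂ).re
          ≤ ‖⟪x, ((g * Z * g : B.M) : H →L[ℂ] H) x⟫_ℂ‖ := Complex.re_le_norm _
        _ ≤ ‖x‖ * ‖((g * Z * g : B.M) : H →L[ℂ] H) x‖ := norm_inner_le_norm _ _
        _ ≤ ‖x‖ * (τ ^ 2 * ‖x‖) := by
            apply mul_le_mul_of_nonneg_left _ (norm_nonneg _)
            exact (ContinuousLinearMap.le_opNorm _ _).trans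
              (mul_le_mul_of_nonneg_right h2 (norm_nonneg _))
        _ = τ ^ 2 * ‖x‖ ^ 2 := by ring
    rw [h4]
    have h11 : ‖(y k : H →L[ℂ] H) gx‖ ^ 2 ≤ (τ * ‖x‖) ^ 2 := by
      rw [mul_pow]; linarith
    exact le_of_sq_le_sq h11 (by positivity)

end Exc_aux

open Exc_aux in
theorem exc {B : Base H} {K : Type} [NormedAddCommGroup K] [InnerProductSpace ℂ K]
    [CompleteSpace K] {σ : B.M →⋆ₙₐ[ℂ] (K →L[ℂ] K)} (hσ : IsIrr B σ) (e : B.M)
    (he : IsStarProjection e) (ζ : K) (hζ : ‖ζ‖ = 1) (heζ : σ e ζ = ζ) (l : ℕ) {ε : ℝ}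
    (hε : 0 < ε) :
    ∃ g : B.M, IsStarProjection g ∧ e * g = g ∧ ‖σ g ζ - ζ‖ < ε ∧
      ∀ x : Mx l, ∃ c : ℂ, ‖(g : H →L[ℂ] H) * B.φ l x * g - c • (g : H →L[ℂ] H)‖ ≤
        ε * ‖B.φ l x‖ := by
  have he1 : e * e = e := he.isIdempotentElem
  have he2 : star e = e := he.isSelfAdjoint
  have hen := norm_projM_le he1 he2
  set ι := Ix l × Ix l with hι
  set N : ℝ := (Fintype.card ι : ℝ) with hN
  have hN1 : 1 ≤ N := by
    have : 0 < Fintype.card ι := Fintype.card_pos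
    rw [hN]
    exact_mod_cast this
  set τ : ℝ := ε / N with hτ
  have hτ0 : 0 < τ := by positivity
  set δ : ℝ := ε / (2 * (2 + (τ ^ 2)⁻¹ * (12 * N))) with hδ
  have hδ0 : 0 < δ := by positivity
  have hδε : 2 * δ + (τ ^ 2)⁻¹ * (12 * N * δ) < ε := by
    have h1 : 2 * δ + (τ ^ 2)⁻¹ * (12 * N * δ) = ε / 2 := by
      rw [hδ]; field_simp
    rw [h1]; linarith
  let c : ι → ℂ := fun k => ⟪ζ, σ (u B l k) ζ⟫_ℂ
  let w : ι → K := fun k => σ e (σ (u B l k) ζ - c k • ζ)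
  have hun : ∀ k, ‖((u B l k : B.M) : H →L[ℂ] H)‖ ≤ 1 := fun k => norm_unit_le B l k.1 k.2
  have hcn : ∀ k, ‖c k‖ ≤ 1 := by
    intro k
    calc ‖c k‖ ≤ ‖ζ‖ * ‖σ (u B l k) ζ‖ := norm_inner_le_norm _ _
      _ ≤ 1 * (1 * 1) := by
          rw [hζ]
          apply mul_le_mul_of_nonneg_left _ (by norm_num)
          refine (sig_le hσ _ _).trans ?_
          rw [hζ]
          exact mul_le_mul_of_nonneg_right (hun k) (by norm_num)
      _ = 1 := by norm_num
  have headj : ∀ a b : K, ⟪a, σ e b⟫_ℂ = ⟪σ e a, b⟫_ℂ := by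
    intro a b
    have hs : star (σ e) = σ e := by rw [← map_star, he2]
    have h6 := ContinuousLinearMap.adjoint_inner_left (σ e) b a
    rw [← ContinuousLinearMap.star_eq_adjoint, hs] at h6
    exact h6.symm
  have hw : ∀ k, ⟪ζ, w k⟫_ℂ = 0 := by
    intro k
    simp only [w]
    rw [headj, heζ, inner_sub_right, inner_smul_right, inner_self_eq_norm_sq_to_K, hζ]
    simp [c]
  have hew : ∀ k, σ e (w k) = w k := by
    intro k
    simp only [w]
    have h1 : σ e (σ e (σ (u B l k) ζ - c k • ζ)) = σ (e * e) (σ (u B l k) ζ - c k • ζ) := by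
      rw [map_mul]; rfl
    rw [h1, he1]
  obtain ⟨p, hp1, hp2, hep, hpe, hpζ, hpw⟩ := step1 hσ e he1 he2 ζ hζ heζ w hw hew hδ0
  have hpn := norm_projM_le hp1 hp2
  let y : ι → B.M := fun k => p * (u B l k - c k • 1) * p
  have hyp : ∀ k, y k * p = y k := by
    intro k
    simp only [y]
    rw [mul_assoc, hp1]
  have hcore : ∀ k, ‖((u B l k - c k • 1 : B.M) : H →L[ℂ] H)‖ ≤ 2 := by
    intro k
    have h1 : ((u B l k - c k • 1 : B.M) : H →L[ℂ] H)
        = (u B l k : H →L[ℂ] H) - c k • (1 : H →L[ℂ] H) := rfl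
    rw [h1]
    calc ‖(u B l k : H →L[ℂ] H) - c k • (1 : H →L[ℂ] H)‖
        ≤ ‖(u B l k : H →L[ℂ] H)‖ + ‖c k • (1 : H →L[ℂ] H)‖ := norm_sub_le _ _
      _ ≤ 1 + 1 * 1 := by
          apply add_le_add (hun k)
          rw [norm_smul]
          exact mul_le_mul (hcn k) ContinuousLinearMap.norm_id_le (norm_nonneg _) (by norm_num)
      _ = 2 := by norm_num
  have hyn : ∀ k, ‖(y k : H →L[ℂ] H)‖ ≤ 2 := by
    intro k
    have h1 : (y k : H →L[ℂ] H)
        = (p : H →L[ℂ] H) * ((u B l k - c k • 1 : B.M) : H →L[ℂ] H) * (p : H →L[ℂ] H) := rfl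
    rw [h1]
    calc ‖(p : H →L[ℂ] H) * ((u B l k - c k • 1 : B.M) : H →L[ℂ] H) * (p : H →L[ℂ] H)‖
        ≤ ‖(p : H →L[ℂ] H)‖ * ‖((u B l k - c k • 1 : B.M) : H →L[ℂ] H)‖ * ‖(p : H →L[ℂ] H)‖ :=
          (norm_mul_le _ _).trans (mul_le_mul_of_nonneg_right (norm_mul_le _ _) (norm_nonneg _))
      _ ≤ 1 * 2 * 1 := by
          apply mul_le_mul _ hpn (norm_nonneg _) (by norm_num)
          exact mul_le_mul hpn (hcore k) (norm_nonneg _) (by norm_num)
      _ = 2 := by norm_num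
  have hyζ : ∀ k, ‖σ (y k) ζ‖ ≤ 6 * δ := by
    intro k
    have h1 : y k = p * (u B l k) * p - c k • p := by
      simp only [y]
      rw [mul_sub, sub_mul, mul_smul_comm, mul_one, smul_mul_assoc, hp1]
    have h2 : σ (y k) ζ = σ p (σ (u B l k) (σ p ζ)) - c k • σ p ζ := by
      rw [h1, map_sub, map_mul, map_mul, map_smul]
      rfl
    set r : K := σ p ζ - ζ with hr
    have h3 : σ p ζ = ζ + r := by rw [hr]; abel
    have hpp : ∀ v : K, σ p (σ p v) = σ p v := by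
      intro v
      have : σ p (σ p v) = σ (p * p) v := by rw [map_mul]; rfl
      rw [this, hp1]
    have hpe' : ∀ v : K, σ p (σ e v) = σ p v := by
      intro v
      have : σ p (σ e v) = σ (p * e) v := by rw [map_mul]; rfl
      rw [this, hpe]
    have h4 : σ (y k) ζ = σ p (w k) + (σ p (σ (u B l k) r) - c k • σ p r) := by
      rw [h2]
      have h5 : c k • σ p ζ = c k • σ p (σ p ζ) := by rw [hpp]
      rw [h5, h3]
      simp only [w]
      rw [hpe']
      simp only [map_add, map_sub, map_smul, smul_add]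
      abel
    rw [h4]
    have h6 : ‖σ p (σ (u B l k) r)‖ ≤ 2 * δ := by
      calc ‖σ p (σ (u B l k) r)‖ ≤ ‖(p : H →L[ℂ] H)‖ * ‖σ (u B l k) r‖ := sig_le hσ _ _
        _ ≤ 1 * (1 * (2 * δ)) := by
            apply mul_le_mul hpn _ (norm_nonneg _) (by norm_num)
            refine (sig_le hσ _ _).trans ?_
            exact mul_le_mul (hun k) hpζ (norm_nonneg _) (by norm_num)
        _ = 2 * δ := by ring
    have h7 : ‖c k • σ p r‖ ≤ 2 * δ := by
      rw [norm_smul]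
      calc ‖c k‖ * ‖σ p r‖ ≤ 1 * (1 * (2 * δ)) := by
            apply mul_le_mul (hcn k) _ (norm_nonneg _) (by norm_num)
            refine (sig_le hσ _ _).trans ?_
            exact mul_le_mul hpn hpζ (norm_nonneg _) (by norm_num)
        _ = 2 * δ := by ring
    calc ‖σ p (w k) + (σ p (σ (u B l k) r) - c k • σ p r)‖
        ≤ ‖σ p (w k)‖ + (‖σ p (σ (u B l k) r)‖ + ‖c k • σ p r‖) :=
          (norm_add_le _ _).trans (add_le_add le_rfl (norm_sub_le _ _))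
      _ ≤ 2 * δ + (2 * δ + 2 * δ) := add_le_add (hpw k) (add_le_add h6 h7)
      _ = 6 * δ := by ring
  obtain ⟨g, hg1, hg2, hpg, hgζ, hyg⟩ := step2 hσ p hp1 hp2 ζ y hyp hyn hyζ hτ0
  have hgp : g * p = g := by
    have := congrArg star hpg
    rw [star_mul, hg2, hp2] at this
    exact this
  have hgn := norm_projM_le hg1 hg2
  refine ⟨g, ⟨hg1, hg2⟩, ?_, ?_, ?_⟩
  · rw [← hpg, ← mul_assoc, hep]
  · calc ‖σ g ζ - ζ‖ = ‖(σ p ζ - ζ) + (σ g ζ - σ p ζ)‖ := by congr 1; abel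
      _ ≤ ‖σ p ζ - ζ‖ + ‖σ g ζ - σ p ζ‖ := norm_add_le _ _
      _ ≤ 2 * δ + (τ ^ 2)⁻¹ * (12 * N * δ) := add_le_add hpζ hgζ
      _ < ε := hδε
  · intro x
    have hunit : ∀ k : ι, ‖(g : H →L[ℂ] H) * (u B l k : H →L[ℂ] H) * g - c k • (g : H →L[ℂ] H)‖
        ≤ τ := by
      intro k
      have h1 : g * (y k * g) = g * u B l k * g - c k • g := by
        simp only [y]
        have h2 : g * (p * (u B l k - c k • 1) * p * g) = (g * p) * (u B l k - c k • 1) * (p * g) := by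
          simp only [mul_assoc]
        rw [h2, hgp, hpg, mul_sub, sub_mul, mul_smul_comm, mul_one, smul_mul_assoc, hg1]
      have h3 : (g : H →L[ℂ] H) * (u B l k : H →L[ℂ] H) * g - c k • (g : H →L[ℂ] H)
          = (g : H →L[ℂ] H) * ((y k * g : B.M) : H →L[ℂ] H) := by
        have := congrArg Subtype.val h1
        exact this.symm
      rw [h3]
      calc ‖(g : H →L[ℂ] H) * ((y k * g : B.M) : H →L[ℂ] H)‖
          ≤ ‖(g : H →L[ℂ] H)‖ * ‖((y k * g : B.M) : H →L[ℂ] H)‖ := norm_mul_le _ _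
        _ ≤ 1 * τ := mul_le_mul hgn (hyg k) (norm_nonneg _) (by norm_num)
        _ = τ := one_mul _
    have hx : B.φ l x = ∑ k : ι, x k.1 k.2 • (u B l k : H →L[ℂ] H) := by
      have h1 : x = ∑ k : ι, x k.1 k.2 • Matrix.single k.1 k.2 (1 : ℂ) := by
        conv_lhs => rw [Matrix.matrix_eq_sum_single x]
        rw [Fintype.sum_prod_type]
        apply Finset.sum_congr rfl
        intro i _
        apply Finset.sum_congr rfl
        intro j _
        rw [Matrix.smul_single, smul_eq_mul, mul_one]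
      conv_lhs => rw [h1]
      rw [map_sum]
      exact Finset.sum_congr rfl fun k _ => by rw [map_smul]; rfl
    refine ⟨∑ k : ι, x k.1 k.2 * c k, ?_⟩
    have h2 : (g : H →L[ℂ] H) * B.φ l x * g - (∑ k : ι, x k.1 k.2 * c k) • (g : H →L[ℂ] H)
        = ∑ k : ι, x k.1 k.2 • ((g : H →L[ℂ] H) * (u B l k : H →L[ℂ] H) * g
          - c k • (g : H →L[ℂ] H)) := by
      conv_lhs => rw [hx]
      rw [Finset.mul_sum, Finset.sum_mul, Finset.sum_smul, ← Finset.sum_sub_distrib]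
      apply Finset.sum_congr rfl
      intro k _
      rw [mul_smul_comm, smul_mul_assoc, smul_sub, smul_smul]
    rw [h2]
    calc ‖∑ k : ι, x k.1 k.2 • ((g : H →L[ℂ] H) * (u B l k : H →L[ℂ] H) * g
          - c k • (g : H →L[ℂ] H))‖
        ≤ ∑ k : ι, ‖x k.1 k.2 • ((g : H →L[ℂ] H) * (u B l k : H →L[ℂ] H) * g
          - c k • (g : H →L[ℂ] H))‖ := norm_sum_le _ _
      _ ≤ ∑ _k : ι, ‖B.φ l x‖ * τ := by
          apply Finset.sum_le_sum
          intro k _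
          rw [norm_smul]
          exact mul_le_mul (coef_le B l x k.1 k.2) (hunit k) (norm_nonneg _) (norm_nonneg _)
      _ = N * (‖B.φ l x‖ * τ) := by
          rw [Finset.sum_const, Finset.card_univ, nsmul_eq_mul]
      _ = ε * ‖B.φ l x‖ := by
          rw [hτ]; field_simp

end Crest.Agent.R120
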