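import Crest.Agent.R120.Defs

/-!
# R120 piece L1: levels and the base projections

`common_level`: finitely many elements of `M` live in a common `Mx m` (use `Base.exists_up`).
`E_mul_E`: `up (mp (zw m)) * mp (zw (m+1)) = mp (zw (m+1))`, induction.
`E_excise`: for `n ≥ m`, `E n * φ m x * E n = x_{00} • E n`: write `φ m x = φ n x'` where
`x' (zw n) (zw n) = x (zw m) (zw m)` (induction with `up`), `single w w 1 * x' * single w w 1 =
x' w w • single w w 1`.
`E_tr`: `‖E_n Ω‖² = ⟪Ω, E_n Ω⟫ = 2^{-n}` from `tr_eq`.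
-/

set_option autoImplicit false
open scoped ComplexOrder InnerProductSpace Topology
open Filter

namespace Crest.Agent.R120

variable {H : Type} [NormedAddCommGroup H] [InnerProductSpace ℂ H] [CompleteSpace H]

theorem common_level (B : Base H) {ι : Type} [Finite ι] (T : ι → H →L[ℂ] H)
    (hT : ∀ i, T i ∈ B.M) (l : ℕ) :
    ∃ m, l ≤ m ∧ ∃ x : ι → Mx m, ∀ i, B.φ m (x i) = T i := by
  cases nonempty_fintype ι
  choose m y hy using hT
  refine ⟨max l (Finset.univ.sup m), le_max_left _ _, ?_⟩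
  have h : ∀ i, ∃ z : Mx (max l (Finset.univ.sup m)), B.φ _ z = T i := by
    intro i
    have hle : m i ≤ max l (Finset.univ.sup m) :=
      le_trans (Finset.le_sup (Finset.mem_univ i)) (le_max_right _ _)
    obtain ⟨z, hz⟩ := B.exists_up hle (y i)
    exact ⟨z, hz.trans (hy i)⟩
  choose z hz using h
  exact ⟨z, hz⟩

theorem mp_proj {m : ℕ} (w : Ix m) : IsStarProjection (mp w) := by
  refine ⟨?_, ?_⟩
  · unfold IsIdempotentElem mp
    simp
  · unfold IsSelfAdjoint mp
    rw [Matrix.star_eq_conjTranspose, Matrix.conjTranspose_single]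
    simp

theorem E_proj (B : Base H) (n : ℕ) : IsStarProjection (B.E n) := by
  refine ⟨?_, ?_⟩
  · unfold IsIdempotentElem Base.E
    rw [← map_mul, (mp_proj (zw n)).isIdempotentElem.eq]
  · unfold IsSelfAdjoint Base.E
    rw [← map_star, (mp_proj (zw n)).isSelfAdjoint.star_eq]

theorem E_zero (B : Base H) : B.E 0 = 1 := by
  unfold Base.E
  have : (mp (zw 0) : Mx 0) = 1 := by
    ext i j
    have hi : i = zw 0 := Subsingleton.elim _ _
    have hj : j = zw 0 := Subsingleton.elim _ _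
    subst hi hj
    simp [mp]
  rw [this, map_one]

theorem mp_mul {m : ℕ} (w : Ix m) (x : Mx m) : mp w * x * mp w = x w w • mp w := by
  unfold mp
  rw [Matrix.single_mul_mul_single]
  ext i j
  simp [Matrix.single_apply]

theorem init_zw (m : ℕ) : (Fin.init (zw (m + 1)) : Fin m → Bool) = zw m := by
  rfl

theorem up_zw {m : ℕ} (x : Mx m) : up x (zw (m + 1)) (zw (m + 1)) = x (zw m) (zw m) := by
  unfold up
  simp [init_zw]

theorem exists_up_zw (B : Base H) {m n : ℕ} (h : m ≤ n) (x : Mx m) :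
    ∃ y : Mx n, B.φ n y = B.φ m x ∧ y (zw n) (zw n) = x (zw m) (zw m) := by
  induction n, h using Nat.le_induction with
  | base => exact ⟨x, rfl, rfl⟩
  | succ n _ ih =>
    obtain ⟨y, hy, hy'⟩ := ih
    exact ⟨up y, by rw [B.φ_up, hy], by rw [up_zw, hy']⟩

theorem E_excise (B : Base H) {m n : ℕ} (h : m ≤ n) (x : Mx m) :
    B.E n * B.φ m x * B.E n = (x (zw m) (zw m)) • B.E n := by
  obtain ⟨y, hy, hy'⟩ := exists_up_zw B h x
  rw [← hy, ← hy']
  unfold Base.E
  rw [← map_mul, ← map_mul, mp_mul, map_smul]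

theorem up_mul_mp (m : ℕ) : up (mp (zw m)) * mp (zw (m + 1)) = mp (zw (m + 1)) := by
  ext i j
  rw [Matrix.mul_apply, Finset.sum_eq_single (zw (m + 1))]
  · unfold mp up
    rw [Matrix.single_apply, Matrix.single_apply, Matrix.single_apply]
    by_cases hj : zw (m + 1) = j
    · by_cases hi : zw (m + 1) = i
      · subst hi
        have h1 : zw m = Fin.init (zw (m + 1)) := rfl
        rw [← hj]
        simp [← h1]
      · have : ¬ (i (Fin.last m) = zw (m + 1) (Fin.last m) ∧ zw m = Fin.init i) := by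
          rintro ⟨h1, h2⟩
          apply hi
          funext k
          refine Fin.lastCases ?_ (fun k => ?_) k
          · exact h1.symm
          · exact congrFun h2 k
        by_cases h1 : i (Fin.last m) = zw (m + 1) (Fin.last m)
        · have h2 : ¬ zw m = Fin.init i := fun h2 => this ⟨h1, h2⟩
          simp [h1, h2, hi]
        · simp [h1, hi]
    · simp [hj]
  · intro k _ hk
    unfold mp
    rw [Matrix.single_apply]
    simp [Ne.symm hk]
  · simp

theorem E_mul_E (B : Base H) {m n : ℕ} (h : m ≤ n) : B.E m * B.E n = B.E n := by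
  induction n, h using Nat.le_induction with
  | base => exact (E_proj B m).isIdempotentElem.eq
  | succ n _ ih =>
    have h1 : B.E n * B.E (n + 1) = B.E (n + 1) := by
      unfold Base.E
      rw [← B.φ_up, ← map_mul, up_mul_mp]
    rw [← h1, ← mul_assoc, ih]

theorem E_mul_E' (B : Base H) {m n : ℕ} (h : m ≤ n) : B.E n * B.E m = B.E n := by
  have := congrArg star (E_mul_E B h)
  rwa [star_mul, (E_proj B m).isSelfAdjoint.star_eq, (E_proj B n).isSelfAdjoint.star_eq] at this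

theorem excise_E (B : Base H) {x : H →L[ℂ] H} (hx : x ∈ B.M) :
    ∃ (N : ℕ) (c : ℂ), ∀ n, N ≤ n → B.E n * x * B.E n = c • B.E n := by
  obtain ⟨m, y, rfl⟩ := hx
  exact ⟨m, y (zw m) (zw m), fun n hn => E_excise B hn y⟩

theorem norm_Ω (B : Base H) : ‖B.Ω‖ = 1 := by
  have h := B.tr_eq 0 1
  rw [map_one] at h
  have h2 : ⟪B.Ω, B.Ω⟫_ℂ = 1 := by
    have h1 : (1 : H →L[ℂ] H) B.Ω = B.Ω := rfl
    rw [h1] at h
    rw [h]
    simp
  rw [inner_self_eq_norm_sq_to_K (𝕜 := ℂ)] at h2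
  have h4 : ‖B.Ω‖ ^ 2 = 1 := by
    have h6 : ((‖B.Ω‖ ^ 2 : ℝ) : ℂ) = ((1 : ℝ) : ℂ) := by
      rw [Complex.ofReal_one, ← h2]
      push_cast
      rfl
    exact Complex.ofReal_injective h6
  have h5 : 0 ≤ ‖B.Ω‖ := norm_nonneg _
  nlinarith

theorem E_tr (B : Base H) (n : ℕ) : ‖B.E n B.Ω‖ ^ 2 = (1 / 2 : ℝ) ^ n := by
  have h1 : ⟪B.Ω, B.E n B.Ω⟫_ℂ = ((2 : ℂ) ^ n)⁻¹ := by
    unfold Base.E
    rw [B.tr_eq]
    unfold mp
    rw [Matrix.trace_single_eq_same, mul_one]
  have h2 : ⟪B.E n B.Ω, B.E n B.Ω⟫_ℂ = ((2 : ℂ) ^ n)⁻¹ := by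
    have h3 : ContinuousLinearMap.adjoint (B.E n) = B.E n :=
      (E_proj B n).isSelfAdjoint.star_eq
    have h4 : B.E n (B.E n B.Ω) = B.E n B.Ω := by
      have := (E_proj B n).isIdempotentElem.eq
      exact congrArg (fun T : H →L[ℂ] H => T B.Ω) this
    have h5 : ⟪B.E n B.Ω, B.E n B.Ω⟫_ℂ = ⟪B.Ω, B.E n (B.E n B.Ω)⟫_ℂ := by
      conv_rhs => rw [← ContinuousLinearMap.adjoint_inner_left, h3]
    rw [h5, h4, h1]
  rw [inner_self_eq_norm_sq_to_K (𝕜 := ℂ)] at h2
  have h3 : ((‖B.E n B.Ω‖ ^ 2 : ℝ) : ℂ) = (((1 / 2 : ℝ) ^ n : ℝ) : ℂ) := by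
    push_cast
    rw [one_div, inv_pow]
    exact h2
  exact_mod_cast h3

end Crest.Agent.R120
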