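import Crest.Agent.R120.MatP
import Crest.Agent.R120.L1

/-!
# R120 piece Part: projections of equal trace are equivalent in `M`

`proj_diag`: `p = U 1_S U*`, `q = V 1_T V*` in a common level, `|S| = |T|`, bijection `τ : S ≃ T`,
`v = V (∑_{i ∈ S} e_{τ(i) i}) U*`. `‖pΩ‖² = tr(p) = 2^{-m} trace`.
-/

set_option autoImplicit false
open scoped ComplexOrder InnerProductSpace Topology
open Filter

namespace Crest.Agent.R120

variable {H : Type} [NormedAddCommGroup H] [InnerProductSpace ℂ H] [CompleteSpace H]

namespace Part_aux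

/-- `φ m` is injective -/
theorem φ_inj (B : Base H) (m : ℕ) {x y : Mx m} (h : B.φ m x = B.φ m y) : x = y := by
  have h0 : B.φ m (x - y) = 0 := by rw [map_sub, h, sub_self]
  have h1 := B.tr_eq m (star (x - y) * (x - y))
  rw [map_mul, h0] at h1
  have h2 : (star (x - y) * (x - y)).trace = 0 := by
    have : ((2 : ℂ) ^ m)⁻¹ ≠ 0 := by positivity
    simpa [this] using h1.symm
  have h3 : x - y = 0 := by
    rw [Matrix.star_eq_conjTranspose] at h2
    exact Matrix.trace_conjTranspose_mul_self_eq_zero_iff.1 h2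
  exact sub_eq_zero.1 h3

theorem norm_eq (B : Base H) (m : ℕ) {p' : Mx m} (hp : IsStarProjection (B.φ m p')) :
    ((‖B.φ m p' B.Ω‖ ^ 2 : ℝ) : ℂ) = ((2 : ℂ) ^ m)⁻¹ * p'.trace := by
  rw [← B.tr_eq m p']
  have h1 : B.φ m p' = star (B.φ m p') * B.φ m p' := by
    rw [hp.isSelfAdjoint.star_eq]
    exact hp.isIdempotentElem.eq.symm
  have h2 : ⟪B.Ω, B.φ m p' B.Ω⟫_ℂ = ⟪B.φ m p' B.Ω, B.φ m p' B.Ω⟫_ℂ := by
    conv_lhs => rw [h1]
    rw [ContinuousLinearMap.mul_apply, ContinuousLinearMap.star_eq_adjoint,
      ContinuousLinearMap.adjoint_inner_right]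
  rw [h2, inner_self_eq_norm_sq_to_K]
  push_cast
  rfl

/-- equivalence of diagonal projections -/
theorem exists_w {n : Type} [Fintype n] [DecidableEq n] (S T : Finset n)
    (h : S.card = T.card) : ∃ w : Matrix n n ℂ,
      star w * w = Matrix.diagonal (fun i => if i ∈ S then 1 else 0) ∧
      w * star w = Matrix.diagonal (fun i => if i ∈ T then 1 else 0) := by
  let e : {x // x ∈ S} ≃ {x // x ∈ T} := Finset.equivOfCardEq h
  let σ : Equiv.Perm n := e.extendSubtype
  have hσ : ∀ x, σ x ∈ T ↔ x ∈ S := by
    intro x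
    constructor
    · intro hx
      by_contra hn
      exact e.extendSubtype_not_mem x hn hx
    · intro hx
      exact e.extendSubtype_mem x hx
  refine ⟨Matrix.of fun i j => if σ j = i ∧ j ∈ S then 1 else 0, ?_, ?_⟩
  · ext i k
    rw [Matrix.mul_apply, Matrix.diagonal_apply, Finset.sum_eq_single (σ i)]
    · simp only [Matrix.star_apply, Matrix.of_apply, true_and]
      by_cases hi : i ∈ S
      · by_cases hik : i = k
        · subst hik; simp [hi]
        · have : ¬ σ k = σ i := fun h => hik (σ.injective h).symm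
          simp [hi, hik, this]
      · by_cases hik : i = k
        · subst hik; simp [hi]
        · simp [hi, hik]
    · intro j _ hj
      have : ¬ σ i = j := fun h => hj h.symm
      simp [Matrix.star_apply, Matrix.of_apply, this]
    · intro h; exact absurd (Finset.mem_univ _) h
  · ext i k
    rw [Matrix.mul_apply, Matrix.diagonal_apply, Finset.sum_eq_single (σ.symm i)]
    · have hS : σ.symm i ∈ S ↔ i ∈ T := by rw [← hσ, Equiv.apply_symm_apply]
      simp only [Matrix.star_apply, Matrix.of_apply, Equiv.apply_symm_apply, true_and, hS]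
      by_cases hi : i ∈ T
      · by_cases hik : i = k
        · subst hik; simp [hi]
        · simp [hi, hik]
      · by_cases hik : i = k
        · subst hik; simp [hi]
        · simp [hi, hik]
    · intro j _ hj
      have : ¬ σ j = i := fun h => hj (by rw [← h, Equiv.symm_apply_apply])
      simp [Matrix.star_apply, Matrix.of_apply, this]
    · intro h; exact absurd (Finset.mem_univ _) h

end Part_aux

theorem exists_partial (B : Base H) {p q : H →L[ℂ] H} (hpM : p ∈ B.M) (hqM : q ∈ B.M)
    (hp : IsStarProjection p) (hq : IsStarProjection q) (h : ‖p B.Ω‖ ^ 2 = ‖q B.Ω‖ ^ 2) :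
    ∃ v ∈ B.M, star v * v = p ∧ v * star v = q := by
  obtain ⟨m, -, x, hx⟩ := common_level B (fun b : Bool => if b = true then p else q)
    (by intro b; cases b <;> simp [hpM, hqM]) 0
  obtain ⟨p', hp'⟩ : ∃ p' : Mx m, B.φ m p' = p := ⟨x true, by simpa using hx true⟩
  obtain ⟨q', hq'⟩ : ∃ q' : Mx m, B.φ m q' = q := ⟨x false, by simpa using hx false⟩
  subst hp' hq'
  have isp : ∀ y : Mx m, IsStarProjection (B.φ m y) → IsStarProjection y := by
    intro y hy
    constructor
    · apply Part_aux.φ_inj B m
      rw [map_mul]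
      exact hy.isIdempotentElem.eq
    · apply Part_aux.φ_inj B m
      rw [map_star]
      exact hy.isSelfAdjoint.star_eq
  obtain ⟨U, S, hU1, hU2, hpU, hpt⟩ := proj_diag (isp _ hp)
  obtain ⟨V, T, hV1, hV2, hqV, hqt⟩ := proj_diag (isp _ hq)
  have hcard : S.card = T.card := by
    have h1 := Part_aux.norm_eq B m hp
    have h2 := Part_aux.norm_eq B m hq
    rw [h, h2, hpt, hqt] at h1
    have h3 : ((2 : ℂ) ^ m)⁻¹ ≠ 0 := by positivity
    exact_mod_cast (mul_left_cancel₀ h3 h1).symm
  obtain ⟨w, hw1, hw2⟩ := Part_aux.exists_w S T hcard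
  refine ⟨B.φ m (V * w * star U), ⟨m, _, rfl⟩, ?_, ?_⟩
  · rw [← map_star, ← map_mul]
    congr 1
    rw [hpU, ← hw1, star_mul, star_mul, star_star]
    calc U * (star w * star V) * (V * w * star U) = U * (star w * (star V * V) * w) * star U := by
          simp only [mul_assoc]
      _ = _ := by rw [hV1, mul_one]
  · rw [← map_star, ← map_mul]
    congr 1
    rw [hqV, ← hw2, star_mul, star_mul, star_star]
    calc V * w * star U * (U * (star w * star V)) = V * (w * (star U * U) * star w) * star V := by
          simp only [mul_assoc]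
      _ = _ := by rw [hU1, mul_one]

end Crest.Agent.R120
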