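import Crest.Agent.R120.Step
import Crest.Agent.R120.Part

/-!
# R120 piece Exist: every irreducible representation of `M` realises a datum

Start: a unit vector `ζ₋₁` with `σ(1 - E_1) ζ₋₁ = ζ₋₁` (exists: otherwise `σ(1 - E_1) = 0`; the
matrix unit `e_{01}` of `Mx 1` gives `σ(E_1) = 0` too, so `σ(1) = 0`). Apply `step` repeatedly,
with `k ≥ 1` initially, `l = n`, `ε = 2^{-n-3}`: `e_n, k_n, ζ_n`. `ζ_n` is Cauchy, the limit `ζ`
is a unit vector with `σ(e_n) ζ = ζ` (`e_n e_m = e_m`, `m ≥ n`). `v_n` from `exists_partial` for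
`E_{k_n} - E_{k_{n+1}}` and `e_n - e_{n+1}` (trace `2^{-k_n} - 2^{-k_{n+1}}` each,
`‖pΩ‖² - ‖p'Ω‖² = ‖(p-p')Ω‖²` for `p' ≤ p`). `excise`: `x = φ l y`, take `n ≥ l` large (raise the
level of `y` to `n` with `exists_up`).
-/

set_option autoImplicit false
open scoped ComplexOrder InnerProductSpace Topology
open Filter

namespace Crest.Agent.R120

variable {H : Type} [NormedAddCommGroup H] [InnerProductSpace ℂ H] [CompleteSpace H]

namespace Exist_aux

theorem sub_proj {p q : H →L[ℂ] H} (hp : IsStarProjection p) (hq : IsStarProjection q)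
    (h : p * q = q) : IsStarProjection (p - q) := by
  have hp1 : p * p = p := hp.isIdempotentElem
  have hq1 : q * q = q := hq.isIdempotentElem
  have hps : star p = p := hp.isSelfAdjoint
  have hqs : star q = q := hq.isSelfAdjoint
  have h' : q * p = q := by
    have := congrArg star h
    rwa [star_mul, hps, hqs] at this
  refine ⟨?_, ?_⟩
  · change (p - q) * (p - q) = p - q
    rw [sub_mul, mul_sub, mul_sub, hp1, h, h', hq1]; abel
  · change star (p - q) = p - q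
    rw [star_sub, hps, hqs]

theorem norm_sub_proj {p q : H →L[ℂ] H} (hp : IsStarProjection p) (hq : IsStarProjection q)
    (h : p * q = q) (v : H) : ‖(p - q) v‖ ^ 2 = ‖p v‖ ^ 2 - ‖q v‖ ^ 2 := by
  have hq1 : q * q = q := hq.isIdempotentElem
  have hps : star p = p := hp.isSelfAdjoint
  have hqs : star q = q := hq.isSelfAdjoint
  have h' : q * p = q := by
    have := congrArg star h
    rwa [star_mul, hps, hqs] at this
  have hinner : ⟪(p - q) v, q v⟫_ℂ = 0 := by
    have : ⟪(p - q) v, q v⟫_ℂ = ⟪q ((p - q) v), v⟫_ℂ := by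
      rw [← ContinuousLinearMap.adjoint_inner_left, ← ContinuousLinearMap.star_eq_adjoint, hqs]
    rw [this]
    have h2 : q ((p - q) v) = (q * (p - q)) v := rfl
    rw [h2, mul_sub, h', hq1, sub_self]; simp
  have hpv : p v = (p - q) v + q v := by simp
  have h3 := norm_add_sq_eq_norm_sq_add_norm_sq_of_inner_eq_zero ((p - q) v) (q v) hinner
  rw [← hpv] at h3
  nlinarith [h3]

variable {B : Base H} {K : Type} [NormedAddCommGroup K] [InnerProductSpace ℂ K]
    [CompleteSpace K] {σ : B.M →⋆ₙₐ[ℂ] (K →L[ℂ] K)}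

/-- the word `1` -/
def w1 : Ix 1 := fun _ => true

theorem w1_ne : w1 ≠ zw 1 := by
  intro h
  have := congrFun h 0
  simp [w1, zw] at this

/-- `1 - E 1` in `M` -/
noncomputable def P1 (B : Base H) : B.M := ⟨1 - B.E 1, sub_mem (one_mem _) (E_mem B 1)⟩

theorem P1_proj (B : Base H) : IsStarProjection (P1 B) := by
  have h := E_proj B 1
  have h1 : B.E 1 * B.E 1 = B.E 1 := h.isIdempotentElem
  have h2 : star (B.E 1) = B.E 1 := h.isSelfAdjoint
  refine ⟨?_, ?_⟩
  · apply Subtype.ext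
    change (1 - B.E 1) * (1 - B.E 1) = 1 - B.E 1
    rw [sub_mul, mul_sub, mul_sub, h1]; simp
  · apply Subtype.ext
    change star (1 - B.E 1) = 1 - B.E 1
    rw [star_sub, h2, star_one]

theorem sigma_P1_ne (hσ : IsIrr B σ) : σ (P1 B) ≠ 0 := by
  intro h0
  set u : B.M := ⟨B.φ 1 (Matrix.single (zw 1) w1 1), ⟨1, _, rfl⟩⟩ with hu
  set w : B.M := ⟨B.φ 1 (Matrix.single w1 (zw 1) 1), ⟨1, _, rfl⟩⟩ with hw
  set E1 : B.M := ⟨B.E 1, E_mem B 1⟩ with hE1
  have h1 : u * P1 B * w = E1 := by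
    apply Subtype.ext
    change B.φ 1 (Matrix.single (zw 1) w1 1) * (1 - B.E 1) *
      B.φ 1 (Matrix.single w1 (zw 1) 1) = B.E 1
    have e1 : (1 - B.E 1) = B.φ 1 (1 - mp (zw 1)) := by
      rw [map_sub, map_one]; rfl
    rw [e1, ← map_mul, ← map_mul]
    unfold Base.E
    congr 1
    unfold mp
    rw [mul_sub, mul_one, sub_mul, Matrix.single_mul_single_same,
      Matrix.single_mul_single_of_ne (h := w1_ne)]
    simp
  have h2 : σ E1 = 0 := by
    rw [← h1, map_mul, map_mul, h0]; simp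
  have h3 : E1 + P1 B = 1 := by
    apply Subtype.ext
    change B.E 1 + (1 - B.E 1) = 1
    abel
  have h4 : σ 1 = 0 := by
    rw [← h3, map_add, h2, h0, add_zero]
  apply hσ.ne_zero
  ext x : 1
  have : σ x = σ x * σ 1 := by rw [← map_mul, mul_one]
  rw [this, h4, mul_zero]; rfl

/-- the states of the construction -/
structure St (B : Base H) {K : Type} [NormedAddCommGroup K] [InnerProductSpace ℂ K]
    [CompleteSpace K] (σ : B.M →⋆ₙₐ[ℂ] (K →L[ℂ] K)) where
  e : B.M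
  k : ℕ
  ζ : K
  he : IsStarProjection e
  hζ : ‖ζ‖ = 1
  heζ : σ e ζ = ζ

theorem exists_init (hσ : IsIrr B σ) : ∃ s : St B σ, s.e = P1 B ∧ s.k = 0 := by
  have h := sigma_P1_ne hσ
  have : ∃ v, σ (P1 B) v ≠ 0 := by
    by_contra hc
    push Not at hc
    apply h
    ext v
    simpa using hc v
  obtain ⟨v, hv⟩ := this
  set y := σ (P1 B) v with hy
  have hyn : ‖y‖ ≠ 0 := norm_ne_zero_iff.mpr hv
  have hyy : σ (P1 B) y = y := by
    have h1 : P1 B * P1 B = P1 B := (P1_proj B).isIdempotentElem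
    have h2 : σ (P1 B) * σ (P1 B) = σ (P1 B) := by rw [← map_mul, h1]
    have h3 := congrArg (fun T : K →L[ℂ] K => T v) h2
    exact h3
  refine ⟨⟨P1 B, 0, ((‖y‖ : ℂ)⁻¹) • y, P1_proj B, ?_, ?_⟩, rfl, rfl⟩
  · rw [norm_smul, norm_inv, Complex.norm_real, norm_norm, inv_mul_cancel₀ hyn]
  · rw [map_smul, hyy]

/-- relation between consecutive states -/
def R (B : Base H) {K : Type} [NormedAddCommGroup K] [InnerProductSpace ℂ K]
    [CompleteSpace K] (σ : B.M →⋆ₙₐ[ℂ] (K →L[ℂ] K)) (n : ℕ) (s s' : St B σ) : Prop :=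
  s.e * s'.e = s'.e ∧ s.k < s'.k ∧ ‖(s'.e : H →L[ℂ] H) B.Ω‖ ^ 2 = (1 / 2 : ℝ) ^ s'.k ∧
    ‖s'.ζ - s.ζ‖ < (1 / 2 : ℝ) ^ (n + 3) ∧
    ∀ x : Mx n, ∃ c : ℂ, ‖(s'.e : H →L[ℂ] H) * B.φ n x * s'.e - c • (s'.e : H →L[ℂ] H)‖ ≤
        (1 / 2 : ℝ) ^ (n + 3) * ‖B.φ n x‖

theorem exists_seq (hσ : IsIrr B σ) :
    ∃ f : ℕ → St B σ, (f 0).e = P1 B ∧ ∀ n, R B σ n (f n) (f (n + 1)) := by
  have h : ∀ (n : ℕ) (s : St B σ), ∃ s', R B σ n s s' := by
    intro n s
    obtain ⟨e', k', ζ', h1, h2, h3, h4, h5, h6, h7, h8⟩ :=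
      step hσ s.e s.he s.k s.ζ s.hζ s.heζ n (ε := (1 / 2 : ℝ) ^ (n + 3)) (by positivity)
    exact ⟨⟨e', k', ζ', h1, h5, h6⟩, h2, h3, h4, h7, h8⟩
  choose next hnext using h
  obtain ⟨s0, hs0, _⟩ := exists_init hσ
  refine ⟨fun n => Nat.rec s0 (fun n s => next n s) n, hs0, fun n => ?_⟩
  exact hnext n _

end Exist_aux

open Exist_aux

theorem exists_datum {B : Base H} {K : Type} [NormedAddCommGroup K] [InnerProductSpace ℂ K]
    [CompleteSpace K] {σ : B.M →⋆ₙₐ[ℂ] (K →L[ℂ] K)} (hσ : IsIrr B σ) :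
    ∃ (d : Datum B) (ζ : K), ‖ζ‖ = 1 ∧ ∀ n, σ ⟨d.e n, d.e_mem n⟩ ζ = ζ := by
  obtain ⟨f, hf0, hf⟩ := exists_seq hσ
  -- sequences
  set k : ℕ → ℕ := fun n => (f (n + 1)).k with hk
  set e : ℕ → B.M := fun n => (f (n + 1)).e with he
  have heproj : ∀ n, IsStarProjection (e n) := fun n => (f (n + 1)).he
  have heproj' : ∀ n, IsStarProjection ((e n : H →L[ℂ] H)) := by
    intro n
    refine ⟨?_, ?_⟩
    · exact congrArg Subtype.val (heproj n).isIdempotentElem
    · exact congrArg Subtype.val (heproj n).isSelfAdjoint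
  have hanti : ∀ n, e n * e (n + 1) = e (n + 1) := fun n => (hf (n + 1)).1
  have hanti' : ∀ n, (e n : H →L[ℂ] H) * e (n + 1) = e (n + 1) :=
    fun n => congrArg Subtype.val (hanti n)
  have hkmono : StrictMono k := strictMono_nat_of_lt_succ fun n => (hf (n + 1)).2.1
  have hk0 : 1 ≤ k 0 := by
    have := (hf 0).2.1
    change 1 ≤ (f 1).k
    simp only [zero_add] at this
    omega
  have htr : ∀ n, ‖(e n : H →L[ℂ] H) B.Ω‖ ^ 2 = (1 / 2 : ℝ) ^ k n := fun n => (hf n).2.2.1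
  have hperp : B.E 1 * (e 0 : H →L[ℂ] H) = 0 := by
    have h1 : P1 B * e 0 = e 0 := by
      have := (hf 0).1
      rw [hf0] at this; exact this
    have h2 : (1 - B.E 1) * (e 0 : H →L[ℂ] H) = e 0 := congrArg Subtype.val h1
    rw [sub_mul, one_mul] at h2
    have h3 : (e 0 : H →L[ℂ] H) - (B.E 1 * (e 0 : H →L[ℂ] H)) = e 0 := h2
    have h4 := sub_eq_self.mp h3
    exact h4
  -- partial isometries
  have hpart : ∀ n, ∃ v ∈ B.M, star v * v = B.E (k n) - B.E (k (n + 1)) ∧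
      v * star v = (e n : H →L[ℂ] H) - e (n + 1) := by
    intro n
    have hle : k n ≤ k (n + 1) := (hkmono (Nat.lt_succ_self n)).le
    apply exists_partial B
    · exact sub_mem (E_mem B _) (E_mem B _)
    · exact sub_mem (e n).2 (e (n + 1)).2
    · exact sub_proj (E_proj B _) (E_proj B _) (E_mul_E B hle)
    · exact sub_proj (heproj' n) (heproj' (n + 1)) (hanti' n)
    · rw [norm_sub_proj (E_proj B _) (E_proj B _) (E_mul_E B hle),
        norm_sub_proj (heproj' n) (heproj' (n + 1)) (hanti' n), E_tr, E_tr, htr, htr]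
  choose v hvM hvsrc hvtgt using hpart
  have hexc : ∀ x ∈ B.M, ∀ ε : ℝ, 0 < ε → ∃ (n : ℕ) (c : ℂ),
      ‖(e n : H →L[ℂ] H) * x * e n - c • (e n : H →L[ℂ] H)‖ < ε := by
    rintro x ⟨l, y, rfl⟩ ε hε
    have hlim : Tendsto (fun n : ℕ => (1 / 2 : ℝ) ^ (n + 3) * ‖B.φ l y‖) atTop (𝓝 0) := by
      have h1 : Tendsto (fun n : ℕ => (1 / 2 : ℝ) ^ (n + 3)) atTop (𝓝 0) :=
        (tendsto_pow_atTop_nhds_zero_of_lt_one (by norm_num) (by norm_num)).comp
          (tendsto_add_atTop_nat 3)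
      simpa using h1.mul_const ‖B.φ l y‖
    obtain ⟨n, hn1, hn2⟩ := ((hlim.eventually (gt_mem_nhds hε)).and (eventually_ge_atTop l)).exists
    obtain ⟨y', hy'⟩ := B.exists_up hn2 y
    obtain ⟨c, hc⟩ := (hf n).2.2.2.2 y'
    rw [hy'] at hc
    exact ⟨n, c, lt_of_le_of_lt hc hn1⟩
  let d : Datum B := {
    k := k
    k_mono := hkmono
    k_pos := hk0
    e := fun n => (e n : H →L[ℂ] H)
    v := v
    e_mem := fun n => (e n).2
    v_mem := hvM
    e_proj := heproj'
    e_anti := hanti'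
    e_perp := hperp
    e_tr := htr
    v_src := hvsrc
    v_tgt := hvtgt
    excise := hexc }
  -- the vector
  set z : ℕ → K := fun n => (f (n + 1)).ζ with hz
  have hzc : CauchySeq z := by
    apply cauchySeq_of_le_geometric (1 / 2 : ℝ) 1 (by norm_num)
    intro n
    have h1 := (hf (n + 1)).2.2.2.1
    rw [dist_comm, dist_eq_norm]
    refine h1.le.trans ?_
    rw [one_mul, pow_add, pow_add]
    have : (0 : ℝ) < (1 / 2) ^ n := by positivity
    nlinarith
  obtain ⟨ζ, hζ⟩ := cauchySeq_tendsto_of_complete hzc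
  refine ⟨d, ζ, ?_, ?_⟩
  · have h1 : Tendsto (fun n => ‖z n‖) atTop (𝓝 ‖ζ‖) := hζ.norm
    have h2 : (fun n => ‖z n‖) = fun _ => (1 : ℝ) := funext fun n => (f (n + 1)).hζ
    rw [h2] at h1
    exact tendsto_nhds_unique h1 tendsto_const_nhds |>.symm ▸ rfl
  · intro n
    have hle : ∀ m, n ≤ m → e n * e m = e m := by
      intro m hm
      induction m, hm using Nat.le_induction with
      | base => exact (heproj n).isIdempotentElem
      | succ m _ ih =>
        rw [← hanti m, ← mul_assoc, ih]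
    have h1 : ∀ m, n ≤ m → σ (e n) (z m) = z m := by
      intro m hm
      have h2 : σ (e m) (z m) = z m := (f (m + 1)).heζ
      conv_lhs => rw [← h2]
      have h3 : σ (e n) (σ (e m) (z m)) = (σ (e n) * σ (e m)) (z m) := rfl
      rw [h3, ← map_mul, hle m hm, h2]
    have h4 : Tendsto (fun m => σ (e n) (z m)) atTop (𝓝 (σ (e n) ζ)) :=
      ((σ (e n)).continuous.tendsto ζ).comp hζ
    have h5 : Tendsto (fun m => σ (e n) (z m)) atTop (𝓝 ζ) := by
      apply hζ.congr'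
      filter_upwards [eventually_ge_atTop n] with m hm
      exact (h1 m hm).symm
    exact tendsto_nhds_unique h4 h5

end Crest.Agent.R120
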