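import Crest.Agent.R120.L1

/-!
# R120 piece InfD: `AA` is infinite-dimensional

E.g. `(E_n)` is linearly independent (`E_n - E_{n+1} ≠ 0` orthogonal projections), or `φ m` is
injective on `Mx m` (dimension `4^m`).
-/

set_option autoImplicit false
open scoped ComplexOrder InnerProductSpace Topology
open Filter

namespace Crest.Agent.R120

variable {H : Type} [NormedAddCommGroup H] [InnerProductSpace ℂ H] [CompleteSpace H]

namespace InfD_aux

/-- `φ m` as a linear map to `AA` -/
noncomputable def lin (B : Base H) (I : Set (Datum B)) (s : Datum B → (H →L[ℂ] H)) (m : ℕ) :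
    Mx m →ₗ[ℂ] AA B I s where
  toFun x := ⟨B.φ m x, M_le_AA B I s ⟨m, x, rfl⟩⟩
  map_add' x y := Subtype.ext (map_add (B.φ m) x y)
  map_smul' c x := Subtype.ext (map_smul (B.φ m) c x)

theorem lin_inj (B : Base H) (I : Set (Datum B)) (s : Datum B → (H →L[ℂ] H)) (m : ℕ) :
    Function.Injective (lin B I s m) := by
  rw [injective_iff_map_eq_zero]
  intro x hx
  have h0 : B.φ m x = 0 := congrArg Subtype.val hx
  have h1 : B.φ m (star x * x) = 0 := by rw [map_mul, h0, mul_zero]
  have h2 := B.tr_eq m (star x * x)
  rw [h1] at h2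
  simp only [zero_apply, inner_zero_right] at h2
  have h3 : (star x * x).trace = 0 := by
    rcases mul_eq_zero.mp h2.symm with h | h
    · exact absurd h (inv_ne_zero (pow_ne_zero _ two_ne_zero))
    · exact h
  exact Matrix.trace_conjTranspose_mul_self_eq_zero_iff.mp h3

end InfD_aux

theorem not_finite (B : Base H) (I : Set (Datum B)) (s : Datum B → (H →L[ℂ] H)) :
    ¬ FiniteDimensional ℂ (AA B I s) := by
  intro hfin
  have h := fun m => LinearMap.finrank_le_finrank_of_injective (InfD_aux.lin_inj B I s m)
  set d := Module.finrank ℂ (AA B I s) with hd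
  have h1 := h d
  have h2 : Module.finrank ℂ (Mx d) = 2 ^ d * 2 ^ d := by
    rw [Module.finrank_matrix]
    simp [Ix]
  rw [h2] at h1
  have h3 : d < 2 ^ d := Nat.lt_two_pow_self
  nlinarith [Nat.one_le_two_pow (n := d)]

end Crest.Agent.R120
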