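import Crest.Agent.R120.Defs

/-!
# R120 piece InstA: a base from commuting systems of 2 × 2 matrix units

`φ 0 x = x () () • 1`, `φ (m+1) x = ∑_{i,j} φ m (x_{ij}) * e m i j`, where
`x_{ij} w w' = x (Fin.snoc w i) (Fin.snoc w' j)`. `φ m y` commutes with `e k i j`, `k ≥ m`
(induction). Multiplicativity etc. by induction. `tr_eq` from `U.tr`, `cyclic` from `U.cyclic`
(every element of the algebra generated by the `e k i j` is in some `φ m (Mx m)`).
-/

set_option autoImplicit false
open scoped ComplexOrder InnerProductSpace Topology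
open Filter

namespace Crest.Agent.R120

variable {H : Type} [NormedAddCommGroup H] [InnerProductSpace ℂ H] [CompleteSpace H]

structure Units (H : Type) [NormedAddCommGroup H] [InnerProductSpace ℂ H] [CompleteSpace H] where
  e : ℕ → Bool → Bool → (H →L[ℂ] H)
  mul : ∀ k i j i' j', e k i j * e k i' j' = if j = i' then e k i j' else 0
  sum : ∀ k, e k false false + e k true true = 1
  star_e : ∀ k i j, star (e k i j) = e k j i
  comm : ∀ k k' i j i' j', k ≠ k' → e k i j * e k' i' j' = e k' i' j' * e k i j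
  Ω : H
  Ω_norm : ‖Ω‖ = 1
  tr : ∀ m, ∀ T ∈ Algebra.adjoin ℂ {T | ∃ k < m, ∃ i j, T = e k i j}, ∀ i j,
    ⟪Ω, T (e m i j Ω)⟫_ℂ = (if i = j then (2 : ℂ)⁻¹ else 0) * ⟪Ω, T Ω⟫_ℂ
  cyclic : Dense {v : H | ∃ T ∈ Algebra.adjoin ℂ {T | ∃ k i j, T = e k i j}, v = T Ω}

namespace InstAaux

/-- products of matrix units -/
noncomputable def EM (U : Units H) : ∀ m, Ix m → Ix m → (H →L[ℂ] H)
  | 0, _, _ => 1
  | m + 1, w, w' => EM U m (Fin.init w) (Fin.init w') * U.e m (w (Fin.last m)) (w' (Fin.last m))

variable (U : Units H)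

theorem EM_succ (m : ℕ) (w w' : Ix (m + 1)) :
    EM U (m + 1) w w' =
      EM U m (Fin.init w) (Fin.init w') * U.e m (w (Fin.last m)) (w' (Fin.last m)) := rfl

theorem EM_comm (m : ℕ) (w w' : Ix m) (k : ℕ) (hk : m ≤ k) (i j : Bool) :
    EM U m w w' * U.e k i j = U.e k i j * EM U m w w' := by
  induction m with
  | zero => simp [EM]
  | succ m ih =>
    rw [EM_succ, mul_assoc, U.comm m k _ _ _ _ (by omega), ← mul_assoc,
      ih (Fin.init w) (Fin.init w') (by omega), mul_assoc]

theorem EM_mul (m : ℕ) (w w' u u' : Ix m) :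
    EM U m w w' * EM U m u u' = if w' = u then EM U m w u' else 0 := by
  induction m with
  | zero =>
    have : w' = u := Subsingleton.elim _ _
    simp [EM, this]
  | succ m ih =>
    rw [EM_succ, EM_succ]
    have h1 : EM U m (Fin.init w) (Fin.init w') * U.e m (w (Fin.last m)) (w' (Fin.last m)) *
        (EM U m (Fin.init u) (Fin.init u') * U.e m (u (Fin.last m)) (u' (Fin.last m))) =
        (EM U m (Fin.init w) (Fin.init w') * EM U m (Fin.init u) (Fin.init u')) *
        (U.e m (w (Fin.last m)) (w' (Fin.last m)) * U.e m (u (Fin.last m)) (u' (Fin.last m))) := by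
      rw [mul_assoc, ← mul_assoc (U.e m (w (Fin.last m)) (w' (Fin.last m))),
        ← EM_comm U m (Fin.init u) (Fin.init u') m le_rfl]
      simp only [mul_assoc]
    rw [h1, ih, U.mul]
    by_cases h : w' = u
    · subst h
      simp [EM_succ]
    · have h2 : ¬ (Fin.init w' = (Fin.init u : Ix m) ∧ w' (Fin.last m) = u (Fin.last m)) := by
        rintro ⟨ha, hb⟩
        apply h
        have e1 : (Fin.snoc (Fin.init w' : Ix m) (w' (Fin.last m)) : Ix (m + 1)) = w' :=
          Fin.snoc_init_self w'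
        have e2 : (Fin.snoc (Fin.init u : Ix m) (u (Fin.last m)) : Ix (m + 1)) = u :=
          Fin.snoc_init_self u
        rw [← e1, ← e2, ha, hb]
      rw [if_neg h]
      by_cases ha : (Fin.init w' : Ix m) = Fin.init u
      · have hb : w' (Fin.last m) ≠ u (Fin.last m) := fun hb => h2 ⟨ha, hb⟩
        rw [if_neg hb, mul_zero]
      · rw [if_neg ha, zero_mul]

theorem EM_star (m : ℕ) (w w' : Ix m) : star (EM U m w w') = EM U m w' w := by
  induction m with
  | zero => simp [EM]
  | succ m ih =>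
    rw [EM_succ, star_mul, ih, U.star_e, EM_succ, EM_comm U m _ _ m le_rfl]

/-- splitting sums over words -/
theorem sum_snoc {V : Type*} [AddCommMonoid V] (m : ℕ) (f : Ix (m + 1) → V) :
    ∑ w, f w = ∑ u : Ix m, ∑ b : Bool, f (Fin.snoc u b) := by
  rw [← Equiv.sum_comp (Fin.snocEquiv (fun _ : Fin (m + 1) => Bool)) f, Fintype.sum_prod_type,
    Finset.sum_comm]
  rfl

theorem EM_snoc (m : ℕ) (u u' : Ix m) (b b' : Bool) :
    EM U (m + 1) (Fin.snoc u b) (Fin.snoc u' b') = EM U m u u' * U.e m b b' := by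
  rw [EM_succ]
  congr 2
  · exact Fin.init_snoc (α := fun _ => Bool) b u
  · exact Fin.init_snoc (α := fun _ => Bool) b' u'
  · exact Fin.snoc_last (α := fun _ => Bool) b u
  · exact Fin.snoc_last (α := fun _ => Bool) b' u'

theorem sum_bool_e (k : ℕ) : ∑ b : Bool, U.e k b b = 1 := by
  rw [Fintype.sum_bool, add_comm]; exact U.sum k

theorem EM_sum (m : ℕ) : ∑ w, EM U m w w = 1 := by
  induction m with
  | zero => simp [EM]
  | succ m ih =>
    rw [sum_snoc]
    simp only [EM_snoc]
    simp only [← Finset.mul_sum, sum_bool_e, mul_one]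
    exact ih

theorem EM_mem (m : ℕ) (w w' : Ix m) (n : ℕ) (hn : m ≤ n) :
    EM U m w w' ∈ Algebra.adjoin ℂ {T | ∃ k < n, ∃ i j, T = U.e k i j} := by
  induction m with
  | zero => exact one_mem _
  | succ m ih =>
    rw [EM_succ]
    refine mul_mem (ih _ _ (by omega)) (Algebra.subset_adjoin ?_)
    exact ⟨m, by omega, _, _, rfl⟩

theorem EM_tr (m : ℕ) (w w' : Ix m) :
    ⟪U.Ω, EM U m w w' U.Ω⟫_ℂ = if w = w' then ((2 : ℂ) ^ m)⁻¹ else 0 := by
  induction m with
  | zero =>
    have : w = w' := Subsingleton.elim _ _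
    rw [if_pos this]
    simp [EM, inner_self_eq_norm_sq_to_K, U.Ω_norm]
  | succ m ih =>
    rw [EM_succ, ContinuousLinearMap.mul_apply, U.tr m _ (EM_mem U m _ _ m le_rfl), ih]
    by_cases h : w = w'
    · subst h
      simp only [if_true]
      rw [pow_succ, mul_inv, mul_comm]
    · rw [if_neg h]
      by_cases ha : (Fin.init w : Ix m) = Fin.init w'
      · have hb : w (Fin.last m) ≠ w' (Fin.last m) := by
          intro hb
          apply h
          have e1 : (Fin.snoc (Fin.init w : Ix m) (w (Fin.last m)) : Ix (m + 1)) = w :=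
            Fin.snoc_init_self w
          have e2 : (Fin.snoc (Fin.init w' : Ix m) (w' (Fin.last m)) : Ix (m + 1)) = w' :=
            Fin.snoc_init_self w'
          rw [← e1, ← e2, ha, hb]
        rw [if_neg hb, zero_mul]
      · rw [if_neg ha, mul_zero]

/-- the representation of `Mx m` -/
noncomputable def phi (m : ℕ) : Mx m →⋆ₐ[ℂ] (H →L[ℂ] H) where
  toFun x := ∑ w, ∑ w', x w w' • EM U m w w'
  map_one' := by
    rw [← EM_sum U m]
    refine Finset.sum_congr rfl fun w _ => ?_
    rw [Finset.sum_eq_single w]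
    · simp
    · intro w' _ h
      rw [Matrix.one_apply_ne (Ne.symm h), zero_smul]
    · intro h; exact absurd (Finset.mem_univ _) h
  map_mul' := by
    intro x y
    symm
    rw [Finset.sum_mul]
    refine Finset.sum_congr rfl fun w _ => ?_
    rw [Finset.sum_mul]
    have h1 : ∀ w' : Ix m, x w w' • EM U m w w' * ∑ u, ∑ u', y u u' • EM U m u u' =
        ∑ u', (x w w' * y w' u') • EM U m w u' := by
      intro w'
      rw [Finset.mul_sum, Finset.sum_eq_single w']
      · rw [Finset.mul_sum]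
        refine Finset.sum_congr rfl fun u' _ => ?_
        rw [smul_mul_smul_comm, EM_mul, if_pos rfl]
      · intro u _ h
        rw [Finset.mul_sum]
        refine Finset.sum_eq_zero fun u' _ => ?_
        rw [smul_mul_smul_comm, EM_mul, if_neg (Ne.symm h), smul_zero]
      · intro h; exact absurd (Finset.mem_univ _) h
    rw [Finset.sum_congr rfl (fun w' _ => h1 w'), Finset.sum_comm]
    refine Finset.sum_congr rfl fun u' _ => ?_
    rw [← Finset.sum_smul, Matrix.mul_apply]
  map_zero' := by simp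
  map_add' := by
    intro x y
    simp only [Matrix.add_apply, add_smul, Finset.sum_add_distrib]
  commutes' := by
    intro r
    rw [Algebra.algebraMap_eq_smul_one, Algebra.algebraMap_eq_smul_one, ← EM_sum U m,
      Finset.smul_sum]
    refine Finset.sum_congr rfl fun w _ => ?_
    rw [Finset.sum_eq_single w]
    · simp
    · intro w' _ h
      rw [Matrix.smul_apply, Matrix.one_apply_ne (Ne.symm h), smul_zero, zero_smul]
    · intro h; exact absurd (Finset.mem_univ _) h
  map_star' := by
    intro x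
    rw [star_sum, Finset.sum_comm]
    refine Finset.sum_congr rfl fun w _ => ?_
    rw [star_sum]
    refine Finset.sum_congr rfl fun w' _ => ?_
    rw [star_smul, EM_star]
    rfl

theorem phi_apply (m : ℕ) (x : Mx m) : phi U m x = ∑ w, ∑ w', x w w' • EM U m w w' := rfl

theorem phi_up (m : ℕ) (x : Mx m) : phi U (m + 1) (up x) = phi U m x := by
  rw [phi_apply, phi_apply, sum_snoc]
  refine Finset.sum_congr rfl fun u _ => ?_
  simp only [sum_snoc m]
  rw [Finset.sum_comm]
  refine Finset.sum_congr rfl fun u' _ => ?_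
  have h1 : ∀ b b' : Bool, up x (Fin.snoc u b) (Fin.snoc u' b') = if b = b' then x u u' else 0 := by
    intro b b'
    unfold up
    have e1 : (Fin.init (Fin.snoc u b : Ix (m + 1)) : Ix m) = u :=
      Fin.init_snoc (α := fun _ => Bool) b u
    have e2 : (Fin.init (Fin.snoc u' b' : Ix (m + 1)) : Ix m) = u' :=
      Fin.init_snoc (α := fun _ => Bool) b' u'
    have e3 : (Fin.snoc u b : Ix (m + 1)) (Fin.last m) = b :=
      Fin.snoc_last (α := fun _ => Bool) b u
    have e4 : (Fin.snoc u' b' : Ix (m + 1)) (Fin.last m) = b' :=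
      Fin.snoc_last (α := fun _ => Bool) b' u'
    rw [e1, e2, e3, e4]
  simp only [h1, EM_snoc]
  have h2 : ∀ b : Bool, ∑ b' : Bool, (if b = b' then x u u' else 0) • (EM U m u u' * U.e m b b') =
      x u u' • (EM U m u u' * U.e m b b) := by
    intro b
    rw [Finset.sum_eq_single b]
    · simp
    · intro b' _ h
      rw [if_neg (Ne.symm h), zero_smul]
    · intro h; exact absurd (Finset.mem_univ _) h
  rw [Finset.sum_congr rfl (fun b _ => h2 b), ← Finset.smul_sum, ← Finset.mul_sum, sum_bool_e,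
    mul_one]

theorem phi_exists_up {m m' : ℕ} (h : m ≤ m') (x : Mx m) :
    ∃ y : Mx m', phi U m' y = phi U m x := by
  induction m', h using Nat.le_induction with
  | base => exact ⟨x, rfl⟩
  | succ n _ ih =>
    obtain ⟨y, hy⟩ := ih
    exact ⟨up y, by rw [phi_up, hy]⟩

theorem e_mem_range (k : ℕ) (i j : Bool) : ∃ x : Mx (k + 1), phi U (k + 1) x = U.e k i j := by
  refine ⟨∑ u : Ix k, Matrix.single (Fin.snoc u i : Ix (k + 1)) (Fin.snoc u j : Ix (k + 1)) 1, ?_⟩
  have h1 : ∀ a b : Ix (k + 1), phi U (k + 1) (Matrix.single a b 1) = EM U (k + 1) a b := by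
    intro a b
    rw [phi_apply, Finset.sum_eq_single a, Finset.sum_eq_single b]
    · simp
    · intro b' _ h
      rw [Matrix.single_apply_of_ne]
      · exact zero_smul _ _
      · rintro ⟨_, h2⟩; exact h h2.symm
    · intro h; exact absurd (Finset.mem_univ _) h
    · intro a' _ h
      refine Finset.sum_eq_zero fun b' _ => ?_
      rw [Matrix.single_apply_of_ne]
      · exact zero_smul _ _
      · rintro ⟨h2, _⟩; exact h h2.symm
    · intro h; exact absurd (Finset.mem_univ _) h
  rw [map_sum]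
  simp only [h1, EM_snoc]
  rw [← Finset.sum_mul, EM_sum, one_mul]

theorem adjoin_le (T : H →L[ℂ] H) (hT : T ∈ Algebra.adjoin ℂ {T | ∃ k i j, T = U.e k i j}) :
    ∃ (m : ℕ) (x : Mx m), phi U m x = T := by
  induction hT using Algebra.adjoin_induction with
  | mem T hT =>
    obtain ⟨k, i, j, rfl⟩ := hT
    obtain ⟨x, hx⟩ := e_mem_range U k i j
    exact ⟨k + 1, x, hx⟩
  | algebraMap r => exact ⟨0, algebraMap ℂ _ r, AlgHomClass.commutes (phi U 0) r⟩
  | add a b _ _ ha hb =>
    obtain ⟨m, x, rfl⟩ := ha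
    obtain ⟨n, y, rfl⟩ := hb
    obtain ⟨x', hx'⟩ := phi_exists_up U (le_max_left m n) x
    obtain ⟨y', hy'⟩ := phi_exists_up U (le_max_right m n) y
    exact ⟨max m n, x' + y', by rw [map_add, hx', hy']⟩
  | mul a b _ _ ha hb =>
    obtain ⟨m, x, rfl⟩ := ha
    obtain ⟨n, y, rfl⟩ := hb
    obtain ⟨x', hx'⟩ := phi_exists_up U (le_max_left m n) x
    obtain ⟨y', hy'⟩ := phi_exists_up U (le_max_right m n) y
    exact ⟨max m n, x' * y', by rw [map_mul, hx', hy']⟩

theorem phi_tr (m : ℕ) (x : Mx m) :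
    ⟪U.Ω, phi U m x U.Ω⟫_ℂ = ((2 : ℂ) ^ m)⁻¹ * x.trace := by
  rw [phi_apply]
  simp only [sum_apply, smul_apply, inner_sum,
    inner_smul_right, EM_tr]
  rw [Matrix.trace, Finset.mul_sum]
  refine Finset.sum_congr rfl fun w _ => ?_
  rw [Finset.sum_eq_single w]
  · rw [if_pos rfl, Matrix.diag_apply, mul_comm]
  · intro w' _ h
    rw [if_neg (Ne.symm h), mul_zero]
  · intro h; exact absurd (Finset.mem_univ _) h

end InstAaux

open InstAaux in
theorem base_of_units (U : Units H) : Nonempty (Base H) := by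
  refine ⟨⟨phi U, phi_up U, U.Ω, phi_tr U, ?_⟩⟩
  refine U.cyclic.mono ?_
  rintro v ⟨T, hT, rfl⟩
  obtain ⟨m, x, hx⟩ := adjoin_le U T hT
  exact ⟨m, x, by rw [hx]⟩

end Crest.Agent.R120
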