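import Crest.Agent.R120.InstA

/-!
# R120 piece InstB: the tracial representation of the CAR algebra on `ℓ²(Finset ℕ × Finset ℕ)`

Basis `δ_(a,b)` (think: Pauli string `X^a Z^b`), `Ω = δ_(∅,∅)`,
`X_k δ_(a,b) = δ_(a Δ {k}, b)`, `Z_k δ_(a,b) = (-1)^{[k ∈ a]} δ_(a, b Δ {k})`: self-adjoint
unitaries, `X_k Z_k = - Z_k X_k`, commuting for different indices.
`e k 0 0 = (1+Z_k)/2`, `e k 1 1 = (1-Z_k)/2`, `e k 1 0 = X_k (1+Z_k)/2`,
`e k 0 1 = X_k (1-Z_k)/2`. `tr`: for `T` in the algebra generated by the indices `< m`, `T* Ω` is in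
the closed span of the `δ_(a,b)`, `a, b ⊆ {0..m-1}`, while `X_m Ω`, `Z_m Ω`, `X_m Z_m Ω` are
orthogonal to it. (Any other construction of `Units`, e.g. by GNS, is fine.)
-/

set_option autoImplicit false
open scoped ComplexOrder InnerProductSpace Topology
open Filter

namespace Crest.Agent.R120

namespace InstB_aux

/-- index set -/
abbrev II : Type := Finset ℕ × Finset ℕ

/-- the Hilbert space -/
abbrev HH : Type := lp (fun _ : II => ℂ) 2

/-- the basis -/
noncomputable def bb : HilbertBasis II ℂ HH := ⟨LinearIsometryEquiv.refl ℂ _⟩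

theorem orth (σ : Equiv.Perm II) (s : II → ℂ) (hs : ∀ i, ‖s i‖ = 1) :
    Orthonormal ℂ (fun i => s i • bb (σ i)) := by
  constructor
  · intro i
    rw [norm_smul, hs, bb.orthonormal.1, mul_one]
  · intro i j hij
    show ⟪s i • bb (σ i), s j • bb (σ j)⟫_ℂ = 0
    rw [inner_smul_left, inner_smul_right, bb.orthonormal.2 (fun h => hij (σ.injective h)),
      mul_zero, mul_zero]

/-- signed permutation operators -/
noncomputable def op (σ : Equiv.Perm II) (s : II → ℂ) (hs : ∀ i, ‖s i‖ = 1) : HH →L[ℂ] HH :=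
  (orth σ s hs).orthogonalFamily.linearIsometry.toContinuousLinearMap

theorem op_apply (σ : Equiv.Perm II) (s : II → ℂ) (hs : ∀ i, ‖s i‖ = 1) (i : II) :
    op σ s hs (bb i) = s i • bb (σ i) := by
  have h : bb i = lp.single 2 i (1 : ℂ) := by
    rw [← bb.repr_symm_single i]
    rfl
  show (orth σ s hs).orthogonalFamily.linearIsometry (bb i) = _
  rw [h, OrthogonalFamily.linearIsometry_apply_single]
  simp

theorem op_norm (σ : Equiv.Perm II) (s : II → ℂ) (hs : ∀ i, ‖s i‖ = 1) (v : HH) :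
    ‖op σ s hs v‖ = ‖v‖ :=
  (orth σ s hs).orthogonalFamily.linearIsometry.norm_map v

theorem ext' {A B : HH →L[ℂ] HH} (h : ∀ i, A (bb i) = B (bb i)) : A = B := by
  refine ContinuousLinearMap.ext_on (s := Set.range bb) ?_ ?_
  · exact Submodule.dense_iff_topologicalClosure_eq_top.2 bb.dense_span
  · rintro _ ⟨i, rfl⟩
    exact h i

theorem star_eq_of_sq {A : HH →L[ℂ] HH} (hn : ∀ v, ‖A v‖ = ‖v‖) (h : A * A = 1) :
    star A = A := by
  have h1 : star A * A = 1 := (ContinuousLinearMap.norm_map_iff_adjoint_comp_self A).1 hn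
  calc star A = star A * (A * A) := by rw [h, mul_one]
    _ = (star A * A) * A := by rw [mul_assoc]
    _ = A := by rw [h1, one_mul]

/-- toggle -/
def tog (k : ℕ) (a : Finset ℕ) : Finset ℕ := symmDiff a {k}

theorem tog_tog (k : ℕ) (a : Finset ℕ) : tog k (tog k a) = a := by
  simp [tog]

theorem tog_comm (k l : ℕ) (a : Finset ℕ) : tog k (tog l a) = tog l (tog k a) := by
  simp only [tog, symmDiff_assoc]
  rw [symmDiff_comm ({l} : Finset ℕ) {k}]

theorem mem_tog {k l : ℕ} {a : Finset ℕ} (h : k ≠ l) : l ∈ tog k a ↔ l ∈ a := by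
  simp [tog, Finset.mem_symmDiff, h.symm]

theorem mem_tog_self {k : ℕ} {a : Finset ℕ} : k ∈ tog k a ↔ k ∉ a := by
  simp [tog, Finset.mem_symmDiff]

/-- the permutations -/
def σX (k : ℕ) : Equiv.Perm II where
  toFun i := (tog k i.1, i.2)
  invFun i := (tog k i.1, i.2)
  left_inv i := by simp [tog_tog]
  right_inv i := by simp [tog_tog]

/-- the permutations -/
def σZ (k : ℕ) : Equiv.Perm II where
  toFun i := (i.1, tog k i.2)
  invFun i := (i.1, tog k i.2)
  left_inv i := by simp [tog_tog]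
  right_inv i := by simp [tog_tog]

/-- signs -/
noncomputable def sg (k : ℕ) (a : Finset ℕ) : ℂ := if k ∈ a then -1 else 1

theorem sg_norm (k : ℕ) (a : Finset ℕ) : ‖sg k a‖ = 1 := by
  unfold sg; split_ifs <;> simp

theorem sg_mul (k : ℕ) (a : Finset ℕ) : sg k a * sg k a = 1 := by
  unfold sg; split_ifs <;> simp

theorem sg_tog (k : ℕ) (a : Finset ℕ) : sg k (tog k a) = - sg k a := by
  unfold sg
  by_cases h : k ∈ a
  · have : k ∉ tog k a := fun h' => (mem_tog_self.1 h') h
    simp [h, this]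
  · have : k ∈ tog k a := mem_tog_self.2 h
    simp [h, this]

theorem sg_tog' {k l : ℕ} (h : k ≠ l) (a : Finset ℕ) : sg l (tog k a) = sg l a := by
  unfold sg
  simp only [mem_tog h]

/-- Pauli X -/
noncomputable def X (k : ℕ) : HH →L[ℂ] HH := op (σX k) (fun _ => 1) (by simp)
/-- Pauli Z -/
noncomputable def Z (k : ℕ) : HH →L[ℂ] HH := op (σZ k) (fun i => sg k i.1) (fun i => sg_norm k i.1)

theorem X_apply (k : ℕ) (a b : Finset ℕ) : X k (bb (a, b)) = bb (tog k a, b) := by
  rw [X, op_apply, one_smul]; rfl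

theorem Z_apply (k : ℕ) (a b : Finset ℕ) : Z k (bb (a, b)) = sg k a • bb (a, tog k b) := by
  rw [Z, op_apply]; rfl

theorem XX (k : ℕ) : X k * X k = 1 := by
  apply ext'
  rintro ⟨a, b⟩
  simp only [mul_apply_eq_comp, X_apply, tog_tog, one_apply_eq_self]

theorem ZZ (k : ℕ) : Z k * Z k = 1 := by
  apply ext'
  rintro ⟨a, b⟩
  simp only [mul_apply_eq_comp, Z_apply, map_smul, smul_smul, sg_mul, tog_tog, one_smul,
    one_apply_eq_self]

theorem XZ (k : ℕ) : X k * Z k = - (Z k * X k) := by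
  apply ext'
  rintro ⟨a, b⟩
  simp only [mul_apply_eq_comp, Z_apply, X_apply, map_smul, neg_apply,
    sg_tog, neg_smul, neg_neg]

theorem comm_XX (k l : ℕ) : Commute (X k) (X l) := by
  apply ext'
  rintro ⟨a, b⟩
  simp only [mul_apply_eq_comp, X_apply, tog_comm]

theorem comm_ZZ (k l : ℕ) : Commute (Z k) (Z l) := by
  apply ext'
  rintro ⟨a, b⟩
  simp only [mul_apply_eq_comp, Z_apply, map_smul, smul_smul]
  rw [mul_comm, tog_comm]

theorem comm_XZ {k l : ℕ} (h : k ≠ l) : Commute (X k) (Z l) := by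
  apply ext'
  rintro ⟨a, b⟩
  simp only [mul_apply_eq_comp, Z_apply, X_apply, map_smul, sg_tog' h]

theorem star_X (k : ℕ) : star (X k) = X k := star_eq_of_sq (op_norm _ _ _) (XX k)
theorem star_Z (k : ℕ) : star (Z k) = Z k := star_eq_of_sq (op_norm _ _ _) (ZZ k)

/-- sign of a bit -/
noncomputable def bs (i : Bool) : ℂ := if i then -1 else 1

/-- spectral projections of `Z` -/
noncomputable def P (k : ℕ) (i : Bool) : HH →L[ℂ] HH := (2 : ℂ)⁻¹ • (1 + bs i • Z k)

theorem PPmul (k : ℕ) (i j : Bool) :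
    P k i * P k j = (4 : ℂ)⁻¹ • ((1 + bs i * bs j) • (1 : HH →L[ℂ] HH) + (bs i + bs j) • Z k) := by
  unfold P
  simp only [mul_add, add_mul, mul_one, one_mul, smul_mul_assoc, mul_smul_comm, ZZ]
  module

theorem PP_same (k : ℕ) (i : Bool) : P k i * P k i = P k i := by
  rw [PPmul]
  unfold P
  cases i <;> simp only [bs, Bool.false_eq_true, if_false, if_true] <;> module

theorem PP_diff (k : ℕ) (i : Bool) : P k i * P k (!i) = 0 := by
  rw [PPmul]
  cases i <;> simp [bs]

theorem XP (k : ℕ) (i : Bool) : X k * P k i = P k (!i) * X k := by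
  have h' : bs (!i) = - bs i := by cases i <;> simp [bs]
  unfold P
  rw [h', mul_smul_comm, smul_mul_assoc, mul_add, add_mul, mul_one, one_mul, mul_smul_comm, XZ,
    smul_mul_assoc, neg_smul, smul_neg]

theorem star_P (k : ℕ) (i : Bool) : star (P k i) = P k i := by
  unfold P
  rw [star_smul, star_add, star_smul, star_Z, star_one]
  have h1 : star ((2 : ℂ)⁻¹) = (2 : ℂ)⁻¹ := by simp
  have h2 : star (bs i) = bs i := by cases i <;> simp [bs]
  rw [h1, h2]

theorem comm_P {k l : ℕ} (i j : Bool) : Commute (P k i) (P l j) := by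
  unfold P
  refine Commute.smul_left (Commute.smul_right ?_ _) _
  refine Commute.add_left (Commute.one_left _) (Commute.smul_left ?_ _)
  exact Commute.add_right (Commute.one_right _) (Commute.smul_right (comm_ZZ k l) _)

theorem comm_XP {k l : ℕ} (h : k ≠ l) (j : Bool) : Commute (X k) (P l j) := by
  unfold P
  refine Commute.smul_right ?_ _
  exact Commute.add_right (Commute.one_right _) (Commute.smul_right (comm_XZ h) _)

/-- matrix units -/
noncomputable def e (k : ℕ) (i j : Bool) : HH →L[ℂ] HH :=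
  if i = j then P k i else P k i * X k

theorem e_mul (k : ℕ) (i j i' j' : Bool) :
    e k i j * e k i' j' = if j = i' then e k i j' else 0 := by
  have h1 := PP_same k
  have h2 := PP_diff k
  have h3 := XP k
  have h4 := XX k
  have a1 : ∀ i, P k i * X k * P k (!i) = P k i * X k := by
    intro i
    rw [mul_assoc, h3, Bool.not_not, ← mul_assoc, h1]
  have a2 : ∀ i, P k i * X k * P k i = 0 := by
    intro i
    rw [mul_assoc, h3, ← mul_assoc, h2, zero_mul]
  have a1f := a1 false
  have a1t := a1 true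
  have b1 := h2 false
  have b2 := h2 true
  simp only [Bool.not_false, Bool.not_true] at a1f a1t b1 b2
  cases i <;> cases j <;> cases i' <;> cases j' <;>
    simp [e, ← mul_assoc, h1, b1, b2, a1f, a1t, a2] <;>
    rw [mul_assoc, h4, mul_one]

theorem e_sum (k : ℕ) : e k false false + e k true true = 1 := by
  simp only [e, if_true, P, bs, Bool.false_eq_true, if_false]
  rw [← smul_add, show (1 : HH →L[ℂ] HH) + (1 : ℂ) • Z k + (1 + (-1 : ℂ) • Z k) = (2 : ℂ) • 1 by
    rw [two_smul, one_smul, neg_smul, one_smul]; abel, smul_smul]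
  norm_num

theorem e_star (k : ℕ) (i j : Bool) : star (e k i j) = e k j i := by
  unfold e
  by_cases h : i = j
  · subst h
    simp [star_P]
  · have h' : j = !i := by cases i <;> cases j <;> simp_all
    subst h'
    rw [if_neg h, if_neg (Ne.symm h), star_mul, star_X, star_P, XP]

theorem e_comm {k l : ℕ} (h : k ≠ l) (i j i' j' : Bool) :
    e k i j * e l i' j' = e l i' j' * e k i j := by
  have key : Commute (e k i j) (e l i' j') := by
    unfold e
    have c1 := comm_P (k := k) (l := l) i i'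
    have c2 := comm_XP h i'
    have c3 := (comm_XP h.symm i).symm
    have c4 := comm_XX k l
    split_ifs
    · exact c1
    · exact c1.mul_right c3
    · exact c1.mul_left c2
    · exact (c1.mul_right c3).mul_left (c2.mul_right c4)
  exact key

/-- vectors orthogonal to the basis vectors inside `m` -/
def Vm (m : ℕ) : Submodule ℂ HH where
  carrier := {v | ∀ a b : Finset ℕ, (∀ k ∈ a, k < m) → (∀ k ∈ b, k < m) →
    ⟪bb (a, b), v⟫_ℂ = 0}
  add_mem' := by
    intro v w hv hw a b ha hb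
    rw [inner_add_right, hv a b ha hb, hw a b ha hb, add_zero]
  zero_mem' := by
    intro a b _ _
    exact inner_zero_right _
  smul_mem' := by
    intro c v hv a b ha hb
    rw [inner_smul_right, hv a b ha hb, mul_zero]

theorem mem_Vm {m : ℕ} {v : HH} : v ∈ Vm m ↔ ∀ a b : Finset ℕ, (∀ k ∈ a, k < m) →
    (∀ k ∈ b, k < m) → ⟪bb (a, b), v⟫_ℂ = 0 := Iff.rfl

theorem inner_op {A : HH →L[ℂ] HH} (h : star A = A) (v w : HH) : ⟪v, A w⟫_ℂ = ⟪A v, w⟫_ℂ := by
  rw [← ContinuousLinearMap.adjoint_inner_left, ← ContinuousLinearMap.star_eq_adjoint, h]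

theorem tog_lt {k m : ℕ} (hk : k < m) {a : Finset ℕ} (ha : ∀ l ∈ a, l < m) :
    ∀ l ∈ tog k a, l < m := by
  intro l hl
  by_cases h : k = l
  · rw [← h]; exact hk
  · exact ha l ((mem_tog h).1 hl)

theorem X_Vm {k m : ℕ} (hk : k < m) {v : HH} (hv : v ∈ Vm m) : X k v ∈ Vm m := by
  intro a b ha hb
  rw [inner_op (star_X k), X_apply]
  exact hv _ _ (tog_lt hk ha) hb

theorem Z_Vm {k m : ℕ} (hk : k < m) {v : HH} (hv : v ∈ Vm m) : Z k v ∈ Vm m := by
  intro a b ha hb
  rw [inner_op (star_Z k), Z_apply, inner_smul_left, hv _ _ ha (tog_lt hk hb), mul_zero]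

theorem P_Vm {k m : ℕ} (hk : k < m) (i : Bool) {v : HH} (hv : v ∈ Vm m) : P k i v ∈ Vm m := by
  have : P k i v = (2 : ℂ)⁻¹ • (v + bs i • Z k v) := rfl
  rw [this]
  exact Submodule.smul_mem _ _ (Submodule.add_mem _ hv (Submodule.smul_mem _ _ (Z_Vm hk hv)))

theorem e_Vm {k m : ℕ} (hk : k < m) (i j : Bool) {v : HH} (hv : v ∈ Vm m) :
    e k i j v ∈ Vm m := by
  unfold e
  split_ifs
  · exact P_Vm hk i hv
  · exact P_Vm hk i (X_Vm hk hv)

theorem T_Vm {m : ℕ} {T : HH →L[ℂ] HH}
    (hT : T ∈ Algebra.adjoin ℂ {T | ∃ k < m, ∃ i j, T = e k i j}) :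
    ∀ v ∈ Vm m, T v ∈ Vm m := by
  induction hT using Algebra.adjoin_induction with
  | mem T hT =>
    obtain ⟨k, hk, i, j, rfl⟩ := hT
    exact fun v hv => e_Vm hk i j hv
  | algebraMap r =>
    intro v hv
    have : (algebraMap ℂ (HH →L[ℂ] HH) r) v = r • v := rfl
    rw [this]
    exact Submodule.smul_mem _ _ hv
  | add S T _ _ hS hT =>
    intro v hv
    exact Submodule.add_mem _ (hS v hv) (hT v hv)
  | mul S T _ _ hS hT =>
    intro v hv
    exact hS _ (hT v hv)

/-- the trace vector -/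
noncomputable def Om : HH := bb (∅, ∅)

theorem bb_Vm {m : ℕ} {a b : Finset ℕ} (h : m ∈ a ∨ m ∈ b) : bb (a, b) ∈ Vm m := by
  intro a' b' ha hb
  refine bb.orthonormal.2 fun hh => ?_
  have h1 : a' = a := congrArg Prod.fst hh
  have h2 : b' = b := congrArg Prod.snd hh
  subst h1
  subst h2
  rcases h with h | h
  · exact lt_irrefl _ (ha m h)
  · exact lt_irrefl _ (hb m h)

theorem inner_Om {m : ℕ} {v : HH} (hv : v ∈ Vm m) : ⟪Om, v⟫_ℂ = 0 :=
  hv ∅ ∅ (by simp) (by simp)

theorem tog_empty (m : ℕ) : m ∈ tog m ∅ := mem_tog_self.2 (by simp)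

theorem e_tr (m : ℕ) (T : HH →L[ℂ] HH)
    (hT : T ∈ Algebra.adjoin ℂ {T | ∃ k < m, ∃ i j, T = e k i j}) (i j : Bool) :
    ⟪Om, T (e m i j Om)⟫_ℂ = (if i = j then (2 : ℂ)⁻¹ else 0) * ⟪Om, T Om⟫_ℂ := by
  have hZ : Z m Om ∈ Vm m := by
    rw [Om, Z_apply]
    exact Submodule.smul_mem _ _ (bb_Vm (Or.inr (tog_empty m)))
  have hX : X m Om ∈ Vm m := by
    rw [Om, X_apply]
    exact bb_Vm (Or.inl (tog_empty m))
  have hZX : Z m (X m Om) ∈ Vm m := by
    rw [Om, X_apply, Z_apply]
    exact Submodule.smul_mem _ _ (bb_Vm (Or.inl (tog_empty m)))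
  have hP : ∀ v, P m i v = (2 : ℂ)⁻¹ • (v + bs i • Z m v) := fun v => rfl
  by_cases h : i = j
  · subst h
    have : e m i i Om = (2 : ℂ)⁻¹ • (Om + bs i • Z m Om) := by
      unfold e; rw [if_pos rfl]; exact hP _
    rw [this, map_smul, map_add, map_smul, inner_smul_right, inner_add_right, inner_smul_right,
      inner_Om (T_Vm hT _ hZ), mul_zero, add_zero, if_pos rfl]
  · have : e m i j Om = (2 : ℂ)⁻¹ • (X m Om + bs i • Z m (X m Om)) := by
      unfold e; rw [if_neg h]; exact hP _
    rw [this, map_smul, map_add, map_smul, inner_smul_right, inner_add_right, inner_smul_right,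
      inner_Om (T_Vm hT _ hZX), inner_Om (T_Vm hT _ hX), mul_zero, add_zero, mul_zero,
      if_neg h, zero_mul]

theorem e_cyclic : Dense {v : HH | ∃ T ∈ Algebra.adjoin ℂ {T | ∃ k i j, T = e k i j},
    v = T Om} := by
  have hXm : ∀ k, X k ∈ Algebra.adjoin ℂ {T | ∃ k i j, T = e k i j} := by
    intro k
    have : X k = e k false true + e k true false := by
      simp only [e, P, bs, Bool.false_eq_true, if_false, if_true, reduceCtorEq]
      rw [← add_mul, ← smul_add, show (1 : HH →L[ℂ] HH) + (1 : ℂ) • Z k + (1 + (-1 : ℂ) • Z k) =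
        (2 : ℂ) • 1 by
        rw [two_smul, one_smul, neg_smul, one_smul]; abel, smul_smul]
      norm_num
    rw [this]
    exact Subalgebra.add_mem _ (Algebra.subset_adjoin ⟨k, _, _, rfl⟩)
      (Algebra.subset_adjoin ⟨k, _, _, rfl⟩)
  have hZm : ∀ k, Z k ∈ Algebra.adjoin ℂ {T | ∃ k i j, T = e k i j} := by
    intro k
    have : Z k = e k false false - e k true true := by
      simp only [e, P, bs, Bool.false_eq_true, if_false, if_true]
      module
    rw [this]
    exact Subalgebra.sub_mem _ (Algebra.subset_adjoin ⟨k, _, _, rfl⟩)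
      (Algebra.subset_adjoin ⟨k, _, _, rfl⟩)
  set W : Submodule ℂ HH :=
    { carrier := {v : HH | ∃ T ∈ Algebra.adjoin ℂ {T | ∃ k i j, T = e k i j}, v = T Om}
      add_mem' := by
        rintro _ _ ⟨S, hS, rfl⟩ ⟨T, hT, rfl⟩
        exact ⟨S + T, Subalgebra.add_mem _ hS hT, rfl⟩
      zero_mem' := ⟨0, Subalgebra.zero_mem _, rfl⟩
      smul_mem' := by
        rintro c _ ⟨T, hT, rfl⟩
        exact ⟨c • T, Subalgebra.smul_mem _ hT c, rfl⟩ } with hW
  have hstep : ∀ S ∈ Algebra.adjoin ℂ {T | ∃ k i j, T = e k i j}, ∀ v ∈ W, S v ∈ W := by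
    rintro S hS _ ⟨T, hT, rfl⟩
    exact ⟨S * T, Subalgebra.mul_mem _ hS hT, rfl⟩
  have htog : ∀ (k : ℕ) (a : Finset ℕ), k ∉ a → tog k a = insert k a := by
    intro k a hk
    ext l
    by_cases h : k = l
    · subst h
      simp [mem_tog_self, hk]
    · simp [mem_tog h, Ne.symm h]
  have hmem : ∀ a b : Finset ℕ, bb (a, b) ∈ W := by
    intro a
    induction a using Finset.induction_on with
    | empty =>
      intro b
      induction b using Finset.induction_on with
      | empty => exact ⟨1, Subalgebra.one_mem _, rfl⟩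
      | insert k b hk ih =>
        have h1 := hstep _ (hZm k) _ ih
        rw [Z_apply, htog k b hk] at h1
        simpa [sg] using h1
    | insert k a hk ih =>
      intro b
      have h1 := hstep _ (hXm k) _ (ih b)
      rw [X_apply, htog k a hk] at h1
      exact h1
  have hle : Submodule.span ℂ (Set.range bb) ≤ W := by
    rw [Submodule.span_le]
    rintro _ ⟨⟨a, b⟩, rfl⟩
    exact hmem a b
  exact (Submodule.dense_iff_topologicalClosure_eq_top.2 bb.dense_span).mono hle

/-- the system of matrix units -/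
noncomputable def units : Units HH where
  e := e
  mul := e_mul
  sum := e_sum
  star_e := e_star
  comm := fun _ _ i j i' j' h => e_comm h i j i' j'
  Ω := Om
  Ω_norm := bb.orthonormal.1 _
  tr := e_tr
  cyclic := e_cyclic

end InstB_aux

variable {H : Type} [NormedAddCommGroup H] [InnerProductSpace ℂ H] [CompleteSpace H]

theorem exists_units : ∃ (H : Type) (_ : NormedAddCommGroup H) (_ : InnerProductSpace ℂ H)
    (_ : CompleteSpace H), Nonempty (Units H) :=
  ⟨InstB_aux.HH, inferInstance, inferInstance, inferInstance, ⟨InstB_aux.units⟩⟩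

end Crest.Agent.R120
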