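import Crest.Agent.R120.L1

/-!
# R120 piece L2: the trace

`tr_mul_comm`: common level + `Matrix.trace_mul_comm`.
`norm_mul_Ω_le`: `‖x b Ω‖² = tr(b* x* x b) = tr(x* x b b*) = tr (x b b* x*) ` `= ‖b* x* Ω‖²`
`≤ ‖b‖² ‖x* Ω‖² = ‖b‖² ‖x Ω‖²`.
`tendsto_zero`: `p_n b Ω → 0` by `norm_mul_Ω_le`, `M Ω` is dense and `p_n` is bounded.
-/

set_option autoImplicit false
open scoped ComplexOrder InnerProductSpace Topology
open Filter

namespace Crest.Agent.R120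

variable {H : Type} [NormedAddCommGroup H] [InnerProductSpace ℂ H] [CompleteSpace H]

theorem tr_mul_comm (B : Base H) {x y : H →L[ℂ] H} (hx : x ∈ B.M) (hy : y ∈ B.M) :
    B.tr (x * y) = B.tr (y * x) := by
  obtain ⟨m, x', rfl⟩ := hx
  obtain ⟨n, y', rfl⟩ := hy
  obtain ⟨x'', hx''⟩ := B.exists_up (le_max_left m n) x'
  obtain ⟨y'', hy''⟩ := B.exists_up (le_max_right m n) y'
  unfold Base.tr
  rw [← hx'', ← hy'', ← map_mul, ← map_mul, B.tr_eq, B.tr_eq, Matrix.trace_mul_comm]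

theorem tr_star_mul_self (B : Base H) (T : H →L[ℂ] H) :
    B.tr (star T * T) = ((‖T B.Ω‖ ^ 2 : ℝ) : ℂ) := by
  unfold Base.tr
  rw [ContinuousLinearMap.mul_apply, ContinuousLinearMap.star_eq_adjoint,
    ContinuousLinearMap.adjoint_inner_right, inner_self_eq_norm_sq_to_K]
  push_cast
  rfl

theorem norm_star_Ω (B : Base H) {x : H →L[ℂ] H} (hx : x ∈ B.M) :
    ‖star x B.Ω‖ = ‖x B.Ω‖ := by
  have h1 := tr_star_mul_self B (star x)
  rw [star_star, tr_mul_comm B hx (star_mem hx), tr_star_mul_self] at h1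
  have h2 : ‖x B.Ω‖ ^ 2 = ‖star x B.Ω‖ ^ 2 := by exact_mod_cast h1
  exact ((sq_eq_sq₀ (norm_nonneg _) (norm_nonneg _)).mp h2).symm

theorem norm_mul_Ω_le (B : Base H) {x b : H →L[ℂ] H} (hx : x ∈ B.M) (hb : b ∈ B.M) :
    ‖x (b B.Ω)‖ ≤ ‖b‖ * ‖x B.Ω‖ := by
  have h1 : x (b B.Ω) = (x * b) B.Ω := rfl
  rw [h1, ← norm_star_Ω B (mul_mem hx hb), star_mul, ContinuousLinearMap.mul_apply,
    ← norm_star_Ω B hx, ← norm_star b]
  exact ContinuousLinearMap.le_opNorm _ _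

theorem tendsto_zero (B : Base H) (p : ℕ → H →L[ℂ] H) (hp : ∀ n, p n ∈ B.M) {C : ℝ}
    (hC : ∀ n, ‖p n‖ ≤ C) (h0 : Tendsto (fun n => ‖p n B.Ω‖) atTop (𝓝 0)) (v : H) :
    Tendsto (fun n => p n v) atTop (𝓝 0) := by
  rw [Metric.tendsto_atTop]
  intro ε hε
  have hC0 : 0 ≤ C := (norm_nonneg _).trans (hC 0)
  obtain ⟨w, ⟨m, x, rfl⟩, hw⟩ := Metric.mem_closure_iff.mp (B.cyclic v) (ε / (2 * (C + 1)))
    (by positivity)
  set b := B.φ m x with hb
  have hbM : b ∈ B.M := ⟨m, x, rfl⟩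
  obtain ⟨N, hN⟩ := Metric.tendsto_atTop.mp h0 (ε / (2 * (‖b‖ + 1))) (by positivity)
  refine ⟨N, fun n hn => ?_⟩
  have h1 := hN n hn
  rw [Real.dist_eq, sub_zero, abs_of_nonneg (norm_nonneg _)] at h1
  rw [dist_zero_right]
  have h2 : p n v = p n (v - b B.Ω) + p n (b B.Ω) := by rw [← map_add, sub_add_cancel]
  have h3 : ‖p n (v - b B.Ω)‖ ≤ C * (ε / (2 * (C + 1))) := by
    refine (ContinuousLinearMap.le_opNorm _ _).trans ?_
    rw [dist_eq_norm] at hw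
    exact mul_le_mul (hC n) hw.le (norm_nonneg _) hC0
  have h4 : ‖p n (b B.Ω)‖ ≤ ‖b‖ * (ε / (2 * (‖b‖ + 1))) :=
    (norm_mul_Ω_le B (hp n) hbM).trans (mul_le_mul_of_nonneg_left h1.le (norm_nonneg _))
  have h5 : C * (ε / (2 * (C + 1))) < ε / 2 := by
    rw [mul_div_assoc', div_lt_div_iff₀ (by positivity) (by positivity)]
    nlinarith
  have h6 : ‖b‖ * (ε / (2 * (‖b‖ + 1))) < ε / 2 := by
    have := norm_nonneg b
    rw [mul_div_assoc', div_lt_div_iff₀ (by positivity) (by positivity)]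
    nlinarith
  rw [h2]
  refine (norm_add_le _ _).trans_lt ?_
  linarith

theorem norm_proj_le {p : H →L[ℂ] H} (hp : IsStarProjection p) : ‖p‖ ≤ 1 := by
  have h1 : ‖p‖ * ‖p‖ = ‖p‖ := by
    rw [← CStarRing.norm_star_mul_self (x := p), hp.isSelfAdjoint.star_eq, hp.isIdempotentElem.eq]
  have h2 := norm_nonneg p
  nlinarith

theorem E_tendsto (B : Base H) (v : H) : Tendsto (fun n => B.E n v) atTop (𝓝 0) := by
  apply tendsto_zero B B.E (E_mem B) (fun n => norm_proj_le (E_proj B n))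
  have h1 : ∀ n, ‖B.E n B.Ω‖ = Real.sqrt ((1 / 2 : ℝ) ^ n) := by
    intro n
    rw [← E_tr B n, Real.sqrt_sq (norm_nonneg _)]
  simp_rw [h1]
  have h2 : Tendsto (fun n : ℕ => (1 / 2 : ℝ) ^ n) atTop (𝓝 0) :=
    tendsto_pow_atTop_nhds_zero_of_lt_one (by norm_num) (by norm_num)
  have h3 := (Real.continuous_sqrt.tendsto 0).comp h2
  rw [Real.sqrt_zero] at h3
  exact h3

theorem e_tendsto (B : Base H) (d : Datum B) (v : H) :
    Tendsto (fun n => d.e n v) atTop (𝓝 0) := by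
  apply tendsto_zero B d.e d.e_mem (fun n => norm_proj_le (d.e_proj n))
  have h1 : ∀ n, ‖d.e n B.Ω‖ = Real.sqrt ((1 / 2 : ℝ) ^ d.k n) := by
    intro n
    rw [← d.e_tr n, Real.sqrt_sq (norm_nonneg _)]
  simp_rw [h1]
  have h2 : Tendsto (fun n : ℕ => (1 / 2 : ℝ) ^ n) atTop (𝓝 0) :=
    tendsto_pow_atTop_nhds_zero_of_lt_one (by norm_num) (by norm_num)
  have h3 := (Real.continuous_sqrt.tendsto 0).comp (h2.comp d.k_mono.tendsto_atTop)
  rw [Real.sqrt_zero] at h3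
  exact h3

end Crest.Agent.R120
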