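import Crest.Agent.R120.L1

/-!
# R120 piece MatP: projections in matrix algebras

`proj_diag`: a star projection is Hermitian, eigenvalues are 0 or 1 (spectral theorem).
`exists_between`: `q - p` is a projection, `= U 1_S U*`; take `S' ⊆ S` with
`|S'| = r - tr p`, `e = p + U 1_{S'} U*`.
`exists_partial`: `p = U 1_S U*`, `q = V 1_T V*`, bijection `S ≃ T`, `v = V (∑ e_{τ(i) i}) U*`.
`M`-versions: common level `m ≥ k`, `‖pΩ‖² = tr(p) = 2^{-m} trace`.
-/

set_option autoImplicit false
open scoped ComplexOrder InnerProductSpace Topology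
open Filter

namespace Crest.Agent.R120

variable {H : Type} [NormedAddCommGroup H] [InnerProductSpace ℂ H] [CompleteSpace H]

theorem proj_diag {n : Type} [Fintype n] [DecidableEq n] {p : Matrix n n ℂ}
    (hp : IsStarProjection p) : ∃ (U : Matrix n n ℂ) (S : Finset n), star U * U = 1 ∧
      U * star U = 1 ∧ p = U * Matrix.diagonal (fun i => if i ∈ S then 1 else 0) * star U ∧
      p.trace = (S.card : ℂ) := by
  classical
  have hH : p.IsHermitian := hp.isSelfAdjoint
  set U : Matrix n n ℂ := (hH.eigenvectorUnitary : Matrix n n ℂ) with hU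
  have hU1 : star U * U = 1 := Unitary.coe_star_mul_self hH.eigenvectorUnitary
  have hU2 : U * star U = 1 := Unitary.coe_mul_star_self hH.eigenvectorUnitary
  have hs : p = U * Matrix.diagonal (RCLike.ofReal ∘ hH.eigenvalues) * star U := by
    have := hH.spectral_theorem
    rw [Unitary.conjStarAlgAut_apply] at this
    exact this
  have hD : star U * p * U = Matrix.diagonal ((RCLike.ofReal : ℝ → ℂ) ∘ hH.eigenvalues) := by
    conv_lhs => rw [hs]
    calc star U * (U * Matrix.diagonal (RCLike.ofReal ∘ hH.eigenvalues) * star U) * U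
        = (star U * U) * Matrix.diagonal (RCLike.ofReal ∘ hH.eigenvalues) * (star U * U) := by
          simp only [mul_assoc]
      _ = _ := by rw [hU1, one_mul, mul_one]
  have hD2 : Matrix.diagonal ((RCLike.ofReal : ℝ → ℂ) ∘ hH.eigenvalues) *
      Matrix.diagonal ((RCLike.ofReal : ℝ → ℂ) ∘ hH.eigenvalues) =
      Matrix.diagonal ((RCLike.ofReal : ℝ → ℂ) ∘ hH.eigenvalues) := by
    rw [← hD]
    calc star U * p * U * (star U * p * U) = star U * p * (U * star U) * p * U := by
          simp only [mul_assoc]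
      _ = star U * (p * p) * U := by rw [hU2, mul_one]; simp only [mul_assoc]
      _ = star U * p * U := by rw [hp.isIdempotentElem.eq]
  have hev : ∀ i, hH.eigenvalues i = 0 ∨ hH.eigenvalues i = 1 := by
    intro i
    rw [Matrix.diagonal_mul_diagonal] at hD2
    have h1 := congrFun (congrFun hD2 i) i
    rw [Matrix.diagonal_apply_eq, Matrix.diagonal_apply_eq] at h1
    simp only [Function.comp_apply] at h1
    have h2 : (hH.eigenvalues i) * (hH.eigenvalues i) = hH.eigenvalues i := by
      have : (((hH.eigenvalues i) * (hH.eigenvalues i) : ℝ) : ℂ) = ((hH.eigenvalues i : ℝ) : ℂ) := by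
        push_cast
        exact h1
      exact Complex.ofReal_injective this
    have h3 : (hH.eigenvalues i) * (hH.eigenvalues i - 1) = 0 := by linarith
    rcases mul_eq_zero.1 h3 with h | h
    · exact Or.inl h
    · exact Or.inr (by linarith)
  have hdiag : Matrix.diagonal ((RCLike.ofReal : ℝ → ℂ) ∘ hH.eigenvalues) =
      Matrix.diagonal (fun i => if i ∈ Finset.univ.filter (fun i => hH.eigenvalues i = 1)
        then (1 : ℂ) else 0) := by
    congr 1
    funext i
    simp only [Function.comp_apply, Finset.mem_filter, Finset.mem_univ, true_and]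
    rcases hev i with h | h <;> simp [h]
  refine ⟨U, Finset.univ.filter (fun i => hH.eigenvalues i = 1), hU1, hU2, ?_, ?_⟩
  · rw [← hdiag]; exact hs
  · have h1 : p.trace = (star U * p * U).trace := by
      rw [mul_assoc, Matrix.trace_mul_comm, mul_assoc, hU2, mul_one]
    rw [h1, hD, hdiag, Matrix.trace_diagonal]
    simp

theorem trace_star_mul_self_eq_zero {n : Type} [Fintype n] [DecidableEq n] {x : Matrix n n ℂ}
    (h : (star x * x).trace = 0) : x = 0 := by
  rw [Matrix.star_eq_conjTranspose] at h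
  exact Matrix.trace_conjTranspose_mul_self_eq_zero_iff.1 h

theorem phi_injective (B : Base H) (m : ℕ) : Function.Injective (B.φ m) := by
  rw [injective_iff_map_eq_zero]
  intro x hx
  have h1 := B.tr_eq m (star x * x)
  rw [map_mul, hx, mul_zero] at h1
  have h2 : (star x * x).trace = 0 := by
    have h3 : ⟪B.Ω, (0 : H →L[ℂ] H) B.Ω⟫_ℂ = 0 := by simp
    rw [h3] at h1
    have h4 : ((2 : ℂ) ^ m)⁻¹ ≠ 0 := inv_ne_zero (pow_ne_zero _ two_ne_zero)
    rcases mul_eq_zero.1 h1.symm with h | h
    · exact absurd h h4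
    · exact h
  exact trace_star_mul_self_eq_zero h2

theorem norm_phi_Ω (B : Base H) (m : ℕ) (x : Mx m) :
    ((‖B.φ m x B.Ω‖ ^ 2 : ℝ) : ℂ) = ((2 : ℂ) ^ m)⁻¹ * (star x * x).trace := by
  rw [← B.tr_eq, map_mul, map_star]
  have h1 : ⟪B.Ω, (star (B.φ m x) * B.φ m x) B.Ω⟫_ℂ = ⟪B.φ m x B.Ω, B.φ m x B.Ω⟫_ℂ := by
    exact ContinuousLinearMap.adjoint_inner_right (B.φ m x) B.Ω (B.φ m x B.Ω)
  rw [h1, inner_self_eq_norm_sq_to_K (𝕜 := ℂ)]
  push_cast
  rfl

theorem norm_proj_Ω (B : Base H) (m : ℕ) {x : Mx m} (hx : IsStarProjection x) {c : ℕ}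
    (hc : x.trace = (c : ℂ)) :
    ‖B.φ m x B.Ω‖ ^ 2 = (1 / 2 : ℝ) ^ m * c := by
  have h := norm_phi_Ω B m x
  rw [hx.isSelfAdjoint.star_eq, hx.isIdempotentElem.eq, hc] at h
  have h2 : ((‖B.φ m x B.Ω‖ ^ 2 : ℝ) : ℂ) = (((1 / 2 : ℝ) ^ m * c : ℝ) : ℂ) := by
    rw [h]
    push_cast
    rw [one_div, inv_pow]
  exact Complex.ofReal_injective h2

theorem proj_of_phi (B : Base H) (m : ℕ) {x : Mx m} (hx : IsStarProjection (B.φ m x)) :
    IsStarProjection x := by
  refine ⟨?_, ?_⟩
  · apply phi_injective B m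
    rw [map_mul]
    exact hx.isIdempotentElem.eq
  · apply phi_injective B m
    rw [map_star]
    exact hx.isSelfAdjoint.star_eq

theorem phi_proj (B : Base H) (m : ℕ) {x : Mx m} (hx : IsStarProjection x) :
    IsStarProjection (B.φ m x) := by
  refine ⟨?_, ?_⟩
  · unfold IsIdempotentElem
    rw [← map_mul, hx.isIdempotentElem.eq]
  · unfold IsSelfAdjoint
    rw [← map_star, hx.isSelfAdjoint.star_eq]

theorem diag_proj {n : Type} [Fintype n] [DecidableEq n] {U : Matrix n n ℂ}
    (hU : star U * U = 1) (S : Finset n) :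
    IsStarProjection (U * Matrix.diagonal (fun i => if i ∈ S then (1 : ℂ) else 0) * star U) := by
  refine ⟨?_, ?_⟩
  · unfold IsIdempotentElem
    set D := Matrix.diagonal (fun i => if i ∈ S then (1 : ℂ) else 0) with hD
    have hDD : D * D = D := by
      rw [hD, Matrix.diagonal_mul_diagonal]
      congr 1
      funext i
      by_cases h : i ∈ S <;> simp [h]
    calc U * D * star U * (U * D * star U) = U * D * (star U * U) * D * star U := by
          simp only [mul_assoc]
      _ = U * (D * D) * star U := by rw [hU, mul_one]; simp only [mul_assoc]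
      _ = U * D * star U := by rw [hDD]
  · unfold IsSelfAdjoint
    rw [star_mul, star_mul, star_star]
    have : star (Matrix.diagonal (fun i => if i ∈ S then (1 : ℂ) else 0)) =
        Matrix.diagonal (fun i => if i ∈ S then (1 : ℂ) else 0) := by
      rw [Matrix.star_eq_conjTranspose, Matrix.diagonal_conjTranspose]
      congr 1
      funext i
      by_cases h : i ∈ S <;> simp [h]
    rw [this, mul_assoc]

theorem trace_diag {n : Type} [Fintype n] [DecidableEq n] {U : Matrix n n ℂ}
    (hU : star U * U = 1) (S : Finset n) :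
    (U * Matrix.diagonal (fun i => if i ∈ S then (1 : ℂ) else 0) * star U).trace =
      (S.card : ℂ) := by
  rw [Matrix.trace_mul_comm, ← mul_assoc, hU, one_mul, Matrix.trace_diagonal]
  simp

theorem exists_between (B : Base H) {p q : H →L[ℂ] H} (hpM : p ∈ B.M) (hqM : q ∈ B.M)
    (hp : IsStarProjection p) (hq : IsStarProjection q) (hqp : q * p = p) (k : ℕ)
    (h₁ : ‖p B.Ω‖ ^ 2 ≤ (1 / 2 : ℝ) ^ k) (h₂ : (1 / 2 : ℝ) ^ k ≤ ‖q B.Ω‖ ^ 2) :
    ∃ e ∈ B.M, IsStarProjection e ∧ q * e = e ∧ e * p = p ∧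
      ‖e B.Ω‖ ^ 2 = (1 / 2 : ℝ) ^ k := by
  obtain ⟨m, hkm, x, hx⟩ := common_level B (fun b : Bool => if b then p else q)
    (by intro b; cases b <;> simp [hpM, hqM]) k
  have hxp : B.φ m (x true) = p := by simpa using hx true
  have hxq : B.φ m (x false) = q := by simpa using hx false
  set P := x true with hPdef
  set Q := x false with hQdef
  have hP : IsStarProjection P := proj_of_phi B m (by rw [hxp]; exact hp)
  have hQ : IsStarProjection Q := proj_of_phi B m (by rw [hxq]; exact hq)
  have hQP : Q * P = P := by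
    apply phi_injective B m
    rw [map_mul, hxp, hxq, hqp]
  have hPQ : P * Q = P := by
    have := congrArg star hQP
    rwa [star_mul, hP.isSelfAdjoint.star_eq, hQ.isSelfAdjoint.star_eq] at this
  have hR : IsStarProjection (Q - P) := by
    refine ⟨?_, ?_⟩
    · unfold IsIdempotentElem
      rw [sub_mul, mul_sub, mul_sub, hQP, hPQ, hP.isIdempotentElem.eq, hQ.isIdempotentElem.eq]
      simp
    · unfold IsSelfAdjoint
      rw [star_sub, hP.isSelfAdjoint.star_eq, hQ.isSelfAdjoint.star_eq]
  obtain ⟨_, T, _, _, _, hPtr⟩ := proj_diag hP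
  obtain ⟨U, S, hU1, hU2, hRU, hRtr⟩ := proj_diag hR
  have hQtr : Q.trace = ((T.card + S.card : ℕ) : ℂ) := by
    rw [Matrix.trace_sub, hPtr] at hRtr
    push_cast
    rw [← hRtr]
    ring
  have hpn : ‖p B.Ω‖ ^ 2 = (1 / 2 : ℝ) ^ m * T.card := by
    rw [← hxp]; exact norm_proj_Ω B m hP hPtr
  have hqn : ‖q B.Ω‖ ^ 2 = (1 / 2 : ℝ) ^ m * (T.card + S.card : ℕ) := by
    rw [← hxq]; exact norm_proj_Ω B m hQ hQtr
  have hk2 : (1 / 2 : ℝ) ^ k = (1 / 2 : ℝ) ^ m * ((2 ^ (m - k) : ℕ) : ℝ) := by
    have : m = k + (m - k) := by omega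
    conv_rhs => rw [this]
    rw [pow_add]
    push_cast
    have h5 : (1 / 2 : ℝ) ^ (m - k) * 2 ^ (m - k) = 1 := by
      rw [← mul_pow]; norm_num
    have : k + (m - k) - k = m - k := by omega
    rw [this, mul_assoc, h5, mul_one]
  have hpos : (0 : ℝ) < (1 / 2 : ℝ) ^ m := by positivity
  have hT : T.card ≤ 2 ^ (m - k) := by
    rw [hpn, hk2] at h₁
    exact_mod_cast le_of_mul_le_mul_left h₁ hpos
  have hTS : 2 ^ (m - k) ≤ T.card + S.card := by
    rw [hqn, hk2] at h₂
    exact_mod_cast le_of_mul_le_mul_left h₂ hpos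
  obtain ⟨S', hS'S, hS'⟩ := Finset.exists_subset_card_eq
    (show 2 ^ (m - k) - T.card ≤ S.card by omega)
  set F := U * Matrix.diagonal (fun i => if i ∈ S' then (1 : ℂ) else 0) * star U with hF
  have hFp : IsStarProjection F := diag_proj hU1 S'
  have hRF : (Q - P) * F = F := by
    rw [hRU, hF]
    calc U * Matrix.diagonal (fun i => if i ∈ S then (1 : ℂ) else 0) * star U *
          (U * Matrix.diagonal (fun i => if i ∈ S' then (1 : ℂ) else 0) * star U)
        = U * (Matrix.diagonal (fun i => if i ∈ S then (1 : ℂ) else 0) * (star U * U) *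
          Matrix.diagonal (fun i => if i ∈ S' then (1 : ℂ) else 0)) * star U := by
          simp only [mul_assoc]
      _ = _ := by
        rw [hU1, mul_one, Matrix.diagonal_mul_diagonal]
        congr 2
        congr 1
        funext i
        by_cases h : i ∈ S'
        · simp [h, hS'S h]
        · simp [h]
  have hPR : P * (Q - P) = 0 := by
    rw [mul_sub, hPQ, hP.isIdempotentElem.eq, sub_self]
  have hQR : Q * (Q - P) = Q - P := by
    rw [mul_sub, hQP, hQ.isIdempotentElem.eq]
  have hPF : P * F = 0 := by rw [← hRF, ← mul_assoc, hPR, zero_mul]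
  have hFP : F * P = 0 := by
    have := congrArg star hPF
    rwa [star_mul, hP.isSelfAdjoint.star_eq, hFp.isSelfAdjoint.star_eq, star_zero] at this
  have hQF : Q * F = F := by
    rw [← hRF, ← mul_assoc, hQR]
  have hE : IsStarProjection (P + F) := by
    refine ⟨?_, ?_⟩
    · unfold IsIdempotentElem
      rw [add_mul, mul_add, mul_add, hPF, hFP, hP.isIdempotentElem.eq, hFp.isIdempotentElem.eq]
      simp
    · unfold IsSelfAdjoint
      rw [star_add, hP.isSelfAdjoint.star_eq, hFp.isSelfAdjoint.star_eq]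
  refine ⟨B.φ m (P + F), ⟨m, _, rfl⟩, phi_proj B m hE, ?_, ?_, ?_⟩
  · rw [← hxq, ← map_mul, mul_add, hQP, hQF]
  · rw [← hxp, ← map_mul, add_mul, hP.isIdempotentElem.eq, hFP, add_zero]
  · have htr : (P + F).trace = ((2 ^ (m - k) : ℕ) : ℂ) := by
      rw [Matrix.trace_add, hPtr, hF, trace_diag hU1, hS', ← Nat.cast_add]
      congr 1
      omega
    rw [norm_proj_Ω B m hE htr, hk2]

end Crest.Agent.R120
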