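import Crest.Agent.R120.L2

/-!
# R120 piece Rgt: right multiplications

Right multiplication `x Ω ↦ x b Ω` is well defined and bounded by `norm_mul_Ω_le` on the dense
subspace `M Ω` (`B.cyclic`); extend by continuity (e.g. `ContinuousLinearMap.extend` for the
inclusion of the submodule `{v | ∃ x ∈ M, v = x Ω}`). Commutation on the dense subspace.
-/

set_option autoImplicit false
open scoped ComplexOrder InnerProductSpace Topology
open Filter

namespace Crest.Agent.R120

variable {H : Type} [NormedAddCommGroup H] [InnerProductSpace ℂ H] [CompleteSpace H]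

theorem exists_right (B : Base H) {b : H →L[ℂ] H} (hb : b ∈ B.M) :
    ∃ R : H →L[ℂ] H, (∀ x ∈ B.M, R (x B.Ω) = x (b B.Ω)) ∧ ∀ x ∈ B.M, R * x = x * R := by
  let ev : H → (B.M →ₗ[ℂ] H) := fun w =>
    { toFun := fun x => (x : H →L[ℂ] H) w
      map_add' := fun x y => rfl
      map_smul' := fun c x => rfl }
  have hdense : DenseRange (ev B.Ω) := by
    have h := B.cyclic
    refine h.mono ?_
    rintro v ⟨m, x, rfl⟩
    exact ⟨⟨B.φ m x, m, x, rfl⟩, rfl⟩
  have hnorm : ∃ C, ∀ x, ‖ev (b B.Ω) x‖ ≤ C * ‖ev B.Ω x‖ :=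
    ⟨‖b‖, fun x => norm_mul_Ω_le B x.2 hb⟩
  refine ⟨(ev (b B.Ω)).extendOfNorm (ev B.Ω), ?_, ?_⟩
  · intro x hx
    exact LinearMap.extendOfNorm_eq hdense hnorm ⟨x, hx⟩
  · intro x hx
    have hR : ∀ y ∈ B.M, (ev (b B.Ω)).extendOfNorm (ev B.Ω) (y B.Ω) = y (b B.Ω) :=
      fun y hy => LinearMap.extendOfNorm_eq hdense hnorm ⟨y, hy⟩
    set R := (ev (b B.Ω)).extendOfNorm (ev B.Ω) with hRdef
    have hcont : (fun v => (R * x) v) = fun v => (x * R) v := by
      apply Continuous.ext_on hdense (R * x).continuous (x * R).continuous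
      rintro _ ⟨y, rfl⟩
      show R (x ((y : H →L[ℂ] H) B.Ω)) = x (R ((y : H →L[ℂ] H) B.Ω))
      have h1 := hR (x * y) (B.M.mul_mem hx y.2)
      have h2 := hR y y.2
      rw [h2]
      exact h1
    ext v
    exact congrFun hcont v

end Crest.Agent.R120
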