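import Crest.Agent.R120.Defs

/-!
# R120 piece Schur: the commutant of an irreducible star-closed set of operators is scalar

First `T = T*`: if the real spectrum had two points `a ≠ b` take continuous `f, g ≥ 0` with
`f g = 0`, `f(a) ≠ 0`, `g(b) ≠ 0`; `cfc f T ≠ 0`, `cfc g T ≠ 0`, product `0`, both commute with
`S` (`Commute.cfc` or polynomials); the kernel of `cfc f T` is closed, `S`-invariant, not `⊤`, and
contains the range of `cfc g T`, so is not `⊥`. Contradiction, so `T` is scalar. In general split
`T` in real and imaginary part (`star T` also commutes with `S`).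
-/

set_option autoImplicit false
open scoped ComplexOrder InnerProductSpace Topology
open Filter

namespace Crest.Agent.R120

variable {H : Type} [NormedAddCommGroup H] [InnerProductSpace ℂ H] [CompleteSpace H]

theorem schur_sa {K : Type} [NormedAddCommGroup K] [InnerProductSpace ℂ K] [CompleteSpace K]
    [Nontrivial K]
    (S : Set (K →L[ℂ] K))
    (hirr : ∀ V : Submodule ℂ K, IsClosed (V : Set K) → (∀ a ∈ S, ∀ v ∈ V, a v ∈ V) →
      V = ⊥ ∨ V = ⊤) (T : K →L[ℂ] K) (hsa : IsSelfAdjoint T) (hT : ∀ a ∈ S, T * a = a * T) :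
    ∃ c : ℂ, T = c • (1 : K →L[ℂ] K) := by
  have hne : (spectrum ℝ T).Nonempty := ContinuousFunctionalCalculus.spectrum_nonempty T hsa
  obtain ⟨a, ha⟩ := hne
  by_cases hb : ∃ b ∈ spectrum ℝ T, b ≠ a
  · exfalso
    obtain ⟨b, hb, hba⟩ := hb
    set d : ℝ := |a - b| / 2 with hd
    have hdpos : 0 < d := by
      have : 0 < |a - b| := abs_pos.mpr (sub_ne_zero.mpr (Ne.symm hba))
      positivity
    set f : ℝ → ℝ := fun x => max 0 (d - |x - a|) with hf
    set g : ℝ → ℝ := fun x => max 0 (d - |x - b|) with hg
    have hfc : Continuous f := by fun_prop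
    have hgc : Continuous g := by fun_prop
    have hfg : ∀ x, f x * g x = 0 := by
      intro x
      by_cases h : d ≤ |x - a|
      · have : f x = 0 := max_eq_left (by linarith)
        rw [this, zero_mul]
      · have h2 : d ≤ |x - b| := by
          have h3 : |a - b| ≤ |x - a| + |x - b| := by
            have := abs_sub_le a x b
            rw [abs_sub_comm a x] at this
            exact this
          have h4 : |a - b| = 2 * d := by rw [hd]; ring
          push Not at h
          linarith
        have : g x = 0 := max_eq_left (by linarith)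
        rw [this, mul_zero]
    have hfa : f a = d := by simp [hf, hdpos.le]
    have hgb : g b = d := by simp [hg, hdpos.le]
    have hmul : cfc f T * cfc g T = 0 := by
      rw [← cfc_mul f g T hfc.continuousOn hgc.continuousOn]
      have : (fun x => f x * g x) = fun _ => (0 : ℝ) := funext hfg
      rw [this]
      simp [cfc_const_zero]
    have hF : cfc f T ≠ 0 := by
      intro h0
      have h1 := cfc_map_spectrum (R := ℝ) f T hsa hfc.continuousOn
      rw [h0, spectrum.zero_eq] at h1
      have : d ∈ ({0} : Set ℝ) := by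
        rw [h1]
        exact ⟨a, ha, hfa⟩
      exact hdpos.ne' this
    have hG : cfc g T ≠ 0 := by
      intro h0
      have h1 := cfc_map_spectrum (R := ℝ) g T hsa hgc.continuousOn
      rw [h0, spectrum.zero_eq] at h1
      have : d ∈ ({0} : Set ℝ) := by
        rw [h1]
        exact ⟨b, hb, hgb⟩
      exact hdpos.ne' this
    have hcomm : ∀ s ∈ S, Commute (cfc f T) s := fun s hs =>
      Commute.cfc_real (show Commute T s from hT s hs) f
    rcases hirr (LinearMap.ker (cfc f T : K →L[ℂ] K).toLinearMap)
      (ContinuousLinearMap.isClosed_ker _) (by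
        intro s hs v hv
        have h1 : (cfc f T * s) v = (s * cfc f T) v := by rw [(hcomm s hs).eq]
        have hv' : (cfc f T) v = 0 := hv
        change (cfc f T) (s v) = 0
        have h2 : (cfc f T) (s v) = s ((cfc f T) v) := h1
        rw [h2, hv', map_zero]) with h | h
    · apply hG
      ext v
      have h1 : (cfc g T) v ∈ LinearMap.ker (cfc f T : K →L[ℂ] K).toLinearMap := by
        change (cfc f T) ((cfc g T) v) = 0
        have : (cfc f T * cfc g T) v = 0 := by rw [hmul]; rfl
        exact this
      rw [h, Submodule.mem_bot] at h1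
      simpa using h1
    · apply hF
      ext v
      have h1 : v ∈ LinearMap.ker (cfc f T : K →L[ℂ] K).toLinearMap := by
        rw [h]; trivial
      exact h1
  · push Not at hb
    refine ⟨(a : ℂ), ?_⟩
    have h1 : cfc (id : ℝ → ℝ) T = cfc (fun _ => a) T :=
      cfc_congr (fun x hx => hb x hx)
    rw [cfc_id ℝ T hsa, cfc_const a T hsa] at h1
    rw [h1, Algebra.algebraMap_eq_smul_one]
    ext v
    simp

theorem schur {K : Type} [NormedAddCommGroup K] [InnerProductSpace ℂ K] [CompleteSpace K]
    (S : Set (K →L[ℂ] K)) (hstar : ∀ a ∈ S, star a ∈ S)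
    (hirr : ∀ V : Submodule ℂ K, IsClosed (V : Set K) → (∀ a ∈ S, ∀ v ∈ V, a v ∈ V) →
      V = ⊥ ∨ V = ⊤) (T : K →L[ℂ] K) (hT : ∀ a ∈ S, T * a = a * T) :
    ∃ c : ℂ, T = c • (1 : K →L[ℂ] K) := by
  rcases subsingleton_or_nontrivial K with hK | hK
  · exact ⟨0, by ext v; exact Subsingleton.elim _ _⟩
  have hTs : ∀ a ∈ S, star T * a = a * star T := by
    intro a ha
    have h := hT (star a) (hstar a ha)
    have h2 := congrArg star h
    simpa [star_mul] using h2.symm
  obtain ⟨c, hc⟩ := schur_sa S hirr (T + star T) (IsSelfAdjoint.add_star_self T) (by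
    intro a ha
    rw [add_mul, mul_add, hT a ha, hTs a ha])
  obtain ⟨c', hc'⟩ := schur_sa S hirr (Complex.I • (T - star T)) (by
    rw [IsSelfAdjoint, star_smul, star_sub, star_star]
    simp only [RCLike.star_def, Complex.conj_I]
    rw [neg_smul, ← smul_neg, neg_sub]) (by
    intro a ha
    rw [smul_mul_assoc, mul_smul_comm, sub_mul, mul_sub, hT a ha, hTs a ha])
  refine ⟨(1/2 : ℂ) * (c - Complex.I * c'), ?_⟩
  have h3 : T - star T = (-Complex.I * c') • (1 : K →L[ℂ] K) := by
    rw [mul_smul, ← hc', smul_smul]
    simp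
  have h4 : T = (1/2 : ℂ) • ((T + star T) + (T - star T)) := by
    module
  rw [h4, hc, h3]
  module

end Crest.Agent.R120
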