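import Crest.Agent.R120.Defs

/-!
# R120 piece SimpA: an idempotent close to its compression of an ideal element is in the ideal

`r = f - f x f`, `‖r‖ ≤ 1/4`, `f r = r = r f`; `f - r^n ∈ J` for all `n ≥ 1` (induction:
`f - r^(n+1) = (f - r^n) + r^n (f - r)`, `f - r = f x f ∈ J`), `r^n → 0`, `J` closed.
-/

set_option autoImplicit false
open scoped ComplexOrder InnerProductSpace Topology
open Filter

namespace Crest.Agent.R120

variable {H : Type} [NormedAddCommGroup H] [InnerProductSpace ℂ H] [CompleteSpace H]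

theorem ideal_mem {A : Type} [CStarAlgebra A] (J : TwoSidedIdeal A) (hJ : IsClosed (J : Set A))
    {f x : A} (hf : f * f = f) (hx : x ∈ J) (h : ‖f - f * x * f‖ ≤ 1 / 4) : f ∈ J := by
  set r := f - f * x * f with hr
  have hfx : f * x * f ∈ J := J.mul_mem_right _ _ (J.mul_mem_left _ _ hx)
  have hrf : r * f = r := by
    rw [hr, sub_mul, hf, mul_assoc (f * x) f f, hf]
  have hmem : ∀ n : ℕ, f - r ^ (n + 1) ∈ J := by
    intro n
    induction n with
    | zero =>
      have : f - r ^ (0 + 1) = f * x * f := by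
        rw [zero_add, pow_one, hr]; abel
      rw [this]; exact hfx
    | succ n ih =>
      have : f - r ^ (n + 1 + 1) = (f - r ^ (n + 1)) + r ^ (n + 1) * (f * x * f) := by
        have h1 : f * x * f = f - r := by rw [hr]; abel
        have h2 : r ^ (n + 1) * f = r ^ (n + 1) := by
          rw [pow_succ, mul_assoc, hrf]
        rw [h1, mul_sub, h2, pow_succ r (n + 1)]
        abel
      rw [this]
      exact J.add_mem ih (J.mul_mem_left _ _ hfx)
  have hlim : Tendsto (fun n : ℕ => f - r ^ (n + 1)) atTop (𝓝 (f - 0)) := by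
    apply Tendsto.sub tendsto_const_nhds
    have h1 : Tendsto (fun n : ℕ => r ^ n) atTop (𝓝 0) :=
      tendsto_pow_atTop_nhds_zero_of_norm_lt_one (lt_of_le_of_lt h (by norm_num))
    exact h1.comp (tendsto_add_atTop_nat 1)
  rw [sub_zero] at hlim
  exact hJ.mem_of_tendsto hlim (Eventually.of_forall hmem)

end Crest.Agent.R120
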