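import Crest.Agent.R120.Trc
import Crest.Agent.R120.Corn
import Crest.Agent.R120.SimpA

/-!
# R120 piece Simp: simplicity of `AA` (assembly)

`J ≠ ⊥`: `0 ≠ x ∈ J`, `a = x* x ∈ J`, `tr a = ‖xΩ‖² > 0` (`AA_faithful`), `exists_corner`,
`ideal_mem` with `x := μ • a`, `one_mem_of_mem`.
-/

set_option autoImplicit false
open scoped ComplexOrder InnerProductSpace Topology
open Filter

namespace Crest.Agent.R120

variable {H : Type} [NormedAddCommGroup H] [InnerProductSpace ℂ H] [CompleteSpace H]

theorem simple {B : Base H} {I : Set (Datum B)} {s : Datum B → (H →L[ℂ] H)}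
    (hs : ∀ i ∈ I, IsSym B i (s i)) (J : TwoSidedIdeal (AA B I s))
    (hJ : IsClosed (J : Set (AA B I s))) : J = ⊥ ∨ J = ⊤ := by
  by_cases hbot : ∀ x ∈ J, x = 0
  · left
    apply TwoSidedIdeal.ext
    intro x
    rw [TwoSidedIdeal.mem_bot]
    constructor
    · intro hx; exact hbot x hx
    · rintro rfl; exact J.zero_mem
  · right
    push Not at hbot
    obtain ⟨x, hxJ, hx0⟩ := hbot
    have hxΩ : (x : H →L[ℂ] H) B.Ω ≠ 0 := by
      intro h0
      exact hx0 (Subtype.ext (AA_faithful hs x.2 h0))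
    have haJ : star x * x ∈ J := J.mul_mem_left _ _ hxJ
    have htr : 0 < (B.tr ((star x * x : AA B I s) : H →L[ℂ] H)).re := by
      have h1 : B.tr ((star x * x : AA B I s) : H →L[ℂ] H) =
          ⟪(x : H →L[ℂ] H) B.Ω, (x : H →L[ℂ] H) B.Ω⟫_ℂ := by
        unfold Base.tr
        have : ((star x * x : AA B I s) : H →L[ℂ] H) =
            ContinuousLinearMap.adjoint (x : H →L[ℂ] H) * (x : H →L[ℂ] H) := rfl
        rw [this, mul_apply_eq_comp, ContinuousLinearMap.adjoint_inner_right]
      rw [h1, inner_self_eq_norm_sq_to_K]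
      have h2 : 0 < ‖(x : H →L[ℂ] H) B.Ω‖ := norm_pos_iff.mpr hxΩ
      norm_cast
      exact pow_pos h2 2
    obtain ⟨m, f, μ, hf, hf0, hle⟩ := exists_corner hs (star x * x : AA B I s).2 htr
    have hF : (⟨B.φ m f, M_le_AA B I s ⟨m, f, rfl⟩⟩ : AA B I s) ∈ J := by
      apply ideal_mem J hJ (x := μ • (star x * x))
      · apply Subtype.ext
        show B.φ m f * B.φ m f = B.φ m f
        rw [← map_mul, hf.isIdempotentElem.eq]
      · have : μ • (star x * x) = (algebraMap ℂ (AA B I s) μ) * (star x * x) := by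
          rw [Algebra.smul_def]
        rw [this]
        exact J.mul_mem_left _ _ haJ
      · refine le_trans (le_of_eq ?_) hle
        show ‖B.φ m f - B.φ m f * (μ • ((star x * x : AA B I s) : H →L[ℂ] H)) * B.φ m f‖ = _
        rw [mul_smul_comm, smul_mul_assoc]
    have h1 := one_mem_of_mem J f hf0 hF
    apply TwoSidedIdeal.ext
    intro y
    constructor
    · intro _; trivial
    · intro _
      have := J.mul_mem_left y 1 h1
      rwa [mul_one] at this

end Crest.Agent.R120
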