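import Crest.Agent.R120.UEb

/-!
# R120 piece StateEq: the vector state of a base vector is determined

`ξ` fixed by all `π(E_n)`: `⟪ξ, π(w) ξ⟫ = ⟪ξ, π(E_n w E_n) ξ⟫` is within `ε` of the `c` of `ue`
(`π` is contractive: `NonUnitalStarAlgHom.norm_apply_le` or similar).
-/

set_option autoImplicit false
open scoped ComplexOrder InnerProductSpace Topology
open Filter

namespace Crest.Agent.R120

variable {H : Type} [NormedAddCommGroup H] [InnerProductSpace ℂ H] [CompleteSpace H]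

theorem StateEq_aux.approx {B : Base H} {I : Set (Datum B)} {s : Datum B → (H →L[ℂ] H)} {K : Type}
    [NormedAddCommGroup K] [InnerProductSpace ℂ K] [CompleteSpace K]
    (π : AA B I s →⋆ₙₐ[ℂ] (K →L[ℂ] K)) (ξ : K) (n₁ : ‖ξ‖ = 1) (n : ℕ)
    (f : π ⟨B.E n, M_le_AA B I s (E_mem B n)⟩ ξ = ξ) (w : AA B I s) (c : ℂ) {ε : ℝ}
    (h : ‖B.E n * w * B.E n - c • B.E n‖ < ε) : ‖⟪ξ, π w ξ⟫_ℂ - c‖ ≤ ε := by
  obtain ⟨p, hp⟩ : ∃ p : AA B I s, p = ⟨B.E n, M_le_AA B I s (E_mem B n)⟩ := ⟨_, rfl⟩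
  rw [← hp] at f
  have hsp : star p = p := by
    apply Subtype.ext
    rw [hp]
    exact (E_proj B n).isSelfAdjoint.star_eq
  have h1 : ⟪ξ, π w ξ⟫_ℂ = ⟪ξ, π (p * w * p) ξ⟫_ℂ := by
    rw [map_mul, map_mul]
    simp only [mul_apply_eq_comp]
    rw [f]
    have hsp' : π p = star (π p) := by rw [← map_star, hsp]
    rw [hsp', ContinuousLinearMap.star_eq_adjoint, ContinuousLinearMap.adjoint_inner_right, f]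
  have h2 : c = ⟪ξ, π (c • p) ξ⟫_ℂ := by
    rw [map_smul, smul_apply, f, inner_smul_right, inner_self_eq_norm_sq_to_K,
      n₁]
    simp
  have h3 : ‖p * w * p - c • p‖ < ε := by
    have : ‖p * w * p - c • p‖ = ‖B.E n * w * B.E n - c • B.E n‖ := by
      rw [hp]; rfl
    rw [this]; exact h
  have h4 : ⟪ξ, π w ξ⟫_ℂ - c = ⟪ξ, π (p * w * p - c • p) ξ⟫_ℂ := by
    rw [map_sub, sub_apply, inner_sub_right, ← h1, ← h2]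
  rw [h4]
  have h5 : ‖π (p * w * p - c • p)‖ ≤ ‖p * w * p - c • p‖ :=
    NonUnitalStarAlgHom.norm_apply_le π _
  calc ‖⟪ξ, π (p * w * p - c • p) ξ⟫_ℂ‖ ≤ ‖ξ‖ * ‖π (p * w * p - c • p) ξ‖ := norm_inner_le_norm _ _
    _ ≤ ‖ξ‖ * (‖π (p * w * p - c • p)‖ * ‖ξ‖) :=
        mul_le_mul_of_nonneg_left (ContinuousLinearMap.le_opNorm _ _) (norm_nonneg _)
    _ = ‖π (p * w * p - c • p)‖ := by rw [n₁]; ring
    _ ≤ ε := h5.trans h3.le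

theorem state_eq {B : Base H} {I : Set (Datum B)} (hI : IsFam B I)
    {s : Datum B → (H →L[ℂ] H)} (hs : ∀ i ∈ I, IsSym B i (s i)) {K₁ K₂ : Type}
    [NormedAddCommGroup K₁] [InnerProductSpace ℂ K₁] [CompleteSpace K₁]
    [NormedAddCommGroup K₂] [InnerProductSpace ℂ K₂] [CompleteSpace K₂]
    (π₁ : AA B I s →⋆ₙₐ[ℂ] (K₁ →L[ℂ] K₁)) (π₂ : AA B I s →⋆ₙₐ[ℂ] (K₂ →L[ℂ] K₂))
    (ξ₁ : K₁) (ξ₂ : K₂) (n₁ : ‖ξ₁‖ = 1) (n₂ : ‖ξ₂‖ = 1)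
    (f₁ : ∀ n, π₁ ⟨B.E n, M_le_AA B I s (E_mem B n)⟩ ξ₁ = ξ₁)
    (f₂ : ∀ n, π₂ ⟨B.E n, M_le_AA B I s (E_mem B n)⟩ ξ₂ = ξ₂) (w : AA B I s) :
    ⟪ξ₁, π₁ w ξ₁⟫_ℂ = ⟪ξ₂, π₂ w ξ₂⟫_ℂ := by
  have key : ∀ ε : ℝ, 0 < ε → ‖⟪ξ₁, π₁ w ξ₁⟫_ℂ - ⟪ξ₂, π₂ w ξ₂⟫_ℂ‖ ≤ ε := by
    intro ε hε
    obtain ⟨N, c, hN⟩ := ue hI hs w.2 (half_pos hε)
    have h0 := hN N le_rfl
    have h1 := StateEq_aux.approx π₁ ξ₁ n₁ N (f₁ N) w c h0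
    have h2 := StateEq_aux.approx π₂ ξ₂ n₂ N (f₂ N) w c h0
    have h3 : ⟪ξ₁, π₁ w ξ₁⟫_ℂ - ⟪ξ₂, π₂ w ξ₂⟫_ℂ =
        (⟪ξ₁, π₁ w ξ₁⟫_ℂ - c) - (⟪ξ₂, π₂ w ξ₂⟫_ℂ - c) := by ring
    rw [h3]
    refine (norm_sub_le _ _).trans ?_
    linarith
  have h : ‖⟪ξ₁, π₁ w ξ₁⟫_ℂ - ⟪ξ₂, π₂ w ξ₂⟫_ℂ‖ ≤ 0 :=
    le_of_forall_pos_le_add fun ε hε => by simpa using key ε hε
  rw [norm_le_zero_iff, sub_eq_zero] at h
  exact h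

end Crest.Agent.R120
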