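import Crest.Agent.R120.L1

/-!
# R120 piece TrB: an excising projection has small trace

`∑_w φ (mp w) = 1` over `w : Ix l` (`2^l` terms), so `g = ∑_w g φ(mp w) g`, and with the `c_w` of
the hypothesis `‖(1 - ∑ c_w) g‖ ≤ 2^l ε < 1/2` (`‖φ (mp w)‖ ≤ 1`), `‖g‖ = 1`: some `|c_w| > ε`.
`‖g φ(mp w) g - c_w g‖ ≤ ε < |c_w|`. In a common level `m'`: `g = φ G`, `φ (mp w) = φ W`,
`trace W = 2^{m'-l}`. The map `ran G → ran W`, `v ↦ W v` is injective (if `W v = 0`, `G v = v` then
`0 = G W G v`, and `‖c_w v‖ ≤ ε ‖v‖`; `φ m'` is isometric or argue in `H`: `φ m'` injective).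
So `rank G ≤ rank W`; rank = trace for projections.
Alternative: `gφ(mp w)g` is invertible in the corner, so `u = φ(mp w) g (g φ(mp w) g)^{-1/2}` is a
partial isometry from `g` into `φ(mp w)`.
-/

set_option autoImplicit false
open scoped ComplexOrder InnerProductSpace Topology
open Filter

namespace Crest.Agent.R120

variable {H : Type} [NormedAddCommGroup H] [InnerProductSpace ℂ H] [CompleteSpace H]

namespace TrB_aux

/-- faithfulness of `φ m` -/
theorem φ_inj (B : Base H) {m : ℕ} {x : Mx m} (h : B.φ m x = 0) : x = 0 := by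
  have h1 : B.φ m (star x * x) = 0 := by rw [map_mul, h, mul_zero]
  have h2 := B.tr_eq m (star x * x)
  rw [h1, zero_apply, inner_zero_right] at h2
  have h3 : (star x * x).trace = 0 := by
    rcases mul_eq_zero.mp h2.symm with h4 | h4
    · exact absurd h4 (inv_ne_zero (pow_ne_zero _ two_ne_zero))
    · exact h4
  exact Matrix.trace_conjTranspose_mul_self_eq_zero_iff.mp h3

theorem trace_eq_finrank {n : Type} [Fintype n] [DecidableEq n] {p : Matrix n n ℂ}
    (hp : p * p = p) :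
    p.trace = (Module.finrank ℂ (LinearMap.range (Matrix.toLin' p)) : ℂ) := by
  have h : IsIdempotentElem (Matrix.toLin' p) := by
    show Matrix.toLin' p * Matrix.toLin' p = Matrix.toLin' p
    rw [Module.End.mul_eq_comp, ← Matrix.toLin'_mul, hp]
  rw [← Matrix.trace_toLin'_eq]
  exact (LinearMap.IsIdempotentElem.isProj_range _ h).trace

theorem norm_le_one {p : H →L[ℂ] H} (hp : IsStarProjection p) : ‖p‖ ≤ 1 :=
  IsStarProjection.norm_le p hp

theorem mp_proj {m : ℕ} (w : Ix m) : IsStarProjection (mp w) := by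
  refine ⟨?_, ?_⟩
  · show mp w * mp w = mp w
    simp [mp]
  · show star (mp w) = mp w
    simp [mp, Matrix.star_eq_conjTranspose]

theorem sum_mp (m : ℕ) : ∑ w : Ix m, mp w = (1 : Mx m) := by
  ext i j
  rw [Matrix.sum_apply]
  simp only [mp, Matrix.single_apply, Matrix.one_apply]
  by_cases h : i = j
  · subst h
    rw [Finset.sum_eq_single i]
    · simp
    · intro b _ hb
      simp [hb]
    · intro h
      exact absurd (Finset.mem_univ _) h
  · rw [if_neg h]
    refine Finset.sum_eq_zero fun w _ => ?_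
    rw [if_neg]
    rintro ⟨h1, h2⟩
    exact h (h1.symm.trans h2)

/-- `‖p Ω‖² = 2^{-m} trace P` -/
theorem norm_sq (B : Base H) {m : ℕ} {P : Mx m} (hP : IsStarProjection (B.φ m P)) :
    ((‖B.φ m P B.Ω‖ ^ 2 : ℝ) : ℂ) = ((2 : ℂ) ^ m)⁻¹ * P.trace := by
  rw [← B.tr_eq m P]
  have h1 : B.φ m P = star (B.φ m P) * B.φ m P := by
    rw [hP.isSelfAdjoint.star_eq, hP.isIdempotentElem.eq]
  conv_rhs => rw [h1]
  rw [mul_apply_eq_comp, ContinuousLinearMap.star_eq_adjoint,
    ContinuousLinearMap.adjoint_inner_right, inner_self_eq_norm_sq_to_K]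
  simp

end TrB_aux

open TrB_aux

theorem tr_bound (B : Base H) {g : H →L[ℂ] H} (hgM : g ∈ B.M) (hg : IsStarProjection g)
    (hg0 : g ≠ 0) (l : ℕ) {ε : ℝ} (hε : 0 ≤ ε) (hε' : (2 : ℝ) ^ (l + 1) * ε < 1)
    (h : ∀ x : Mx l, ∃ c : ℂ, ‖g * B.φ l x * g - c • g‖ ≤ ε * ‖B.φ l x‖) :
    ‖g B.Ω‖ ^ 2 ≤ (1 / 2 : ℝ) ^ l := by
  have hgg : g * g = g := hg.isIdempotentElem
  have hgn : ‖g‖ = 1 := by
    have h1 : ‖g‖ * ‖g‖ = ‖g‖ := by
      have := CStarRing.norm_star_mul_self (x := g)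
      rw [hg.isSelfAdjoint.star_eq, hgg] at this
      exact this.symm
    have h2 : ‖g‖ ≠ 0 := norm_ne_zero_iff.mpr hg0
    exact mul_left_cancel₀ h2 (by rw [h1, mul_one])
  -- constants
  choose c hc using fun w : Ix l => h (mp w)
  have hφ1 : ∀ w : Ix l, ‖B.φ l (mp w)‖ ≤ 1 := by
    intro w
    apply TrB_aux.norm_le_one
    have hw := mp_proj w
    refine ⟨?_, ?_⟩
    · show B.φ l (mp w) * B.φ l (mp w) = B.φ l (mp w)
      rw [← map_mul, hw.isIdempotentElem.eq]
    · show star (B.φ l (mp w)) = B.φ l (mp w)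
      rw [← map_star, hw.isSelfAdjoint.star_eq]
  have hc' : ∀ w, ‖g * B.φ l (mp w) * g - c w • g‖ ≤ ε := fun w =>
    (hc w).trans (mul_le_of_le_one_right hε (hφ1 w))
  have hsum : ∑ w : Ix l, (g * B.φ l (mp w) * g - c w • g) = (1 - ∑ w, c w) • g := by
    rw [Finset.sum_sub_distrib, ← Finset.sum_smul, ← Finset.sum_mul, ← Finset.mul_sum,
      ← map_sum, sum_mp, map_one, mul_one, hgg, sub_smul, one_smul]
  have hcard : (Finset.univ : Finset (Ix l)).card = 2 ^ l := by
    simp [Ix]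
  have hbig : ∃ w, ε < ‖c w‖ := by
    by_contra hcon
    push Not at hcon
    have h1 : ‖(1 - ∑ w, c w : ℂ)‖ ≤ 2 ^ l * ε := by
      have h2 : ‖(1 - ∑ w, c w : ℂ)‖ = ‖(1 - ∑ w, c w) • g‖ := by
        rw [norm_smul, hgn, mul_one]
      rw [h2, ← hsum]
      refine (norm_sum_le _ _).trans ?_
      refine (Finset.sum_le_sum fun w _ => hc' w).trans ?_
      rw [Finset.sum_const, hcard, nsmul_eq_mul]
      push_cast
      exact le_rfl
    have h2 : ‖(∑ w, c w : ℂ)‖ ≤ 2 ^ l * ε := by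
      refine (norm_sum_le _ _).trans ?_
      refine (Finset.sum_le_sum fun w _ => hcon w).trans ?_
      rw [Finset.sum_const, hcard, nsmul_eq_mul]
      push_cast
      exact le_rfl
    have h3 : (1 : ℝ) ≤ 2 ^ l * ε + 2 ^ l * ε := by
      have h4 : ‖(1 : ℂ)‖ ≤ ‖(1 - ∑ w, c w : ℂ)‖ + ‖(∑ w, c w : ℂ)‖ := by
        have := norm_add_le (1 - ∑ w, c w : ℂ) (∑ w, c w)
        rwa [sub_add_cancel] at this
      rw [norm_one] at h4
      linarith
    rw [pow_succ] at hε'
    linarith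
  obtain ⟨w, hw⟩ := hbig
  -- common level
  obtain ⟨m, hlm, x, hx⟩ := common_level B (ι := Bool)
    (fun b => if b then g else B.φ l (mp w)) (by
      intro b
      cases b
      · exact ⟨l, _, rfl⟩
      · exact hgM) l
  obtain ⟨G, hG⟩ : ∃ G, G = x true := ⟨_, rfl⟩
  obtain ⟨W, hW⟩ : ∃ W, W = x false := ⟨_, rfl⟩
  have hφG : B.φ m G = g := by rw [hG, hx]; simp
  have hφW : B.φ m W = B.φ l (mp w) := by rw [hW, hx]; simp
  have inj : ∀ {a b : Mx m}, B.φ m a = B.φ m b → a = b := by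
    intro a b hab
    have : B.φ m (a - b) = 0 := by rw [map_sub, hab, sub_self]
    exact sub_eq_zero.mp (φ_inj B this)
  have hGG : G * G = G := inj (by rw [map_mul, hφG, hgg])
  have hWp : IsStarProjection (B.φ m W) := by
    rw [hφW]
    have hw := mp_proj w
    refine ⟨?_, ?_⟩
    · show B.φ l (mp w) * B.φ l (mp w) = B.φ l (mp w)
      rw [← map_mul, hw.isIdempotentElem.eq]
    · show star (B.φ l (mp w)) = B.φ l (mp w)
      rw [← map_star, hw.isSelfAdjoint.star_eq]
  have hWW : W * W = W := inj (by rw [map_mul, hWp.isIdempotentElem.eq])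
  -- injectivity
  have hinj : ∀ v : Ix m → ℂ, Matrix.mulVec G v = v → Matrix.mulVec W v = 0 → v = 0 := by
    intro v hv1 hv2
    obtain ⟨P, hP⟩ : ∃ P : Mx m, P = Matrix.vecMulVec v (star v) := ⟨_, rfl⟩
    have hGP : G * P = P := by rw [hP, Matrix.mul_vecMulVec, hv1]
    have hWP : W * P = 0 := by rw [hP, Matrix.mul_vecMulVec, hv2, Matrix.zero_vecMulVec]
    have h1 : (g * B.φ l (mp w) * g - c w • g) * B.φ m P = -(c w • B.φ m P) := by
      have h2 : g * B.φ m P = B.φ m P := by rw [← hφG, ← map_mul, hGP]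
      have h3 : B.φ l (mp w) * B.φ m P = 0 := by rw [← hφW, ← map_mul, hWP, map_zero]
      rw [sub_mul, mul_assoc, mul_assoc, h2, h3, mul_zero, smul_mul_assoc, h2, zero_sub]
    have h2 : ‖c w‖ * ‖B.φ m P‖ ≤ ε * ‖B.φ m P‖ := by
      rw [← norm_smul, ← norm_neg, ← h1]
      exact (norm_mul_le _ _).trans (mul_le_mul_of_nonneg_right (hc' w) (norm_nonneg _))
    have h3 : ‖B.φ m P‖ = 0 := by
      by_contra h0
      have h4 : 0 < ‖B.φ m P‖ := lt_of_le_of_ne (norm_nonneg _) (Ne.symm h0)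
      exact absurd (le_of_mul_le_mul_right h2 h4) (not_le.mpr hw)
    have h4 : P = 0 := φ_inj B (norm_eq_zero.mp h3)
    funext i
    have h5 : P i i = 0 := by rw [h4]; rfl
    rw [hP, Matrix.vecMulVec_apply, Pi.star_apply] at h5
    rcases mul_eq_zero.mp h5 with h6 | h6
    · exact h6
    · exact star_eq_zero.mp h6
  have hrank : Module.finrank ℂ (LinearMap.range (Matrix.toLin' G)) ≤
      Module.finrank ℂ (LinearMap.range (Matrix.toLin' W)) := by
    let f : LinearMap.range (Matrix.toLin' G) →ₗ[ℂ] LinearMap.range (Matrix.toLin' W) :=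
      ((Matrix.toLin' W).rangeRestrict).domRestrict _
    apply LinearMap.finrank_le_finrank_of_injective (f := f)
    rw [injective_iff_map_eq_zero]
    rintro ⟨v, u, hu⟩ hv
    apply Subtype.ext
    apply hinj v
    · rw [← hu, Matrix.toLin'_apply, Matrix.mulVec_mulVec, hGG]
    · have := congrArg Subtype.val hv
      exact this
  -- conclusion
  have hn1 := norm_sq B (P := G) (by rw [hφG]; exact hg)
  have hn2 := norm_sq B hWp
  have hn3 := norm_sq B (m := l) (P := mp w) (by rw [← hφW]; exact hWp)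
  rw [hφG, trace_eq_finrank hGG] at hn1
  rw [trace_eq_finrank hWW] at hn2
  rw [← hφW, hn2] at hn3
  have ht : (mp w).trace = 1 := by simp [mp]
  rw [ht, mul_one] at hn3
  have hr1 : ‖g B.Ω‖ ^ 2 = ((2 : ℝ) ^ m)⁻¹ *
      (Module.finrank ℂ (LinearMap.range (Matrix.toLin' G)) : ℝ) := by
    apply Complex.ofReal_injective
    rw [hn1]
    push_cast
    rfl
  have hr2 : ((2 : ℝ) ^ m)⁻¹ * (Module.finrank ℂ (LinearMap.range (Matrix.toLin' W)) : ℝ) =
      ((2 : ℝ) ^ l)⁻¹ := by
    apply Complex.ofReal_injective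
    push_cast
    exact hn3
  rw [hr1, one_div, inv_pow, ← hr2]
  exact mul_le_mul_of_nonneg_left (by exact_mod_cast hrank) (by positivity)

end Crest.Agent.R120
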