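import Crest.Agent.R120.Exc
import Crest.Agent.R120.MatP
import Crest.Agent.R120.TrB
import Crest.Agent.R120.L2

/-!
# R120 piece Step: one step of the exposing sequence

`exc` for `(e, ζ, l, ε₁)` gives `g₁` (`ε₁ ≤ ε/4`, `ε₁ ≤ 1/4`); `g₁ ≠ 0`, so (`‖g₁Ω‖² > 0`, trace
faithful on `M`) choose `k' > k` with `(1/2)^k' ≤ ‖g₁Ω‖²`. `ζ₁ = σ g₁ ζ / ‖·‖`. `exc` for
`(g₁, ζ₁, k', ε₂)`, `2^(k'+1) ε₂ < 1`, gives `g₂ ≤ g₁` with `‖g₂Ω‖² ≤ (1/2)^k'` (`tr_bound`).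
`exists_between g₂ g₁ k'` gives `e'` with `g₂ ≤ e' ≤ g₁`. `‖σ(e') ζ - ζ‖ ≤ ‖σ(g₂) ζ - ζ‖`-type
bounds; `ζ' = σ(e') ζ / ‖σ(e') ζ‖`. Excision: `e' x e' - c e' = e' (g₁ x g₁ - c g₁) e'`.
-/

set_option autoImplicit false
open scoped ComplexOrder InnerProductSpace Topology
open Filter

namespace Crest.Agent.R120

variable {H : Type} [NormedAddCommGroup H] [InnerProductSpace ℂ H] [CompleteSpace H]

namespace Step_aux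

theorem renorm {K : Type} [NormedAddCommGroup K] [InnerProductSpace ℂ K]
    (P : K →L[ℂ] K) (hP : ∀ v, P (P v) = P v) {v : K} (hv : ‖v‖ = 1) {δ : ℝ} (hδ : δ ≤ 1)
    (h : ‖P v - v‖ < δ) : ∃ u : K, ‖u‖ = 1 ∧ P u = u ∧ ‖u - v‖ < 2 * δ := by
  obtain ⟨r, hr⟩ : ∃ r : ℝ, r = ‖P v‖ := ⟨_, rfl⟩
  have h1 : |r - 1| < δ := by
    rw [hr, ← hv]
    exact (abs_norm_sub_norm_le _ _).trans_lt h
  have h2 := abs_lt.mp h1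
  have hr0 : 0 < r := by linarith
  refine ⟨((r⁻¹ : ℝ) : ℂ) • P v, ?_, ?_, ?_⟩
  · rw [norm_smul, Complex.norm_real, Real.norm_of_nonneg (by positivity), ← hr,
      inv_mul_cancel₀ hr0.ne']
  · rw [map_smul, hP]
  · have h3 : ‖((r⁻¹ : ℝ) : ℂ) • P v - P v‖ = |r - 1| := by
      have h4 : ((r⁻¹ : ℝ) : ℂ) • P v - P v = ((r⁻¹ - 1 : ℝ) : ℂ) • P v := by
        push_cast
        rw [sub_smul, one_smul]
      rw [h4, norm_smul, Complex.norm_real, Real.norm_eq_abs, ← hr]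
      rw [← abs_of_pos hr0, ← abs_mul, abs_of_pos hr0, sub_mul, inv_mul_cancel₀ hr0.ne', one_mul,
        abs_sub_comm]
    calc ‖((r⁻¹ : ℝ) : ℂ) • P v - v‖
        = ‖(((r⁻¹ : ℝ) : ℂ) • P v - P v) + (P v - v)‖ := by congr 1; abel
      _ ≤ ‖((r⁻¹ : ℝ) : ℂ) • P v - P v‖ + ‖P v - v‖ := norm_add_le _ _
      _ < 2 * δ := by rw [h3]; linarith

theorem eq_zero_of_Ω (B : Base H) {g : H →L[ℂ] H} (hg : g ∈ B.M) (h : g B.Ω = 0) : g = 0 := by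
  obtain ⟨m, G, rfl⟩ := hg
  have h2 := B.tr_eq m (star G * G)
  rw [map_mul, mul_apply_eq_comp, h, map_zero, inner_zero_right] at h2
  have h3 : (star G * G).trace = 0 := by
    rcases mul_eq_zero.mp h2.symm with h4 | h4
    · exact absurd h4 (inv_ne_zero (pow_ne_zero _ two_ne_zero))
    · exact h4
  have h4 : G = 0 := Matrix.trace_conjTranspose_mul_self_eq_zero_iff.mp h3
  rw [h4, map_zero]

end Step_aux

open Step_aux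

theorem step {B : Base H} {K : Type} [NormedAddCommGroup K] [InnerProductSpace ℂ K]
    [CompleteSpace K] {σ : B.M →⋆ₙₐ[ℂ] (K →L[ℂ] K)} (hσ : IsIrr B σ) (e : B.M)
    (he : IsStarProjection e) (k : ℕ) (ζ : K) (hζ : ‖ζ‖ = 1)
    (heζ : σ e ζ = ζ) (l : ℕ) {ε : ℝ} (hε : 0 < ε) :
    ∃ (e' : B.M) (k' : ℕ) (ζ' : K), IsStarProjection e' ∧ e * e' = e' ∧ k < k' ∧
      ‖(e' : H →L[ℂ] H) B.Ω‖ ^ 2 = (1 / 2 : ℝ) ^ k' ∧ ‖ζ'‖ = 1 ∧ σ e' ζ' = ζ' ∧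
      ‖ζ' - ζ‖ < ε ∧
      ∀ x : Mx l, ∃ c : ℂ, ‖(e' : H →L[ℂ] H) * B.φ l x * e' - c • (e' : H →L[ℂ] H)‖ ≤
        ε * ‖B.φ l x‖ := by
  obtain ⟨ε₁, hε₁, hε₁4, hε₁q⟩ : ∃ ε₁ : ℝ, 0 < ε₁ ∧ ε₁ ≤ 1 / 4 ∧ 4 * ε₁ ≤ ε := by
    refine ⟨min ε 1 / 4, by positivity, ?_, ?_⟩
    · have := min_le_right ε 1
      linarith
    · have := min_le_left ε 1
      linarith
  -- facts about projections
  have hidem : ∀ {p : B.M}, IsStarProjection p → ∀ v, σ p (σ p v) = σ p v := by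
    intro p hp v
    rw [← mul_apply_eq_comp, ← map_mul, hp.isIdempotentElem.eq]
  have hcoe : ∀ {p : B.M}, IsStarProjection p → IsStarProjection (p : H →L[ℂ] H) := by
    intro p hp
    refine ⟨?_, ?_⟩
    · exact congrArg Subtype.val hp.isIdempotentElem.eq
    · exact congrArg Subtype.val hp.isSelfAdjoint.star_eq
  have hσp : ∀ {p : B.M}, IsStarProjection p → IsStarProjection (σ p) := by
    intro p hp
    refine ⟨?_, ?_⟩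
    · show σ p * σ p = σ p
      rw [← map_mul, hp.isIdempotentElem.eq]
    · show star (σ p) = σ p
      rw [← map_star, hp.isSelfAdjoint.star_eq]
  have hne : ∀ {p : B.M} {v : K}, ‖v‖ = 1 → ‖σ p v - v‖ < 1 → (p : H →L[ℂ] H) ≠ 0 := by
    intro p v hv h h0
    have h1 : p = 0 := Subtype.ext h0
    rw [h1, map_zero, zero_apply, zero_sub, norm_neg, hv] at h
    exact lt_irrefl _ h
  obtain ⟨g₁, hg₁, heg₁, hg₁ζ, hg₁x⟩ := exc hσ e he ζ hζ heζ l hε₁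
  obtain ⟨ζ₁, hζ₁, hζ₁f, hζ₁d⟩ := renorm (σ g₁) (hidem hg₁) hζ (by linarith) hg₁ζ
  have hg₁0 : (g₁ : H →L[ℂ] H) ≠ 0 := hne hζ (by linarith)
  have hΩ : 0 < ‖(g₁ : H →L[ℂ] H) B.Ω‖ ^ 2 := by
    have h0 : (g₁ : H →L[ℂ] H) B.Ω ≠ 0 := fun h => hg₁0 (eq_zero_of_Ω B g₁.2 h)
    have := norm_pos_iff.mpr h0
    positivity
  obtain ⟨N, hN⟩ := exists_pow_lt_of_lt_one hΩ (show (1 / 2 : ℝ) < 1 by norm_num)
  obtain ⟨k', hk', hk'N⟩ : ∃ k', k < k' ∧ N ≤ k' := ⟨max (k + 1) N, by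
    exact lt_of_lt_of_le (Nat.lt_succ_self k) (le_max_left _ _), le_max_right _ _⟩
  have hk'Ω : (1 / 2 : ℝ) ^ k' ≤ ‖(g₁ : H →L[ℂ] H) B.Ω‖ ^ 2 :=
    (pow_le_pow_of_le_one (by norm_num) (by norm_num) hk'N).trans hN.le
  obtain ⟨ε₂, hε₂, hε₂1, hε₂k⟩ : ∃ ε₂ : ℝ, 0 < ε₂ ∧ ε₂ ≤ ε₁ ∧ (2 : ℝ) ^ (k' + 1) * ε₂ < 1 := by
    refine ⟨min ε₁ ((2 : ℝ) ^ (k' + 2))⁻¹, by positivity, min_le_left _ _, ?_⟩
    have h1 : (2 : ℝ) ^ (k' + 1) * min ε₁ ((2 : ℝ) ^ (k' + 2))⁻¹ ≤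
        (2 : ℝ) ^ (k' + 1) * ((2 : ℝ) ^ (k' + 2))⁻¹ :=
      mul_le_mul_of_nonneg_left (min_le_right _ _) (by positivity)
    have h2 : (2 : ℝ) ^ (k' + 1) * ((2 : ℝ) ^ (k' + 2))⁻¹ = 1 / 2 := by
      rw [pow_succ (2 : ℝ) (k' + 1), mul_inv, ← mul_assoc, mul_inv_cancel₀ (by positivity)]
      norm_num
    linarith
  obtain ⟨g₂, hg₂, hg₁₂, hg₂ζ, hg₂x⟩ := exc hσ g₁ hg₁ ζ₁ hζ₁ hζ₁f k' hε₂
  have hg₂0 : (g₂ : H →L[ℂ] H) ≠ 0 := hne hζ₁ (by linarith)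
  have htr := tr_bound B g₂.2 (hcoe hg₂) hg₂0 k' hε₂.le hε₂k hg₂x
  obtain ⟨e₀, he₀M, he₀, hg₁e, he₂, he₀tr⟩ := exists_between B g₂.2 g₁.2 (hcoe hg₂) (hcoe hg₁)
    (congrArg Subtype.val hg₁₂) k' htr hk'Ω
  obtain ⟨e', he'⟩ : ∃ e' : B.M, (e' : H →L[ℂ] H) = e₀ := ⟨⟨e₀, he₀M⟩, rfl⟩
  have he'p : IsStarProjection e' := by
    refine ⟨?_, ?_⟩
    · apply Subtype.ext
      show (e' : H →L[ℂ] H) * e' = e'
      rw [he', he₀.isIdempotentElem.eq]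
    · apply Subtype.ext
      show star (e' : H →L[ℂ] H) = e'
      rw [he', he₀.isSelfAdjoint.star_eq]
  have hg₁e' : g₁ * e' = e' := by
    apply Subtype.ext
    show (g₁ : H →L[ℂ] H) * e' = e'
    rw [he', hg₁e]
  have he'₂ : e' * g₂ = g₂ := by
    apply Subtype.ext
    show (e' : H →L[ℂ] H) * g₂ = g₂
    rw [he', he₂]
  have he'₁ : e' * g₁ = e' := by
    have := congrArg star hg₁e'
    rwa [star_mul, he'p.isSelfAdjoint.star_eq, hg₁.isSelfAdjoint.star_eq] at this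
  -- distance
  have hd : ‖σ e' ζ₁ - ζ₁‖ < ε₁ := by
    have h1 : σ e' ζ₁ - ζ₁ = (1 - σ e') (σ g₂ ζ₁ - ζ₁) := by
      have h2 : σ e' (σ g₂ ζ₁) = σ g₂ ζ₁ := by
        rw [← mul_apply_eq_comp, ← map_mul, he'₂]
      rw [sub_apply, one_apply_eq_self, map_sub, h2]
      abel
    have h3 : ‖(1 - σ e' : K →L[ℂ] K)‖ ≤ 1 := IsStarProjection.norm_le _ (hσp he'p).one_sub
    rw [h1]
    calc ‖(1 - σ e') (σ g₂ ζ₁ - ζ₁)‖ ≤ ‖(1 - σ e' : K →L[ℂ] K)‖ * ‖σ g₂ ζ₁ - ζ₁‖ :=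
          ContinuousLinearMap.le_opNorm _ _
      _ ≤ 1 * ‖σ g₂ ζ₁ - ζ₁‖ := mul_le_mul_of_nonneg_right h3 (norm_nonneg _)
      _ < ε₁ := by linarith
  obtain ⟨ζ', hζ', hζ'f, hζ'd⟩ := renorm (σ e') (hidem he'p) hζ₁ (by linarith) hd
  refine ⟨e', k', ζ', he'p, ?_, hk', ?_, hζ', hζ'f, ?_, ?_⟩
  · rw [← hg₁e', ← mul_assoc, heg₁]
  · rw [he', he₀tr]
  · calc ‖ζ' - ζ‖ = ‖(ζ' - ζ₁) + (ζ₁ - ζ)‖ := by congr 1; abel
      _ ≤ ‖ζ' - ζ₁‖ + ‖ζ₁ - ζ‖ := norm_add_le _ _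
      _ < ε := by linarith
  · intro x
    obtain ⟨c, hc⟩ := hg₁x x
    refine ⟨c, ?_⟩
    have hA : (g₁ : H →L[ℂ] H) * e' = e' := congrArg Subtype.val hg₁e'
    have hB : (e' : H →L[ℂ] H) * g₁ = e' := congrArg Subtype.val he'₁
    have hC : (e' : H →L[ℂ] H) * e' = e' := congrArg Subtype.val he'p.isIdempotentElem.eq
    have h1 : (e' : H →L[ℂ] H) * B.φ l x * e' - c • (e' : H →L[ℂ] H) =
        e' * ((g₁ : H →L[ℂ] H) * B.φ l x * g₁ - c • (g₁ : H →L[ℂ] H)) * e' := by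
      rw [mul_sub, sub_mul, mul_smul_comm, smul_mul_assoc, hB, hC]
      congr 1
      rw [mul_assoc, mul_assoc, mul_assoc, mul_assoc, hA, ← mul_assoc, ← mul_assoc, hB,
        ← mul_assoc]
    have h2 : ‖(e' : H →L[ℂ] H)‖ ≤ 1 := IsStarProjection.norm_le _ (hcoe he'p)
    rw [h1]
    calc ‖(e' : H →L[ℂ] H) * ((g₁ : H →L[ℂ] H) * B.φ l x * g₁ - c • (g₁ : H →L[ℂ] H)) * e'‖
        ≤ ‖(e' : H →L[ℂ] H)‖ * ‖(g₁ : H →L[ℂ] H) * B.φ l x * g₁ - c • (g₁ : H →L[ℂ] H)‖ *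
            ‖(e' : H →L[ℂ] H)‖ := norm_mul₃_le
      _ ≤ 1 * ‖(g₁ : H →L[ℂ] H) * B.φ l x * g₁ - c • (g₁ : H →L[ℂ] H)‖ * 1 := by gcongr
      _ ≤ ε₁ * ‖B.φ l x‖ := by rw [one_mul, mul_one]; exact hc
      _ ≤ ε * ‖B.φ l x‖ := mul_le_mul_of_nonneg_right (by linarith) (norm_nonneg _)

end Crest.Agent.R120
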