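import Crest.Agent.R120.L2
import Crest.Agent.R120.Dat

/-!
# R120 piece SymA: the finite stages of the symmetry (pure algebra)

`S_N = ∑_{n<N} (v_n + v_n*) + (1 - E_{k_0} - e_0) ∈ M`. From `v_n* v_n = E_{k_n} - E_{k_{n+1}}`,
`v_n v_n* = e_n - e_{n+1}` one gets `v_n = (e_n - e_{n+1}) v_n (E_{k_n} - E_{k_{n+1}})`
(`v v* v = v` from the C*-identity `‖(1 - v v*) v‖ = 0`), all supports orthogonal (`E_mul_e`,
`e_mul_E`, `e_mul`, `E_mul_E`).
-/

set_option autoImplicit false
open scoped ComplexOrder InnerProductSpace Topology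
open Filter

namespace Crest.Agent.R120

variable {H : Type} [NormedAddCommGroup H] [InnerProductSpace ℂ H] [CompleteSpace H]

namespace SymA_aux

theorem src_absorb {v A : H →L[ℂ] H} (hA : A * A = A) (hs : star A = A) (h : star v * v = A) :
    v * A = v := by
  have key : star (v - v * A) * (v - v * A) = 0 := by
    have e1 : star (v - v * A) * (v - v * A) =
        star v * v - (star v * v) * A - (star A * (star v * v) - star A * ((star v * v) * A)) := by
      rw [star_sub, star_mul]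
      noncomm_ring
    rw [e1, h, hs]
    simp only [hA]
    abel
  have := (CStarRing.star_mul_self_eq_zero_iff _).1 key
  exact (sub_eq_zero.1 this).symm

theorem tgt_absorb {v A : H →L[ℂ] H} (hA : A * A = A) (hs : star A = A) (h : v * star v = A) :
    A * v = v := by
  have := src_absorb (v := star v) hA hs (by rw [star_star]; exact h)
  have h2 := congrArg star this
  rwa [star_mul, star_star, hs] at h2

section

variable (B : Base H) (d : Datum B)

theorem PP {m n : ℕ} (h : m ≤ n) : B.E (d.k m) * B.E (d.k n) = B.E (d.k n) :=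
  E_mul_E B (d.k_mono.monotone h)

theorem PP' {m n : ℕ} (h : m ≤ n) : B.E (d.k n) * B.E (d.k m) = B.E (d.k n) :=
  E_mul_E' B (d.k_mono.monotone h)

theorem P_star (n : ℕ) : star (B.E (d.k n)) = B.E (d.k n) := (E_proj B _).isSelfAdjoint

theorem e_star (n : ℕ) : star (d.e n) = d.e n := (d.e_proj n).isSelfAdjoint

theorem v_A (n : ℕ) : d.v n * (B.E (d.k n) - B.E (d.k (n + 1))) = d.v n := by
  refine src_absorb ?_ ?_ (d.v_src n)
  · rw [sub_mul, mul_sub, mul_sub, PP B d le_rfl, PP B d le_rfl, PP B d (Nat.le_succ n),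
      PP' B d (Nat.le_succ n)]
    abel
  · rw [star_sub, P_star, P_star]

theorem B_v (n : ℕ) : (d.e n - d.e (n + 1)) * d.v n = d.v n := by
  refine tgt_absorb ?_ ?_ (d.v_tgt n)
  · rw [sub_mul, mul_sub, mul_sub, e_mul B d le_rfl, e_mul B d le_rfl, e_mul B d (Nat.le_succ n),
      e_mul' B d (Nat.le_succ n)]
    abel
  · rw [star_sub, e_star, e_star]

/-- `v_m P_n = v_m` for `n ≤ m` -/
theorem v_P {m n : ℕ} (h : n ≤ m) : d.v m * B.E (d.k n) = d.v m := by
  conv_lhs => rw [← v_A B d m]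
  rw [mul_assoc, sub_mul, PP' B d h, PP' B d (h.trans (Nat.le_succ m)), v_A]

theorem v_P_zero {m n : ℕ} (h : m < n) : d.v m * B.E (d.k n) = 0 := by
  conv_lhs => rw [← v_A B d m]
  rw [mul_assoc, sub_mul, PP B d h.le, PP B d h, sub_self, mul_zero]

theorem v_e (m n : ℕ) : d.v m * d.e n = 0 := by
  conv_lhs => rw [← v_A B d m]
  rw [mul_assoc, sub_mul, E_mul_e, E_mul_e, sub_self, mul_zero]

theorem e_v {m n : ℕ} (h : n ≤ m) : d.e n * d.v m = d.v m := by
  conv_lhs => rw [← B_v B d m]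
  rw [← mul_assoc, mul_sub, e_mul B d h, e_mul B d (h.trans (Nat.le_succ m)), B_v]

theorem e_v_zero {m n : ℕ} (h : m < n) : d.e n * d.v m = 0 := by
  conv_lhs => rw [← B_v B d m]
  rw [← mul_assoc, mul_sub, e_mul' B d h.le, e_mul' B d h, sub_self, zero_mul]

theorem P_v (m n : ℕ) : B.E (d.k n) * d.v m = 0 := by
  conv_lhs => rw [← B_v B d m]
  rw [← mul_assoc, mul_sub, E_mul_e, E_mul_e, sub_self, zero_mul]

theorem vs_P (m n : ℕ) : star (d.v m) * B.E (d.k n) = 0 := by
  have := congrArg star (P_v B d m n)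
  rwa [star_mul, P_star, star_zero] at this

theorem vs_e {m n : ℕ} (h : n ≤ m) : star (d.v m) * d.e n = star (d.v m) := by
  have := congrArg star (e_v B d h)
  rwa [star_mul, e_star] at this

theorem vs_e_zero {m n : ℕ} (h : m < n) : star (d.v m) * d.e n = 0 := by
  have := congrArg star (e_v_zero B d h)
  rwa [star_mul, e_star, star_zero] at this

theorem e_vs (m n : ℕ) : d.e n * star (d.v m) = 0 := by
  have := congrArg star (v_e B d m n)
  rwa [star_mul, e_star, star_zero] at this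

/-- `T_n = v_n + v_n*` -/
noncomputable def T (n : ℕ) : H →L[ℂ] H := d.v n + star (d.v n)

/-- `Q_n = 1 - P_n - e_n` -/
noncomputable def Q (n : ℕ) : H →L[ℂ] H := 1 - B.E (d.k n) - d.e n

/-- the stages -/
noncomputable def Sf : ℕ → (H →L[ℂ] H)
  | 0 => Q B d 0
  | n + 1 => Sf n + T B d n

theorem T_star (n : ℕ) : star (T B d n) = T B d n := by
  rw [T, star_add, star_star, add_comm]

theorem Q_star (n : ℕ) : star (Q B d n) = Q B d n := by
  rw [Q, star_sub, star_sub, star_one, P_star, e_star]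

theorem T_Q {m n : ℕ} (h : n ≤ m) : T B d m * Q B d n = 0 := by
  rw [T, Q, add_mul, mul_sub, mul_sub, mul_sub, mul_sub, mul_one, mul_one, v_P B d h, v_e, vs_P,
    vs_e B d h]
  abel

theorem Q_T {m n : ℕ} (h : n ≤ m) : Q B d n * T B d m = 0 := by
  have := congrArg star (T_Q B d h)
  rwa [star_mul, T_star, Q_star, star_zero] at this

theorem T_Q' {m n : ℕ} (h : m < n) : T B d m * Q B d n = T B d m := by
  rw [T, Q, add_mul, mul_sub, mul_sub, mul_sub, mul_sub, mul_one, mul_one, v_P_zero B d h, v_e,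
    vs_P, vs_e_zero B d h]
  abel

theorem Q_Q {m n : ℕ} (h : m ≤ n) : Q B d m * Q B d n = Q B d m := by
  have e1 : Q B d m * Q B d n = 1 - B.E (d.k n) - d.e n - (B.E (d.k m) -
      B.E (d.k m) * B.E (d.k n) - B.E (d.k m) * d.e n) - (d.e m - d.e m * B.E (d.k n) -
      d.e m * d.e n) := by
    rw [Q, Q]; noncomm_ring
  rw [e1, PP B d h, E_mul_e, e_mul_E, e_mul B d h, Q]
  abel

theorem T_T (n : ℕ) : T B d n * T B d n = Q B d (n + 1) - Q B d n := by
  have h1 : d.v n * d.v n = 0 := by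
    have h0 : d.v n * B.E (d.k n) * d.v n = 0 := by rw [mul_assoc, P_v, mul_zero]
    rwa [v_P B d le_rfl] at h0
  have h2 : star (d.v n) * star (d.v n) = 0 := by
    have := congrArg star h1
    rwa [star_mul, star_zero] at this
  rw [T, add_mul, mul_add, mul_add, h1, h2, d.v_src, d.v_tgt, Q, Q]
  abel

theorem Sf_mem (N : ℕ) : Sf B d N ∈ B.M := by
  induction N with
  | zero =>
    exact sub_mem (sub_mem (one_mem _) (E_mem B _)) (d.e_mem 0)
  | succ N ih =>
    exact add_mem ih (add_mem (d.v_mem N) (star_mem (d.v_mem N)))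

theorem Sf_star (N : ℕ) : star (Sf B d N) = Sf B d N := by
  induction N with
  | zero => exact Q_star B d 0
  | succ N ih => rw [Sf, star_add, ih, T_star]

theorem Sf_Q_self (N : ℕ) : Sf B d N * Q B d N = Sf B d N := by
  induction N with
  | zero => exact Q_Q B d le_rfl
  | succ N ih =>
    rw [Sf, add_mul, T_Q' B d (Nat.lt_succ_self N)]
    congr 1
    rw [← ih, mul_assoc, Q_Q B d (Nat.le_succ N)]

theorem Sf_Q {N M : ℕ} (h : N ≤ M) : Sf B d M * Q B d N = Sf B d N := by
  induction M, h using Nat.le_induction with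
  | base => exact Sf_Q_self B d N
  | succ M hM ih => rw [Sf, add_mul, ih, T_Q B d hM, add_zero]

theorem Q_Sf (N : ℕ) : Q B d N * Sf B d N = Sf B d N := by
  have := congrArg star (Sf_Q_self B d N)
  rwa [star_mul, Sf_star, Q_star] at this

theorem Sf_sq (N : ℕ) : Sf B d N * Sf B d N = Q B d N := by
  induction N with
  | zero => exact Q_Q B d le_rfl
  | succ N ih =>
    have h1 : Sf B d N * T B d N = 0 := by
      rw [← Sf_Q_self B d N, mul_assoc, Q_T B d le_rfl, mul_zero]
    have h2 : T B d N * Sf B d N = 0 := by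
      rw [← Q_Sf B d N, ← mul_assoc, T_Q B d le_rfl, zero_mul]
    rw [Sf, add_mul, mul_add, mul_add, ih, h1, h2, T_T]
    abel

theorem Sf_inter {n N : ℕ} (h : n ≤ N) : Sf B d N * B.E (d.k n) = d.e n * Sf B d N := by
  induction N, h using Nat.le_induction with
  | base =>
    have h1 : Q B d n * B.E (d.k n) = 0 := by
      rw [Q, sub_mul, sub_mul, one_mul, PP B d le_rfl, e_mul_E]; abel
    have h2 : d.e n * Q B d n = 0 := by
      rw [Q, mul_sub, mul_sub, mul_one, e_mul_E, e_mul B d le_rfl]; abel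
    rw [← Sf_Q_self B d n, mul_assoc, h1, mul_zero, Sf_Q_self, ← Q_Sf, ← mul_assoc, h2, zero_mul]
  | succ N hN ih =>
    have h1 : T B d N * B.E (d.k n) = d.v N := by
      rw [T, add_mul, v_P B d hN, vs_P, add_zero]
    have h2 : d.e n * T B d N = d.v N := by
      rw [T, mul_add, e_v B d hN, e_vs, add_zero]
    rw [Sf, add_mul, mul_add, ih, h1, h2]

end

end SymA_aux

open SymA_aux in
theorem sym_approx (B : Base H) (d : Datum B) : ∃ S : ℕ → (H →L[ℂ] H),
    (∀ N, S N ∈ B.M) ∧ (∀ N, star (S N) = S N) ∧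
    (∀ N, S N * S N = 1 - B.E (d.k N) - d.e N) ∧
    (∀ N M, N ≤ M → S M * (1 - B.E (d.k N) - d.e N) = S N) ∧
    (∀ n N, n ≤ N → S N * B.E (d.k n) = d.e n * S N) :=
  ⟨Sf B d, Sf_mem B d, Sf_star B d, Sf_sq B d, fun _ _ h => Sf_Q B d h,
    fun _ _ h => Sf_inter B d h⟩

end Crest.Agent.R120
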