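import Crest.Agent.R120.TrcA
import Crest.Agent.R120.Rgt

/-!
# R120 piece Trc: the faithful trace on `AA`

Faithful: the right multiplications `R_b` of `exists_right` commute with `M`, hence with `s i`
(strong limit, `loc_tendsto`), hence with `AA` (`AA_induction_left`); `w b Ω = w R_b Ω = R_b w Ω = 0`
(`R_b Ω = b Ω`), and `M Ω` is dense. `τ w = B.tr w`; `tr(w* w) = ‖w Ω‖²`; `tr 1 = 1` (`norm_Ω`).
-/

set_option autoImplicit false
open scoped ComplexOrder InnerProductSpace Topology
open Filter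

namespace Crest.Agent.R120

variable {H : Type} [NormedAddCommGroup H] [InnerProductSpace ℂ H] [CompleteSpace H]

theorem AA_faithful {B : Base H} {I : Set (Datum B)} {s : Datum B → (H →L[ℂ] H)}
    (hs : ∀ i ∈ I, IsSym B i (s i)) {x : H →L[ℂ] H} (hx : x ∈ AA B I s) (h : x B.Ω = 0) :
    x = 0 := by
  have key : ∀ b ∈ B.M, x (b B.Ω) = 0 := by
    intro b hb
    obtain ⟨R, hR1, hR2⟩ := exists_right B hb
    have hsR : ∀ i ∈ I, R * s i = s i * R := by
      intro i hi
      refine ContinuousLinearMap.ext fun v => ?_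
      have h1 := loc_tendsto B (hs i hi) v
      have h2 := loc_tendsto B (hs i hi) (R v)
      have h3 : Tendsto (fun n => R ((s i * (1 - B.E (i.k n) - i.e n)) v)) atTop (𝓝 (R (s i v))) :=
        (R.continuous.tendsto _).comp h1
      have h4 : (fun n => R ((s i * (1 - B.E (i.k n) - i.e n)) v)) =
          fun n => (s i * (1 - B.E (i.k n) - i.e n)) (R v) := by
        funext n
        have := congrArg (fun T : H →L[ℂ] H => T v) (hR2 _ ((hs i hi).loc n))
        exact this
      rw [h4] at h3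
      exact tendsto_nhds_unique h3 h2
    have hc : R * x = x * R := by
      refine AA_induction_left (p := fun w => R * w = w * R) (fun i hi => (hs i hi).star_eq)
        (by rw [mul_one, one_mul]) ?_ ?_ ?_ ?_ hx
      · intro a b ha hb
        rw [mul_add, add_mul, ha, hb]
      · intro y hy w hw
        rw [← mul_assoc, hR2 y hy, mul_assoc, hw, mul_assoc]
      · intro i hi w hw
        rw [← mul_assoc, hsR i hi, mul_assoc, hw, mul_assoc]
      · exact isClosed_eq (continuous_const.mul continuous_id) (continuous_id.mul continuous_const)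
    have hRΩ : R B.Ω = b B.Ω := by
      have := hR1 1 (one_mem _)
      simpa using this
    have h5 := congrArg (fun T : H →L[ℂ] H => T B.Ω) hc
    have h6 : R (x B.Ω) = x (R B.Ω) := h5
    rw [h, map_zero, hRΩ] at h6
    exact h6.symm
  have hd : Dense {v : H | ∃ (m : ℕ) (x : Mx m), v = B.φ m x B.Ω} := B.cyclic
  have hclosed : IsClosed {v : H | x v = 0} := isClosed_eq x.continuous continuous_const
  refine ContinuousLinearMap.ext fun v => ?_
  have hsub : {v : H | ∃ (m : ℕ) (x : Mx m), v = B.φ m x B.Ω} ⊆ {v : H | x v = 0} := by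
    rintro _ ⟨m, y, rfl⟩
    exact key _ ⟨m, y, rfl⟩
  have := (hclosed.closure_subset_iff.2 hsub) (hd v)
  exact this

theorem exists_trace {B : Base H} {I : Set (Datum B)} {s : Datum B → (H →L[ℂ] H)}
    (hs : ∀ i ∈ I, IsSym B i (s i)) :
    ∃ τ : AA B I s →ₗ[ℂ] ℂ, Crest.OpAlg.IsFaithfulTracialState τ := by
  refine ⟨{ toFun := fun w => B.tr (w : H →L[ℂ] H)
            map_add' := fun a b => ?_
            map_smul' := fun c a => ?_ }, ?_, ?_, ?_, ?_⟩
  · show ⟪B.Ω, ((a + b : AA B I s) : H →L[ℂ] H) B.Ω⟫_ℂ = _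
    rw [show ((a + b : AA B I s) : H →L[ℂ] H) = (a : H →L[ℂ] H) + (b : H →L[ℂ] H) from rfl,
      ContinuousLinearMap.add_apply, inner_add_right]
    rfl
  · show ⟪B.Ω, ((c • a : AA B I s) : H →L[ℂ] H) B.Ω⟫_ℂ = _
    rw [show ((c • a : AA B I s) : H →L[ℂ] H) = c • (a : H →L[ℂ] H) from rfl,
      ContinuousLinearMap.smul_apply, inner_smul_right]
    rfl
  · show ⟪B.Ω, ((1 : AA B I s) : H →L[ℂ] H) B.Ω⟫_ℂ = 1
    rw [show ((1 : AA B I s) : H →L[ℂ] H) = 1 from rfl, ContinuousLinearMap.one_apply,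
      inner_self_eq_norm_sq_to_K, norm_Ω]
    simp
  · intro a
    have : B.tr (((star a * a : AA B I s)) : H →L[ℂ] H) =
        ((‖(a : H →L[ℂ] H) B.Ω‖ ^ 2 : ℝ) : ℂ) := tr_star_mul_self B (a : H →L[ℂ] H)
    show (B.tr (((star a * a : AA B I s)) : H →L[ℂ] H)).im = 0 ∧
      0 ≤ (B.tr (((star a * a : AA B I s)) : H →L[ℂ] H)).re
    rw [this]
    refine ⟨Complex.ofReal_im _, ?_⟩
    rw [Complex.ofReal_re]
    positivity
  · intro a ha
    have h1 : B.tr (((star a * a : AA B I s)) : H →L[ℂ] H) =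
        ((‖(a : H →L[ℂ] H) B.Ω‖ ^ 2 : ℝ) : ℂ) := tr_star_mul_self B (a : H →L[ℂ] H)
    have h2 : B.tr (((star a * a : AA B I s)) : H →L[ℂ] H) = 0 := ha
    rw [h1, Complex.ofReal_eq_zero] at h2
    have h3 : (a : H →L[ℂ] H) B.Ω = 0 := by
      rw [← norm_eq_zero]
      exact pow_eq_zero_iff (two_ne_zero) |>.mp h2
    exact Subtype.ext (AA_faithful hs a.2 h3)
  · intro a b
    exact AA_tr_mul_comm hs a.2 b.2

end Crest.Agent.R120
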