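import Crest.Agent.R120.Sym
import Crest.Agent.R120.Ind

/-!
# R120 piece TrcA: the trace property on `AA`

`SL w`: there is a bounded sequence `a_n ∈ M` with `a_n v → w v` and `a_n* v → w* v` for all `v`.
`SL` holds on `M` and for `s i` (`loc_tendsto`; adjoint `(1 - E - e) s`, `E_tendsto`, `e_tendsto`),
and is closed under `+`, `*`: so for all elements of `StarAlgebra.adjoin`
(`adjoin_induction_left`). Hence `tr (x y) = tr (y x)` on the adjoin
(`⟪Ω, x y Ω⟫ = ⟪x* Ω, y Ω⟫ = lim ⟪a_n* Ω, b_n Ω⟫`, `tr_mul_comm`), and on `AA` by continuity.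
-/

set_option autoImplicit false
open scoped ComplexOrder InnerProductSpace Topology
open Filter

namespace Crest.Agent.R120

variable {H : Type} [NormedAddCommGroup H] [InnerProductSpace ℂ H] [CompleteSpace H]

theorem TrcA_aux.tr_add (B : Base H) (S T : H →L[ℂ] H) : B.tr (S + T) = B.tr S + B.tr T := by
  unfold Base.tr
  rw [ContinuousLinearMap.add_apply, inner_add_right]

theorem TrcA_aux.tr_cont (B : Base H) : Continuous (fun T : H →L[ℂ] H => B.tr T) := by
  unfold Base.tr
  fun_prop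

/-- `tr (a_n u) → tr (s u)` when `a_n → s` strongly -/
theorem TrcA_aux.tr_lim (B : Base H) {d : Datum B} {s : H →L[ℂ] H} (hs : IsSym B d s)
    (x u : H →L[ℂ] H) :
    Tendsto (fun n => B.tr (x * (s * (1 - B.E (d.k n) - d.e n)) * u)) atTop
      (𝓝 (B.tr (x * s * u))) := by
  unfold Base.tr
  have h1 := loc_tendsto B hs (u B.Ω)
  have h2 : Tendsto (fun n => x ((s * (1 - B.E (d.k n) - d.e n)) (u B.Ω))) atTop
      (𝓝 (x (s (u B.Ω)))) := (x.continuous.tendsto _).comp h1
  have h3 := (tendsto_const_nhds (x := B.Ω) (f := atTop (α := ℕ))).inner (𝕜 := ℂ) h2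
  exact h3

theorem TrcA_aux.p1 {B : Base H} {I : Set (Datum B)} {s : Datum B → (H →L[ℂ] H)}
    (hs : ∀ i ∈ I, IsSym B i (s i)) {w : H →L[ℂ] H} (hw : w ∈ AA B I s) :
    ∀ x ∈ B.M, ∀ y ∈ B.M, B.tr (x * w * y) = B.tr (w * (y * x)) := by
  refine AA_induction_left (fun i hi => (hs i hi).star_eq)
    (p := fun w => ∀ x ∈ B.M, ∀ y ∈ B.M, B.tr (x * w * y) = B.tr (w * (y * x))) ?_ ?_ ?_ ?_ ?_ hw
  · intro x hx y hy
    rw [mul_one, one_mul]
    exact tr_mul_comm B hx hy
  · intro a b ha hb x hx y hy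
    rw [mul_add, add_mul, add_mul, TrcA_aux.tr_add, TrcA_aux.tr_add, ha x hx y hy, hb x hx y hy]
  · intro z hz w hw x hx y hy
    have h1 := hw (x * z) (mul_mem hx hz) y hy
    have h2 := hw z hz (y * x) (mul_mem hy hx)
    calc B.tr (x * (z * w) * y) = B.tr (x * z * w * y) := by simp only [mul_assoc]
      _ = B.tr (w * (y * (x * z))) := h1
      _ = B.tr (w * (y * x * z)) := by simp only [mul_assoc]
      _ = B.tr (z * w * (y * x)) := h2.symm
  · intro i hi w hw x hx y hy
    have hz : ∀ n, s i * (1 - B.E (i.k n) - i.e n) ∈ B.M := (hs i hi).loc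
    have l1 := TrcA_aux.tr_lim B (hs i hi) x (w * y)
    have l2 := TrcA_aux.tr_lim B (hs i hi) 1 (w * (y * x))
    have heq : ∀ n, B.tr (x * (s i * (1 - B.E (i.k n) - i.e n)) * (w * y)) =
        B.tr (1 * (s i * (1 - B.E (i.k n) - i.e n)) * (w * (y * x))) := by
      intro n
      set z := s i * (1 - B.E (i.k n) - i.e n) with hzdef
      have h1 := hw (x * z) (mul_mem hx (hz n)) y hy
      have h2 := hw z (hz n) (y * x) (mul_mem hy hx)
      calc B.tr (x * z * (w * y)) = B.tr (x * z * w * y) := by simp only [mul_assoc]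
        _ = B.tr (w * (y * (x * z))) := h1
        _ = B.tr (w * (y * x * z)) := by simp only [mul_assoc]
        _ = B.tr (z * w * (y * x)) := h2.symm
        _ = _ := by rw [one_mul, mul_assoc z]
    have l3 := l1.congr heq
    have h4 := tendsto_nhds_unique l3 l2
    rw [one_mul] at h4
    calc B.tr (x * (s i * w) * y) = B.tr (x * s i * (w * y)) := by simp only [mul_assoc]
      _ = _ := h4
      _ = _ := by simp only [mul_assoc]
  · simp only [Set.setOf_forall]
    refine isClosed_iInter fun x => isClosed_iInter fun _ => isClosed_iInter fun y =>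
      isClosed_iInter fun _ => ?_
    exact isClosed_eq ((TrcA_aux.tr_cont B).comp (by fun_prop))
      ((TrcA_aux.tr_cont B).comp (by fun_prop))

theorem AA_tr_mul_comm {B : Base H} {I : Set (Datum B)} {s : Datum B → (H →L[ℂ] H)}
    (hs : ∀ i ∈ I, IsSym B i (s i)) {x y : H →L[ℂ] H} (hx : x ∈ AA B I s) (hy : y ∈ AA B I s) :
    B.tr (x * y) = B.tr (y * x) := by
  have key : x ∈ AA B I s ∧ ∀ w ∈ AA B I s, B.tr (x * w) = B.tr (w * x) := by
    refine AA_induction_left (fun i hi => (hs i hi).star_eq)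
      (p := fun x => x ∈ AA B I s ∧ ∀ w ∈ AA B I s, B.tr (x * w) = B.tr (w * x)) ?_ ?_ ?_ ?_ ?_ hx
    · exact ⟨one_mem _, fun w _ => by rw [one_mul, mul_one]⟩
    · rintro a b ⟨ha, ha'⟩ ⟨hb, hb'⟩
      refine ⟨add_mem ha hb, fun w hw => ?_⟩
      rw [add_mul, mul_add, TrcA_aux.tr_add, TrcA_aux.tr_add, ha' w hw, hb' w hw]
    · rintro z hz x ⟨hx, hx'⟩
      refine ⟨mul_mem (M_le_AA B I s hz) hx, fun w hw => ?_⟩
      have h1 := TrcA_aux.p1 hs (mul_mem hx hw) z hz 1 (one_mem _)
      have h2 := hx' (w * z) (mul_mem hw (M_le_AA B I s hz))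
      calc B.tr (z * x * w) = B.tr (z * (x * w) * 1) := by rw [mul_one, mul_assoc]
        _ = B.tr (x * w * (1 * z)) := h1
        _ = B.tr (x * (w * z)) := by rw [one_mul, mul_assoc]
        _ = B.tr (w * z * x) := h2
        _ = _ := by rw [mul_assoc]
    · rintro i hi x ⟨hx, hx'⟩
      have hsi : s i ∈ AA B I s := s_mem_AA B s hi
      refine ⟨mul_mem hsi hx, fun w hw => ?_⟩
      have hz : ∀ n, s i * (1 - B.E (i.k n) - i.e n) ∈ B.M := (hs i hi).loc
      have l1 := TrcA_aux.tr_lim B (hs i hi) 1 (x * w)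
      have l2 := TrcA_aux.tr_lim B (hs i hi) (x * w) 1
      have heq : ∀ n, B.tr (1 * (s i * (1 - B.E (i.k n) - i.e n)) * (x * w)) =
          B.tr (x * w * (s i * (1 - B.E (i.k n) - i.e n)) * 1) := by
        intro n
        have h1 := TrcA_aux.p1 hs (mul_mem hx hw) _ (hz n) 1 (one_mem _)
        rw [one_mul, mul_one]
        rw [mul_one, one_mul] at h1
        exact h1
      have h4 := tendsto_nhds_unique (l1.congr heq) l2
      rw [one_mul, mul_one] at h4
      have h5 := hx' (w * s i) (mul_mem hw hsi)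
      calc B.tr (s i * x * w) = B.tr (s i * (x * w)) := by rw [mul_assoc]
        _ = B.tr (x * w * s i) := h4
        _ = B.tr (x * (w * s i)) := by rw [mul_assoc]
        _ = B.tr (w * s i * x) := h5
        _ = _ := by rw [mul_assoc]
    · have h1 : {w | w ∈ AA B I s ∧ ∀ w_1 ∈ AA B I s, B.tr (w * w_1) = B.tr (w_1 * w)} =
          (AA B I s : Set (H →L[ℂ] H)) ∩
            ⋂ w₁ : (AA B I s), {w : H →L[ℂ] H | B.tr (w * w₁) = B.tr (w₁ * w)} := by
        ext w
        simp only [Set.mem_setOf_eq, Set.mem_inter_iff, SetLike.mem_coe, Set.mem_iInter,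
          Subtype.forall]
      show IsClosed {w | w ∈ AA B I s ∧ ∀ w_1 ∈ AA B I s, B.tr (w * w_1) = B.tr (w_1 * w)}
      rw [h1]
      refine (isClosed_AA B I s).inter (isClosed_iInter fun w₁ => ?_)
      exact isClosed_eq ((TrcA_aux.tr_cont B).comp (by fun_prop))
        ((TrcA_aux.tr_cont B).comp (by fun_prop))
  exact key.2 y hy

end Crest.Agent.R120
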