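import Crest.Agent.R120.UEd

/-!
# R120 piece UEa: the product `s_i b`

`s_i b E_n = s_i E_{k_m} b E_n + s_i e_m b E_n + (s_i (1 - E_{k_m} - e_m)) b E_n`;
for `m` large and `n ≥ k_m`: `E_{k_m} b E_n = (E_{k_m} b E_{k_m}) E_n = c E_n` exactly
(`excise_E`, so the first term is `c s_i E_n`), the second term is small (`base_small`,
`‖s_i‖ ≤ 1`), the third is in `M E_n` (`IsSym.loc`). `J = {i}`, `b_i = c • 1`.
-/

set_option autoImplicit false
open scoped ComplexOrder InnerProductSpace Topology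
open Filter

namespace Crest.Agent.R120

variable {H : Type} [NormedAddCommGroup H] [InnerProductSpace ℂ H] [CompleteSpace H]

namespace UEa_aux

theorem norm_s_le {s : H →L[ℂ] H} (h1 : star s = s) (h2 : s * s = 1) : ‖s‖ ≤ 1 := by
  have h3 : ‖star s * s‖ = ‖s‖ * ‖s‖ := CStarRing.norm_star_mul_self
  rw [h1, h2] at h3
  have h4 : ‖(1 : H →L[ℂ] H)‖ ≤ 1 := ContinuousLinearMap.norm_id_le
  nlinarith [norm_nonneg s]

end UEa_aux

theorem good_sb {B : Base H} {I : Set (Datum B)} (hI : IsFam B I)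
    {s : Datum B → (H →L[ℂ] H)} (hs : ∀ i ∈ I, IsSym B i (s i)) {i : Datum B} (hi : i ∈ I)
    {b : H →L[ℂ] H} (hb : b ∈ B.M) : Good B I s (s i * b) := by
  intro ε hε
  obtain ⟨N₁, c, h₁⟩ := excise_E B hb
  obtain ⟨N₂, h₂⟩ := base_small B i (hI.base i hi) hb hε
  set m := max N₁ N₂ with hm
  set k := i.k m with hk
  have hmk : m ≤ k := i.k_mono.le_apply
  have hsi := hs i hi
  refine ⟨{i}, s i * (1 - B.E k - i.e m) * b, fun _ => c • 1, k, ?_, ?_, ?_, ?_⟩
  · intro j hj
    rw [Finset.mem_singleton] at hj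
    rw [hj]; exact hi
  · exact mul_mem (hsi.loc m) hb
  · intro j
    exact B.M.smul_mem (one_mem _) c
  · intro n hn
    have hE : B.E k * b * B.E n = c • B.E n := by
      have h3 : B.E k * b * B.E k = c • B.E k := h₁ k ((le_max_left _ _).trans hmk)
      calc B.E k * b * B.E n = B.E k * b * (B.E k * B.E n) := by rw [E_mul_E B hn]
        _ = (B.E k * b * B.E k) * B.E n := by simp only [mul_assoc]
        _ = c • B.E n := by rw [h3, smul_mul_assoc, E_mul_E B hn]
    have key : s i * b * B.E n - s i * (1 - B.E k - i.e m) * b * B.E n -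
        ∑ j ∈ ({i} : Finset (Datum B)), (c • (1 : H →L[ℂ] H)) * s j * B.E n =
        s i * (i.e m * b * B.E n) := by
      rw [Finset.sum_singleton]
      have h4 : (c • (1 : H →L[ℂ] H)) * s i * B.E n = s i * (B.E k * b * B.E n) := by
        rw [hE, smul_mul_assoc, one_mul, smul_mul_assoc, mul_smul_comm]
      rw [h4]
      noncomm_ring
    rw [key]
    have h5 : ‖i.e m * b * B.E n‖ < ε := by
      refine (h₂ n m ?_ ?_).2
      · exact ((le_max_right _ _).trans hmk).trans hn
      · exact le_max_right _ _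
    calc ‖s i * (i.e m * b * B.E n)‖ ≤ ‖s i‖ * ‖i.e m * b * B.E n‖ := norm_mul_le _ _
      _ ≤ 1 * ‖i.e m * b * B.E n‖ :=
          mul_le_mul_of_nonneg_right (UEa_aux.norm_s_le hsi.star_eq hsi.sq) (norm_nonneg _)
      _ < ε := by rw [one_mul]; exact h5

end Crest.Agent.R120
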