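import Crest.Agent.R120.UEd

/-!
# R120 piece UEa2: the product `s_i b s_j`

For `n ≥ k^j_t`: `s_j E_n = s_j E_{k^j_t} E_n = e^j_t s_j E_n`, so
`s_i b s_j E_n = s_i (b e^j_t) s_j E_n`; split `1 = E_{k^i_m} + e^i_m + (1 - E_{k^i_m} - e^i_m)`
in front of `b e^j_t`. First term small (`base_small`, for `j`). Second: small if `i ≠ j`
(`pair_small`); if `i = j` it is `≈ c s_i e^i_t s_i E_n = c s_i s_i E_{k_t} E_n = c E_n`
(`excise'`, `IsSym.inter`, `IsSym.sq`). Third: `(s_i (1 - ..)) b s_j E_n`, coefficient in `M`.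
-/

set_option autoImplicit false
open scoped ComplexOrder InnerProductSpace Topology
open Filter

namespace Crest.Agent.R120

variable {H : Type} [NormedAddCommGroup H] [InnerProductSpace ℂ H] [CompleteSpace H]

namespace UEa2_aux

theorem sym_norm {B : Base H} {d : Datum B} {s : H →L[ℂ] H} (h : IsSym B d s) : ‖s‖ ≤ 1 := by
  have h1 : ‖star s * s‖ = ‖s‖ * ‖s‖ := CStarRing.norm_star_mul_self
  rw [h.star_eq, h.sq] at h1
  have h2 : ‖(1 : H →L[ℂ] H)‖ ≤ 1 := ContinuousLinearMap.norm_id_le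
  nlinarith [norm_nonneg s]

theorem norm4 {a x b c : H →L[ℂ] H} (ha : ‖a‖ ≤ 1) (hb : ‖b‖ ≤ 1) (hc : ‖c‖ ≤ 1) :
    ‖a * x * b * c‖ ≤ ‖x‖ := by
  have h1 : ‖a * x‖ ≤ ‖x‖ := (norm_mul_le _ _).trans (by nlinarith [norm_nonneg x, norm_nonneg a])
  have h2 : ‖a * x * b‖ ≤ ‖x‖ := (norm_mul_le _ _).trans
    (by nlinarith [norm_nonneg (a * x), norm_nonneg b])
  exact (norm_mul_le _ _).trans (by nlinarith [norm_nonneg (a * x * b), norm_nonneg c])

end UEa2_aux

open UEa2_aux in
theorem good_sbs {B : Base H} {I : Set (Datum B)} (hI : IsFam B I)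
    {s : Datum B → (H →L[ℂ] H)} (hs : ∀ i ∈ I, IsSym B i (s i)) {i j : Datum B} (hi : i ∈ I)
    (hj : j ∈ I) {b : H →L[ℂ] H} (hb : b ∈ B.M) : Good B I s (s i * b * s j) := by
  intro ε hε
  have hi1 := sym_norm (hs i hi)
  have hj1 := sym_norm (hs j hj)
  have hE1 : ∀ n, ‖B.E n‖ ≤ 1 := fun n => norm_le_one (E_proj B n)
  obtain ⟨N1, h1⟩ := base_small B j (hI.base j hj) hb (half_pos hε)
  have key : ∃ (c : ℂ) (N2 : ℕ), ∀ m t, N2 ≤ m → m ≤ t → ∀ n, j.k t ≤ n →
      ‖s i * (i.e m * b * j.e t) * s j * B.E n - c • B.E n‖ < ε / 2 := by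
    by_cases hij : i = j
    · subst hij
      obtain ⟨N2, c, h2⟩ := excise' B i hb (half_pos hε)
      refine ⟨c, N2, fun m t hm hmt n hn => ?_⟩
      have h3 := h2 m t hm hmt
      have h4 : s i * (c • i.e t) * s i * B.E n = c • B.E n := by
        have h5 : i.e t * s i * B.E n = s i * B.E n := by
          rw [← (hs i hi).inter t, mul_assoc, E_mul_E B hn]
        calc s i * (c • i.e t) * s i * B.E n = c • (s i * (i.e t * s i * B.E n)) := by
              rw [mul_smul_comm, smul_mul_assoc, smul_mul_assoc]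
              simp only [mul_assoc]
          _ = c • B.E n := by rw [h5, ← mul_assoc, (hs i hi).sq, one_mul]
      have h6 : s i * (i.e m * b * i.e t) * s i * B.E n - c • B.E n =
          s i * (i.e m * b * i.e t - c • i.e t) * s i * B.E n := by
        rw [mul_sub, sub_mul, sub_mul, h4]
      rw [h6]
      exact (norm4 hi1 hi1 (hE1 n)).trans_lt h3
    · obtain ⟨N2, h2⟩ := pair_small B i j (hI.pair i hi j hj hij) hb (half_pos hε)
      refine ⟨0, N2, fun m t hm hmt n hn => ?_⟩
      rw [zero_smul, sub_zero]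
      exact (norm4 hi1 hj1 (hE1 n)).trans_lt (h2 m t hm (hm.trans hmt))
  obtain ⟨c, N2, h2⟩ := key
  -- choose the levels
  set m := max N1 N2 with hm
  have hkm : N1 ≤ i.k m := (le_max_left _ _).trans i.k_mono.le_apply
  have hRM : s i * (1 - B.E (i.k m) - i.e m) ∈ B.M := (hs i hi).loc m
  refine ⟨{j}, c • 1, fun _ => s i * (1 - B.E (i.k m) - i.e m) * b, j.k m, ?_, ?_, ?_, ?_⟩
  · intro a ha
    rw [Finset.mem_singleton] at ha
    rw [ha]; exact hj
  · exact B.M.smul_mem (one_mem _) c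
  · intro _
    exact mul_mem hRM hb
  · intro n hn
    rw [Finset.sum_singleton]
    have hA : j.e m * s j * B.E n = s j * B.E n := by
      rw [← (hs j hj).inter m, mul_assoc, E_mul_E B hn]
    have e1 : s i * b * s j * B.E n - (c • (1 : H →L[ℂ] H)) * B.E n -
        s i * (1 - B.E (i.k m) - i.e m) * b * s j * B.E n =
        s i * (B.E (i.k m) * b * j.e m) * s j * B.E n +
        (s i * (i.e m * b * j.e m) * s j * B.E n - c • B.E n) := by
      have e2 : s i * (B.E (i.k m) * b * j.e m) * s j * B.E n =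
          s i * B.E (i.k m) * b * s j * B.E n := by
        rw [show s i * (B.E (i.k m) * b * j.e m) * s j * B.E n =
          s i * B.E (i.k m) * b * (j.e m * s j * B.E n) by simp only [mul_assoc], hA]
        simp only [mul_assoc]
      have e3 : s i * (i.e m * b * j.e m) * s j * B.E n =
          s i * i.e m * b * s j * B.E n := by
        rw [show s i * (i.e m * b * j.e m) * s j * B.E n =
          s i * i.e m * b * (j.e m * s j * B.E n) by simp only [mul_assoc], hA]
        simp only [mul_assoc]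
      rw [e2, e3, smul_mul_assoc, one_mul]
      simp only [mul_sub, sub_mul, mul_one]
      abel
    rw [e1]
    have n1 : ‖s i * (B.E (i.k m) * b * j.e m) * s j * B.E n‖ < ε / 2 :=
      (norm4 hi1 hj1 (hE1 n)).trans_lt (h1 _ _ hkm (le_max_left _ _)).1
    have n2 := h2 m m (le_max_right _ _) le_rfl n hn
    calc _ ≤ _ := norm_add_le _ _
      _ < ε / 2 + ε / 2 := add_lt_add n1 n2
      _ = ε := by ring

end Crest.Agent.R120
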