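import Crest.Agent.R120.UEa
import Crest.Agent.R120.UEa2

/-!
# R120 piece UEb: unique extension at the base sequence

1. `Good` is closed under `+`, scalar multiples, left multiplication by `M`, norm limits, and
   (using `good_sb`, `good_sbs`) left multiplication by `s i`, `i ∈ I`.
2. `AA_induction_left` (Ind.lean) gives `good_all`.
3. `E_n b_j s_j E_n = E_n b_j e^j_t s_j E_n` is small (`base_small`), `E_n b₀ E_n = c E_n`.
-/

set_option autoImplicit false
open scoped ComplexOrder InnerProductSpace Topology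
open Filter

namespace Crest.Agent.R120

variable {H : Type} [NormedAddCommGroup H] [InnerProductSpace ℂ H] [CompleteSpace H]

namespace UEb

theorem norm_E_le (B : Base H) (n : ℕ) : ‖B.E n‖ ≤ 1 := norm_le_one (E_proj B n)

theorem norm_sym_le {B : Base H} {d : Datum B} {s : H →L[ℂ] H} (h : IsSym B d s) : ‖s‖ ≤ 1 := by
  have h1 : ‖star s * s‖ = ‖s‖ * ‖s‖ := CStarRing.norm_star_mul_self
  rw [h.star_eq, h.sq] at h1
  have h2 : ‖(1 : H →L[ℂ] H)‖ ≤ 1 := ContinuousLinearMap.norm_id_le
  nlinarith [norm_nonneg s]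

variable {B : Base H} {I : Set (Datum B)} {s : Datum B → (H →L[ℂ] H)}

theorem good_M {x : H →L[ℂ] H} (hx : x ∈ B.M) : Good B I s x := by
  intro ε hε
  refine ⟨∅, x, fun _ => 0, 0, by simp, hx, fun _ => zero_mem _, fun n _ => ?_⟩
  simpa using hε

theorem good_add {w w' : H →L[ℂ] H} (h : Good B I s w) (h' : Good B I s w') :
    Good B I s (w + w') := by
  classical
  intro ε hε
  obtain ⟨J, b₀, b, N, hJ, hb₀, hb, hn⟩ := h (ε / 2) (by positivity)
  obtain ⟨J', b₀', b', N', hJ', hb₀', hb', hn'⟩ := h' (ε / 2) (by positivity)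
  refine ⟨J ∪ J', b₀ + b₀', fun j => (if j ∈ J then b j else 0) + (if j ∈ J' then b' j else 0),
    max N N', ?_, add_mem hb₀ hb₀', ?_, ?_⟩
  · intro j hj
    rcases Finset.mem_union.1 hj with h | h
    · exact hJ j h
    · exact hJ' j h
  · intro j
    refine add_mem ?_ ?_
    · split_ifs
      · exact hb j
      · exact zero_mem _
    · split_ifs
      · exact hb' j
      · exact zero_mem _
  · intro n hN
    have h1 := hn n ((le_max_left _ _).trans hN)
    have h2 := hn' n ((le_max_right _ _).trans hN)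
    have e1 : ∑ j ∈ J ∪ J', ((if j ∈ J then b j else 0) + (if j ∈ J' then b' j else 0)) * s j *
        B.E n = ∑ j ∈ J, b j * s j * B.E n + ∑ j ∈ J', b' j * s j * B.E n := by
      simp only [add_mul, Finset.sum_add_distrib]
      congr 1
      · rw [← Finset.sum_filter_add_sum_filter_not (J ∪ J') (fun j => j ∈ J)]
        have : (J ∪ J').filter (fun j => j ∈ J) = J := by
          ext j; simp
        rw [this]
        rw [Finset.sum_eq_zero (s := (J ∪ J').filter (fun j => ¬ j ∈ J)), add_zero]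
        · exact Finset.sum_congr rfl fun j hj => by rw [if_pos hj]
        · intro j hj
          rw [if_neg (Finset.mem_filter.1 hj).2, zero_mul, zero_mul]
      · rw [← Finset.sum_filter_add_sum_filter_not (J ∪ J') (fun j => j ∈ J')]
        have : (J ∪ J').filter (fun j => j ∈ J') = J' := by
          ext j; simp
        rw [this]
        rw [Finset.sum_eq_zero (s := (J ∪ J').filter (fun j => ¬ j ∈ J')), add_zero]
        · exact Finset.sum_congr rfl fun j hj => by rw [if_pos hj]
        · intro j hj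
          rw [if_neg (Finset.mem_filter.1 hj).2, zero_mul, zero_mul]
    rw [e1]
    have e2 : (w + w') * B.E n - (b₀ + b₀') * B.E n -
        (∑ j ∈ J, b j * s j * B.E n + ∑ j ∈ J', b' j * s j * B.E n) =
        (w * B.E n - b₀ * B.E n - ∑ j ∈ J, b j * s j * B.E n) +
        (w' * B.E n - b₀' * B.E n - ∑ j ∈ J', b' j * s j * B.E n) := by
      rw [add_mul, add_mul]; abel
    rw [e2]
    refine (norm_add_le _ _).trans_lt ?_
    linarith

theorem good_mulM {x w : H →L[ℂ] H} (hx : x ∈ B.M) (h : Good B I s w) : Good B I s (x * w) := by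
  intro ε hε
  obtain ⟨J, b₀, b, N, hJ, hb₀, hb, hn⟩ := h (ε / (‖x‖ + 1)) (by positivity)
  refine ⟨J, x * b₀, fun j => x * b j, N, hJ, mul_mem hx hb₀, fun j => mul_mem hx (hb j), ?_⟩
  intro n hN
  have e1 : x * w * B.E n - x * b₀ * B.E n - ∑ j ∈ J, x * b j * s j * B.E n =
      x * (w * B.E n - b₀ * B.E n - ∑ j ∈ J, b j * s j * B.E n) := by
    rw [mul_sub, mul_sub, Finset.mul_sum]
    simp only [mul_assoc]
  rw [e1]
  refine (norm_mul_le _ _).trans_lt ?_
  have h1 := hn n hN
  calc ‖x‖ * ‖w * B.E n - b₀ * B.E n - ∑ j ∈ J, b j * s j * B.E n‖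
      ≤ ‖x‖ * (ε / (‖x‖ + 1)) := by gcongr
    _ < (‖x‖ + 1) * (ε / (‖x‖ + 1)) := by
        have : 0 < ε / (‖x‖ + 1) := by positivity
        nlinarith
    _ = ε := by field_simp

theorem good_of_close {w : H →L[ℂ] H} (h : ∀ ε : ℝ, 0 < ε → ∃ w', Good B I s w' ∧
    ∃ N : ℕ, ∀ n, N ≤ n → ‖w * B.E n - w' * B.E n‖ < ε) : Good B I s w := by
  intro ε hε
  obtain ⟨w', hw', N', hN'⟩ := h (ε / 2) (by positivity)
  obtain ⟨J, b₀, b, N, hJ, hb₀, hb, hn⟩ := hw' (ε / 2) (by positivity)
  refine ⟨J, b₀, b, max N N', hJ, hb₀, hb, fun n hN => ?_⟩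
  have h1 := hn n ((le_max_left _ _).trans hN)
  have h2 := hN' n ((le_max_right _ _).trans hN)
  have e1 : w * B.E n - b₀ * B.E n - ∑ j ∈ J, b j * s j * B.E n =
      (w * B.E n - w' * B.E n) + (w' * B.E n - b₀ * B.E n - ∑ j ∈ J, b j * s j * B.E n) := by
    abel
  rw [e1]
  refine (norm_add_le _ _).trans_lt ?_
  linarith

theorem good_sum {ι : Type} (F : Finset ι) (w : ι → (H →L[ℂ] H))
    (h : ∀ i ∈ F, Good B I s (w i)) : Good B I s (∑ i ∈ F, w i) := by
  classical
  induction F using Finset.induction_on with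
  | empty => simpa using good_M (zero_mem _)
  | insert a F ha ih =>
    rw [Finset.sum_insert ha]
    exact good_add (h a (Finset.mem_insert_self _ _)) (ih fun i hi => h i (Finset.mem_insert_of_mem hi))

end UEb

open UEb

theorem good_all {B : Base H} {I : Set (Datum B)} (hI : IsFam B I)
    {s : Datum B → (H →L[ℂ] H)} (hs : ∀ i ∈ I, IsSym B i (s i)) {w : H →L[ℂ] H}
    (hw : w ∈ AA B I s) : Good B I s w := by
  refine AA_induction_left (p := fun w => Good B I s w) (fun i hi => (hs i hi).star_eq)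
    (good_M (one_mem _)) (fun a b => good_add) (fun x hx w h => good_mulM hx h) ?_ ?_ hw
  · intro i hi w h
    refine good_of_close fun ε hε => ?_
    obtain ⟨J, b₀, b, N, hJ, hb₀, hb, hn⟩ := h ε hε
    refine ⟨s i * b₀ + ∑ j ∈ J, s i * b j * s j, ?_, N, fun n hN => ?_⟩
    · exact good_add (good_sb hI hs hi hb₀)
        (good_sum J _ fun j hj => good_sbs hI hs hi (hJ j hj) (hb j))
    · have e1 : s i * w * B.E n - (s i * b₀ + ∑ j ∈ J, s i * b j * s j) * B.E n =
          s i * (w * B.E n - b₀ * B.E n - ∑ j ∈ J, b j * s j * B.E n) := by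
        rw [mul_sub, mul_sub, Finset.mul_sum, add_mul, Finset.sum_mul]
        simp only [mul_assoc]
        abel
      rw [e1]
      refine (norm_mul_le _ _).trans_lt ?_
      have h1 := hn n hN
      have h2 := norm_sym_le (hs i hi)
      nlinarith [norm_nonneg (w * B.E n - b₀ * B.E n - ∑ j ∈ J, b j * s j * B.E n)]
  · rw [← isSeqClosed_iff_isClosed]
    intro u w hu hlim
    refine good_of_close fun ε hε => ?_
    rw [Metric.tendsto_atTop] at hlim
    obtain ⟨N, hN⟩ := hlim ε hε
    refine ⟨u N, hu N, 0, fun n _ => ?_⟩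
    rw [← sub_mul]
    refine (norm_mul_le _ _).trans_lt ?_
    have h1 := hN N le_rfl
    rw [dist_eq_norm, norm_sub_rev] at h1
    have h2 := norm_E_le B n
    nlinarith [norm_nonneg (w - u N), norm_nonneg (B.E n)]

theorem ue {B : Base H} {I : Set (Datum B)} (hI : IsFam B I)
    {s : Datum B → (H →L[ℂ] H)} (hs : ∀ i ∈ I, IsSym B i (s i)) {w : H →L[ℂ] H}
    (hw : w ∈ AA B I s) {ε : ℝ} (hε : 0 < ε) :
    ∃ (N : ℕ) (c : ℂ), ∀ n, N ≤ n → ‖B.E n * w * B.E n - c • B.E n‖ < ε := by
  obtain ⟨J, b₀, b, N, hJ, hb₀, hb, hn⟩ := good_all hI hs hw (ε / 2) (by positivity)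
  obtain ⟨N₁, c, hc⟩ := excise_E B hb₀
  have hsmall : ∀ j ∈ J, ∃ Nj : ℕ, ∀ n, Nj ≤ n →
      ‖B.E n * (b j * s j * B.E n)‖ < ε / (2 * (J.card + 1)) := by
    intro j hj
    have hsj := hs j (hJ j hj)
    obtain ⟨t, ht⟩ := base_small B j (hI.base j (hJ j hj)) (hb j)
      (show 0 < ε / (2 * (J.card + 1)) by positivity)
    refine ⟨max t (j.k t), fun n hN => ?_⟩
    have h1 : j.k t ≤ n := (le_max_right _ _).trans hN
    have h2 : t ≤ n := (le_max_left _ _).trans hN
    have e1 : B.E n * (b j * s j * B.E n) = (B.E n * b j * j.e t) * (s j * B.E n) := by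
      have e2 : s j * B.E n = j.e t * (s j * B.E n) := by
        conv_lhs => rw [← E_mul_E B h1]
        rw [← mul_assoc, hsj.inter t, mul_assoc]
      calc B.E n * (b j * s j * B.E n) = B.E n * b j * (s j * B.E n) := by
            simp only [mul_assoc]
        _ = B.E n * b j * (j.e t * (s j * B.E n)) := by rw [← e2]
        _ = _ := by simp only [mul_assoc]
    rw [e1]
    refine (norm_mul_le _ _).trans_lt ?_
    have h3 := (ht n t h2 le_rfl).1
    have h4 : ‖s j * B.E n‖ ≤ 1 := by
      refine (norm_mul_le _ _).trans ?_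
      have := norm_sym_le hsj
      have := norm_E_le B n
      nlinarith [norm_nonneg (s j), norm_nonneg (B.E n)]
    nlinarith [norm_nonneg (B.E n * b j * j.e t), norm_nonneg (s j * B.E n)]
  choose! Nj hNj using hsmall
  refine ⟨max (max N N₁) (J.sup Nj), c, fun n hN => ?_⟩
  have h1 := hn n ((le_max_left _ _).trans ((le_max_left _ _).trans hN))
  have h2 := hc n ((le_max_right _ _).trans ((le_max_left _ _).trans hN))
  have h3 : ∀ j ∈ J, ‖B.E n * (b j * s j * B.E n)‖ ≤ ε / (2 * (J.card + 1)) := fun j hj =>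
    (hNj j hj n ((Finset.le_sup hj).trans ((le_max_right _ _).trans hN))).le
  have e1 : B.E n * w * B.E n - c • B.E n =
      B.E n * (w * B.E n - b₀ * B.E n - ∑ j ∈ J, b j * s j * B.E n) +
      ∑ j ∈ J, B.E n * (b j * s j * B.E n) := by
    rw [← h2, mul_sub, mul_sub, Finset.mul_sum]
    simp only [mul_assoc]
    abel
  rw [e1]
  have h4 : ‖B.E n * (w * B.E n - b₀ * B.E n - ∑ j ∈ J, b j * s j * B.E n)‖ < ε / 2 := by
    refine (norm_mul_le _ _).trans_lt ?_
    have := norm_E_le B n
    nlinarith [norm_nonneg (B.E n), norm_nonneg (w * B.E n - b₀ * B.E n - ∑ j ∈ J, b j * s j * B.E n)]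
  have h5 : ‖∑ j ∈ J, B.E n * (b j * s j * B.E n)‖ ≤ ε / 2 := by
    refine (norm_sum_le_of_le _ h3).trans ?_
    rw [Finset.sum_const, nsmul_eq_mul]
    have : (0 : ℝ) ≤ J.card := Nat.cast_nonneg _
    rw [mul_div_assoc', div_le_div_iff₀ (by positivity) (by norm_num)]
    nlinarith
  exact (norm_add_le _ _).trans_lt (by linarith)

end Crest.Agent.R120
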