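import Crest.Agent.R120.Dat
import Crest.Agent.R120.Ind

/-!
# R120: definition of `Good` (nothing to prove)
-/

set_option autoImplicit false
open scoped ComplexOrder InnerProductSpace Topology
open Filter

namespace Crest.Agent.R120

variable {H : Type} [NormedAddCommGroup H] [InnerProductSpace ℂ H] [CompleteSpace H]

/-- `w E_n = b₀ E_n + ∑_{j ∈ J} b_j s_j E_n + o(1)` -/
def Good (B : Base H) (I : Set (Datum B)) (s : Datum B → (H →L[ℂ] H)) (w : H →L[ℂ] H) : Prop :=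
  ∀ ε : ℝ, 0 < ε → ∃ (J : Finset (Datum B)) (b₀ : H →L[ℂ] H) (b : Datum B → (H →L[ℂ] H)) (N : ℕ),
    (∀ j ∈ J, j ∈ I) ∧ b₀ ∈ B.M ∧ (∀ j, b j ∈ B.M) ∧
    ∀ n, N ≤ n → ‖w * B.E n - b₀ * B.E n - ∑ j ∈ J, b j * s j * B.E n‖ < ε

end Crest.Agent.R120
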