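import Crest.Agent.R120.Dat

/-!
# R120 piece Zorn: a maximal family of pairwise unlinked data

`zorn_subset` (or `zorn_le₀`) for the sets `I` with `IsFam B I`; if `d ∉ I` and `d` is unlinked
from the base and `Unlinked B j.e d.e` for all `j ∈ I` then `insert d I` is a family
(`Unlinked.symm`).
-/

set_option autoImplicit false
open scoped ComplexOrder InnerProductSpace Topology
open Filter

namespace Crest.Agent.R120

variable {H : Type} [NormedAddCommGroup H] [InnerProductSpace ℂ H] [CompleteSpace H]

theorem exists_maxFam (B : Base H) : ∃ I : Set (Datum B), IsMaxFam B I := by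
  classical
  obtain ⟨I, hI⟩ := zorn_subset {I : Set (Datum B) | IsFam B I} (by
    intro c hc hch
    refine ⟨⋃₀ c, ⟨?_, ?_⟩, fun s hs => Set.subset_sUnion_of_mem hs⟩
    · rintro i ⟨s, hs, his⟩
      exact (hc hs).base i his
    · rintro i ⟨s, hs, his⟩ j ⟨t, ht, hjt⟩ hij
      rcases hch.total hs ht with hst | hts
      · exact (hc ht).pair i (hst his) j hjt hij
      · exact (hc hs).pair i his j (hts hjt) hij)
  refine ⟨I, hI.prop, fun d => ?_⟩
  by_contra hcon
  push Not at hcon
  obtain ⟨hdI, hb, hp⟩ := hcon
  have hfam : IsFam B (insert d I) := by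
    refine ⟨?_, ?_⟩
    · intro i hi
      rcases Set.mem_insert_iff.1 hi with rfl | hi
      · exact hb
      · exact hI.prop.base i hi
    · intro i hi j hj hij
      rcases Set.mem_insert_iff.1 hi with rfl | hi'
      · rcases Set.mem_insert_iff.1 hj with rfl | hj'
        · exact absurd rfl hij
        · exact (hp j hj').symm (fun n => (j.e_proj n).isSelfAdjoint.star_eq)
            (fun n => (i.e_proj n).isSelfAdjoint.star_eq)
      · rcases Set.mem_insert_iff.1 hj with rfl | hj'
        · exact hp i hi'
        · exact hI.prop.pair i hi' j hj' hij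
  exact hdI (hI.le_of_ge hfam (Set.subset_insert d I) (Set.mem_insert d I))

end Crest.Agent.R120
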